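import Vale.Agent.P246.Fat

/-! A spherical diagram from an identity among relators. -/

namespace Vale.Agent.P246

theorem algOf_cyc {A : Type} [Monoid A] {n : ℕ} (a : Fin (n + 1) → A) (h : (List.ofFn a).prod = 1) :
    ∃ y : Fin (n + 1) → A, y 0 = 1 ∧ ∀ i, y (i + 1) = y i * a i := by
  refine ⟨fun i => ((List.ofFn a).take i).prod, rfl, fun i => ?_⟩
  have e := List.prod_take_succ (List.ofFn a) i (by simpa using i.2)
  rw [List.getElem_ofFn] at e
  beta_reduce
  rw [← e, Fin.val_add_one]
  split_ifs with hi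
  · rw [hi, List.take_of_length_le (i := Fin.last n + 1) (by simp), h]
    rfl
  · rfl

theorem algOf_const {α : Type} {n : ℕ} (m : Fin (n + 1) → α) (h : ∀ i, m (i + 1) = m i) (j) :
    m j = m 0 := by
  induction j using Fin.induction with
  | zero => rfl
  | succ i ih => rw [← Fin.coeSucc_eq_succ, h, ih]

theorem alg_of_list {G : Type} [Group G] {S : Type} [DecidableEq S] {μ : S → G}
    {rel : Bool → FreeGroup S} (hrel : ∀ b, FreeGroup.lift μ (rel b) = 1)
    (l : List (FreeGroup S × Bool × Bool))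
    (h1 : (l.map fun z => z.1 * (if z.2.2 then rel z.2.1 else (rel z.2.1)⁻¹) * z.1⁻¹).prod = 1)
    (h2 : (l.map fun z => if z.2.1 then
      (MonoidAlgebra.single (FreeGroup.lift μ z.1) (if z.2.2 then 1 else -1) : MonoidAlgebra ℤ G)
      else 0).sum = 1) : Nonempty (Alg μ rel) := by
  obtain ⟨n, f, rfl⟩ : ∃ (n : ℕ) (f : Fin n → _), l = List.ofFn f := ⟨_, _, (List.ofFn_get l).symm⟩
  rw [List.map_ofFn] at h1 h2
  rw [List.sum_ofFn] at h2
  cases n with
  | zero => exact absurd h2 (by simp)
  | succ n =>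
  obtain ⟨y, y0, hy⟩ := algOf_cyc _ h1
  have key (M : Type) [AddCommGroup M] [DistribMulAction G M] (m₀ : M) :
      ∑ i, (if (f i).2.2 then 1 else -1 : ℤ) •
        (if (f i).2.1 then FreeGroup.lift μ (f i).1 • m₀ else 0) = m₀ := by
    have e := congrArg (fun x => (Representation.ofDistribMulAction ℤ G M).asAlgebraHom x m₀) h2
    simp only [map_sum, map_one, LinearMap.sum_apply, Module.End.one_apply] at e
    refine (Finset.sum_congr rfl fun i _ => ?_).trans e
    cases h : (f i).2.1 <;> cases h' : (f i).2.2 <;> simp [h, h']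
  refine ⟨⟨Fin (n + 1), Fin (n + 1), ⟨0⟩, y, fun j => ?_, fun i => (f i).2.1, fun i => (f i).1,
    fun i => if (f i).2.2 then i else i + 1, fun i => if (f i).2.2 then i + 1 else i,
    fun i => ?_, fun α m h j j' => ?_, fun M _ _ p => ?_, fun M _ _ m₀ m h => ?_⟩⟩
  · refine (algOf_const (fun j => FreeGroup.lift μ (y j)) (fun i => ?_) j).trans (by rw [y0, map_one])
    rw [hy]
    cases h : (f i).2.2 <;> simp [h, hrel]
  · cases h : (f i).2.2 <;> simp [h, hy, mul_assoc]
  · have e := algOf_const m fun i => by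
      have := h i
      split_ifs at this
      exacts [this, this.symm]
    rw [e j, e j']
  · set m₀ := ∑ i, (if (f i).2.2 then 1 else -1 : ℤ) • FreeGroup.lift μ (f i).1 • p i with e
    obtain ⟨m, -, hm⟩ := algOf_cyc (fun i => Multiplicative.ofAdd
      ((if (f i).2.2 then 1 else -1 : ℤ) • (FreeGroup.lift μ (f i).1 • p i -
        if (f i).2.1 then FreeGroup.lift μ (f i).1 • m₀ else 0))) (by
      rw [List.prod_ofFn, ← ofAdd_sum]
      simp only [smul_sub, Finset.sum_sub_distrib, key, ← e, sub_self, ofAdd_zero])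
    refine ⟨m₀, fun j => (m j).toAdd, fun i => ?_⟩
    cases h : (f i).2.2 <;> simp [h, hm]
  · refine (key M m₀).symm.trans (Eq.trans ?_ (sub_eq_zero.2 (Equiv.sum_comp (Equiv.addRight 1) m)))
    rw [← Finset.sum_sub_distrib]
    refine Finset.sum_congr rfl fun i _ => ?_
    rw [← h i]
    cases (f i).2.2 <;> simp

end Vale.Agent.P246
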