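import Vale.Agent.P246.Defs

/-! Chains and cochains on families with face maps; tuples; singular simplices. -/



namespace Vale.Agent.P246

/-- Integral chains on a set. -/
abbrev Ch (X : Type*) : Type _ := X →₀ ℤ

section Generic

variable {X X' Y Y' M N : Type*} [AddCommGroup M] [AddCommGroup N] {n : ℕ}

/-- The basis chain of an element. -/
noncomputable abbrev sg (x : X) : Ch X := Finsupp.single x 1

/-- The linear extension of a function. -/
noncomputable abbrev lin (f : X → M) : Ch X →ₗ[ℤ] M := Finsupp.linearCombination ℤ f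

/-- The map on chains induced by a map of sets. -/
noncomputable abbrev push (u : X → Y) : Ch X →ₗ[ℤ] Ch Y := Finsupp.lmapDomain ℤ ℤ u

/-- Chains all of whose terms lie in `s`. -/
noncomputable abbrev supp (s : Set X) : Submodule ℤ (Ch X) := Finsupp.supported ℤ ℤ s

/-- The coboundary for the face maps `d`. -/
def cof (d : Fin n → X' → X) (f : X → M) (x : X') : M :=
  ∑ i : Fin n, (-1 : ℤ) ^ (i : ℕ) • f (d i x)

/-- The boundary for the face maps `d`. -/
noncomputable def bdf (d : Fin n → X' → X) : Ch X' →ₗ[ℤ] Ch X := lin (cof d sg)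

/-- The augmentation. -/
noncomputable def aug : Ch X →ₗ[ℤ] ℤ := lin fun _ => 1

theorem lin_sg (f : X → M) (x : X) : lin f (sg x) = f x := by simp

theorem push_sg (u : X → Y) (x : X) : push u (sg x) = sg (u x) := by simp

theorem ch_ext {φ ψ : Ch X →ₗ[ℤ] M} (h : ∀ x, φ (sg x) = ψ (sg x)) : φ = ψ :=
  Finsupp.lhom_ext' fun x => LinearMap.ext_ring (h x)

theorem lin_sg_eq (c : Ch X) : lin sg c = c :=
  LinearMap.congr_fun (ch_ext (φ := lin sg) (ψ := LinearMap.id) fun x => lin_sg _ x) c

theorem map_lin (φ : M →ₗ[ℤ] N) (f : X → M) (c : Ch X) : φ (lin f c) = lin (fun x => φ (f x)) c :=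
  LinearMap.congr_fun (ch_ext (φ := φ ∘ₗ lin f) fun x => by simp) c

theorem lin_push (f : Y → M) (u : X → Y) (c : Ch X) : lin f (push u c) = lin (fun x => f (u x)) c :=
  LinearMap.congr_fun (ch_ext (φ := lin f ∘ₗ push u) fun x => by simp) c

theorem push_push {Z : Type*} (v : Y → Z) (u : X → Y) (c : Ch X) :
    push v (push u c) = push (fun x => v (u x)) c :=
  LinearMap.congr_fun (ch_ext (φ := push v ∘ₗ push u) fun x => by simp) c

theorem bdf_sg (d : Fin n → X' → X) (x : X') :
    bdf d (sg x) = ∑ i : Fin n, (-1 : ℤ) ^ (i : ℕ) • sg (d i x) := lin_sg _ x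

theorem map_cof (φ : M →ₗ[ℤ] N) (d : Fin n → X' → X) (f : X → M) (x : X') :
    φ (cof d f x) = cof d (fun y => φ (f y)) x := by
  simp only [cof, map_sum, map_zsmul]

theorem lin_bdf (d : Fin n → X' → X) (f : X → M) (c : Ch X') :
    lin f (bdf d c) = lin (cof d f) c := by
  rw [bdf, map_lin]
  simp only [map_cof, lin_sg]

theorem push_bdf {d : Fin n → X' → X} {d' : Fin n → Y' → Y} {u : X → Y} {u' : X' → Y'}
    (h : ∀ i x, u (d i x) = d' i (u' x)) (c : Ch X') : push u (bdf d c) = bdf d' (push u' c) :=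
  LinearMap.congr_fun (ch_ext (φ := push u ∘ₗ bdf d) (ψ := bdf d' ∘ₗ push u') fun x => by
    simp only [LinearMap.comp_apply, push_sg, bdf_sg, map_sum, map_zsmul, h]) c

theorem sg_mem_supp {s : Set X} {x : X} (h : x ∈ s) : sg x ∈ supp s :=
  Finsupp.single_mem_supported ℤ 1 h

/-- Induction principle for supported chains. -/
theorem map_mem_of_supp {s : Set X} (φ : Ch X →ₗ[ℤ] M) (P : Submodule ℤ M)
    (h : ∀ x ∈ s, φ (sg x) ∈ P) {c : Ch X} (hc : c ∈ supp s) : φ c ∈ P := by
  rw [supp, Finsupp.supported_eq_span_single] at hc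
  refine (Submodule.span_le (p := P.comap φ)).2 ?_ hc
  rintro _ ⟨x, hx, rfl⟩
  exact h x hx

theorem eq_of_supp {s : Set X} {φ ψ : Ch X →ₗ[ℤ] M} (h : ∀ x ∈ s, φ (sg x) = ψ (sg x))
    {c : Ch X} (hc : c ∈ supp s) : φ c = ψ c :=
  sub_eq_zero.1 ((Submodule.mem_bot ℤ).1
    (map_mem_of_supp (φ - ψ) ⊥ (fun x hx => by simp [h x hx]) hc))

theorem lin_congr {s : Set X} {f g : X → M} (h : ∀ x ∈ s, f x = g x) {c : Ch X}
    (hc : c ∈ supp s) : lin f c = lin g c :=
  eq_of_supp (fun x hx => by rw [lin_sg, lin_sg, h x hx]) hc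

theorem push_mem_supp {s : Set X} {t : Set Y} {u : X → Y} (h : ∀ x ∈ s, u x ∈ t) {c : Ch X}
    (hc : c ∈ supp s) : push u c ∈ supp t :=
  map_mem_of_supp _ _ (fun x hx => by rw [push_sg]; exact sg_mem_supp (h x hx)) hc

theorem bdf_mem_supp {s : Set X'} {t : Set X} {d : Fin n → X' → X} (h : ∀ x ∈ s, ∀ i, d i x ∈ t)
    {c : Ch X'} (hc : c ∈ supp s) : bdf d c ∈ supp t :=
  map_mem_of_supp _ _ (fun x hx => by
    rw [bdf_sg]
    exact Submodule.sum_mem _ fun i _ => Submodule.smul_mem _ _ (sg_mem_supp (h x hx i))) hc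

theorem smul_lin {G : Type*} [Monoid G] [DistribMulAction G M] (g : G) (f : X → M) (c : Ch X) :
    g • lin f c = lin (fun x => g • f x) c :=
  map_lin (DistribSMul.toAddMonoidHom M g).toIntLinearMap f c

theorem smul_cof {G : Type*} [Monoid G] [DistribMulAction G M] (g : G) (d : Fin n → X' → X)
    (f : X → M) (x : X') : g • cof d f x = cof d (fun y => g • f y) x :=
  map_cof (DistribSMul.toAddMonoidHom M g).toIntLinearMap d f x

theorem cof_add (d : Fin n → X' → X) (f g : X → M) : cof d (f + g) = cof d f + cof d g := by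
  funext x; simp [cof, Finset.sum_add_distrib]

theorem cof_sub (d : Fin n → X' → X) (f g : X → M) : cof d (f - g) = cof d f - cof d g := by
  funext x; simp [cof, Finset.sum_sub_distrib, smul_sub]

theorem cof_neg (d : Fin n → X' → X) (f : X → M) : cof d (-f) = -cof d f := by
  funext x; simp [cof]

theorem cof_zero (d : Fin n → X' → X) : cof d (0 : X → M) = 0 := by
  funext x; simp [cof]

theorem cof_two (d : Fin 2 → X' → X) (f : X → M) (x : X') :
    cof d f x = f (d 0 x) - f (d 1 x) := by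
  simp [cof, Fin.sum_univ_two, sub_eq_add_neg]

theorem cof_three (d : Fin 3 → X' → X) (f : X → M) (x : X') :
    cof d f x = f (d 0 x) - f (d 1 x) + f (d 2 x) := by
  simp [cof, Fin.sum_univ_three, sub_eq_add_neg]

end Generic

section Tuples

/-- Ordered `(n+1)`-tuples. -/
abbrev Tup (n : ℕ) (A : Type*) : Type _ := Fin (n + 1) → A

variable {A B M : Type*} [AddCommGroup M] {n : ℕ}

/-- Deleting the `i`-th entry. -/
def tface (i : Fin (n + 2)) (x : Tup (n + 1) A) : Tup n A := fun j => x (i.succAbove j)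

/-- The boundary of tuples. -/
noncomputable abbrev tbd : Ch (Tup (n + 1) A) →ₗ[ℤ] Ch (Tup n A) := bdf tface

/-- The coboundary of cochains on tuples. -/
abbrev tco (f : Tup n A → M) : Tup (n + 1) A → M := cof tface f

/-- Applying a map to all entries. -/
def tmap (u : A → B) (x : Tup n A) : Tup n B := fun i => u (x i)

/-- Putting a new entry in front. -/
def tcons (a : A) (x : Tup n A) : Tup (n + 1) A := Fin.cons a x

/-- The cone operator. -/
noncomputable abbrev cone (a : A) : Ch (Tup n A) →ₗ[ℤ] Ch (Tup (n + 1) A) := push (tcons a)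

theorem tco_add (f g : Tup n A → M) : tco (f + g) = tco f + tco g := cof_add _ f g

theorem tco_sub (f g : Tup n A → M) : tco (f - g) = tco f - tco g := cof_sub _ f g

theorem tco_neg (f : Tup n A → M) : tco (-f) = -tco f := cof_neg _ f

theorem tco_zero : tco (0 : Tup n A → M) = 0 := cof_zero _

theorem lin_tbd (f : Tup n A → M) (c : Ch (Tup (n + 1) A)) : lin f (tbd c) = lin (tco f) c :=
  lin_bdf _ f c

theorem tface_zero_tcons (a : A) (x : Tup n A) : tface 0 (tcons a x) = x := by
  funext j; simp [tface, tcons]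

theorem tface_succ_tcons (a : A) (i : Fin (n + 2)) (x : Tup (n + 1) A) :
    tface i.succ (tcons a x) = tcons a (tface i x) := by
  funext j
  refine Fin.cases ?_ (fun j => ?_) j <;> simp [tface, tcons]

theorem tface_one_tcons (a : A) (x : Tup 0 A) : tface 1 (tcons a x) = fun _ => a := by
  funext j
  rw [Fin.eq_zero j]
  rfl

theorem tmap_tface (u : A → B) (i : Fin (n + 2)) (x : Tup (n + 1) A) :
    tmap u (tface i x) = tface i (tmap u x) := rfl

theorem tmap_tcons (u : A → B) (a : A) (x : Tup n A) :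
    tmap u (tcons a x) = tcons (u a) (tmap u x) := by
  funext j
  refine Fin.cases rfl (fun j => rfl) j

theorem push_tbd (u : A → B) (c : Ch (Tup (n + 1) A)) :
    push (tmap u) (tbd c) = tbd (push (tmap u) c) := push_bdf (tmap_tface u) c

theorem push_cone (u : A → B) (a : A) (c : Ch (Tup n A)) :
    push (tmap u) (cone a c) = cone (u a) (push (tmap u) c) := by
  simp only [push_push, tmap_tcons]

theorem tco_tcons (f : Tup (n + 1) A → M) (a : A) (x : Tup (n + 1) A) :
    tco f (tcons a x) = f x - tco (fun y => f (tcons a y)) x := by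
  simp only [cof]
  rw [Fin.sum_univ_succ, tface_zero_tcons, sub_eq_add_neg, ← Finset.sum_neg_distrib]
  simp only [Fin.val_zero, pow_zero, one_smul, Fin.val_succ, tface_succ_tcons, pow_succ,
    mul_neg, mul_one, neg_smul]

theorem tco_zero_eq (f : Tup 0 A → M) (x : Tup 1 A) :
    tco f x = f (fun _ => x 1) - f (fun _ => x 0) := by
  have h0 : tface 0 x = fun _ => x 1 := by funext j; rw [Fin.eq_zero j]; rfl
  have h1 : tface 1 x = fun _ => x 0 := by funext j; rw [Fin.eq_zero j]; rfl
  rw [← h0, ← h1]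
  exact cof_two _ _ _

theorem tco_one_eq (f : Tup 1 A → M) (a b c : A) :
    tco f ![a, b, c] = f ![b, c] - f ![a, c] + f ![a, b] := by
  have h0 : tface 0 ![a, b, c] = ![b, c] := by funext j; fin_cases j <;> rfl
  have h1 : tface 1 ![a, b, c] = ![a, c] := by funext j; fin_cases j <;> rfl
  have h2 : tface 2 ![a, b, c] = ![a, b] := by funext j; fin_cases j <;> rfl
  rw [← h0, ← h1, ← h2]
  exact cof_three _ _ _

theorem tbd_cone (a : A) (c : Ch (Tup (n + 1) A)) : tbd (cone a c) = c - cone a (tbd c) :=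
  LinearMap.congr_fun (ch_ext (φ := tbd ∘ₗ cone a) (ψ := LinearMap.id - cone a ∘ₗ tbd) fun x => by
    simp only [LinearMap.comp_apply, push_sg, LinearMap.sub_apply, LinearMap.id_apply, bdf, lin_sg,
      map_cof]
    exact tco_tcons sg a x) c

theorem tbd_cone_zero (a : A) (c : Ch (Tup 0 A)) :
    tbd (cone a c) = c - aug c • sg (fun _ => a) :=
  LinearMap.congr_fun (ch_ext (φ := tbd ∘ₗ cone a)
    (ψ := LinearMap.id - aug.smulRight (sg fun _ => a)) fun x => by
    simp only [LinearMap.comp_apply, push_sg, LinearMap.sub_apply, LinearMap.id_apply, bdf, lin_sg,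
      LinearMap.smulRight_apply, aug, one_smul]
    refine (tco_zero_eq sg _).trans ?_
    congr 2
    funext j
    rw [Fin.eq_zero j]
    rfl) c

theorem aug_tbd (c : Ch (Tup 1 A)) : aug (tbd c) = 0 := by
  rw [aug, lin_bdf]
  refine LinearMap.congr_fun (ch_ext (ψ := 0) fun x => ?_) c
  rw [lin_sg]
  exact (tco_zero_eq _ x).trans (sub_self _)

theorem tbd_tbd : ∀ {n : ℕ} (c : Ch (Tup (n + 2) A)), tbd (tbd c) = 0 := by
  intro n
  induction n with
  | zero =>
    intro c
    refine LinearMap.congr_fun (ch_ext (φ := tbd ∘ₗ tbd) (ψ := 0) fun x => ?_) c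
    have h : sg x = cone (x 0) (sg (Fin.tail x)) := by
      rw [push_sg, tcons, Fin.cons_self_tail]
    rw [LinearMap.comp_apply, h, tbd_cone, map_sub, tbd_cone_zero, aug_tbd]
    simp
  | succ n ih =>
    intro c
    refine LinearMap.congr_fun (ch_ext (φ := tbd ∘ₗ tbd) (ψ := 0) fun x => ?_) c
    have h : sg x = cone (x 0) (sg (Fin.tail x)) := by
      rw [push_sg, tcons, Fin.cons_self_tail]
    rw [LinearMap.comp_apply, h, tbd_cone, map_sub, tbd_cone, ih]
    simp

theorem tco_tco (f : Tup n A → M) : tco (tco f) = 0 := by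
  funext x
  rw [← lin_sg (tco (tco f)), ← lin_bdf, ← lin_bdf, tbd_tbd, map_zero]
  rfl

end Tuples

section Singular

variable {Z Z' M : Type*} [TopologicalSpace Z] [TopologicalSpace Z'] [AddCommGroup M] {n m : ℕ}

/-- The simplicial map of standard simplices with the given vertex map. -/
noncomputable def sxmap (x : Tup n (Fin (m + 1))) : C(Sx n, Sx m) :=
  ⟨stdSimplex.map x, stdSimplex.continuous_map _⟩

/-- The boundary of singular chains. -/
noncomputable abbrev sbd : Ch C(Sx (n + 1), Z) →ₗ[ℤ] Ch C(Sx n, Z) := bdf face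

theorem cobd_eq (f : C(Sx n, Z) → M) : cobd f = cof face f := rfl

theorem cobd_add (f g : C(Sx n, Z) → M) : cobd (f + g) = cobd f + cobd g := cof_add _ f g

theorem cobd_sub (f g : C(Sx n, Z) → M) : cobd (f - g) = cobd f - cobd g := cof_sub _ f g

theorem cobd_neg (f : C(Sx n, Z) → M) : cobd (-f) = -cobd f := cof_neg _ f

theorem cobd_zero : cobd (0 : C(Sx n, Z) → M) = 0 := cof_zero _

theorem lin_sbd (f : C(Sx n, Z) → M) (c : Ch C(Sx (n + 1), Z)) :
    lin f (sbd c) = lin (cobd f) c := lin_bdf _ f c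

theorem face_eq (i : Fin (n + 2)) (σ : C(Sx (n + 1), Z)) :
    face i σ = σ.comp (sxmap i.succAbove) := rfl

theorem face_comp (u : C(Z, Z')) (i : Fin (n + 2)) (σ : C(Sx (n + 1), Z)) :
    u.comp (face i σ) = face i (u.comp σ) := rfl

theorem face_sxmap (σ : C(Sx m, Z)) (i : Fin (n + 2)) (x : Tup (n + 1) (Fin (m + 1))) :
    σ.comp (sxmap (tface i x)) = face i (σ.comp (sxmap x)) := by
  ext t
  exact congrArg σ (stdSimplex.map_comp_apply _ x t).symm

theorem push_sbd (u : C(Z, Z')) (c : Ch C(Sx (n + 1), Z)) :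
    push u.comp (sbd c) = sbd (push u.comp c) := push_bdf (face_comp u) c

theorem sbd_sbd (c : Ch C(Sx (n + 2), Z)) : sbd (sbd c) = 0 := by
  refine LinearMap.congr_fun (ch_ext (φ := sbd ∘ₗ sbd) (ψ := 0) fun σ => ?_) c
  have h : sg σ = push (fun x => σ.comp (sxmap x)) (sg id) := by
    rw [push_sg]
    congr 1
    ext t
    exact congrArg σ (stdSimplex.map_id_apply t).symm
  have k : ∀ {m : ℕ} (c : Ch (Tup (m + 1) (Fin (n + 3)))),
      push (fun x => σ.comp (sxmap x)) (tbd c) = sbd (push (fun x => σ.comp (sxmap x)) c) :=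
    fun c => push_bdf (d := tface) (d' := face) (face_sxmap σ) c
  rw [LinearMap.comp_apply, h, ← k, ← k, tbd_tbd, map_zero]
  rfl

theorem aug_sbd (c : Ch C(Sx 1, Z)) : aug (sbd c) = 0 := by
  rw [aug, lin_bdf]
  refine LinearMap.congr_fun (ch_ext (ψ := 0) fun x => ?_) c
  rw [lin_sg]
  exact (cof_two _ _ _).trans (sub_self _)

theorem cobd_cobd (f : C(Sx n, Z) → M) : cobd (cobd f) = 0 := by
  funext x
  rw [cobd_eq, cobd_eq, ← lin_sg (cof face (cof face f)), ← lin_bdf, ← lin_bdf, sbd_sbd, map_zero]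
  rfl

/-- A path as a singular 1-simplex. -/
noncomputable def pth (γ : C(unitInterval, Z)) : C(Sx 1, Z) :=
  γ.comp ⟨stdSimplexHomeomorphUnitInterval, stdSimplexHomeomorphUnitInterval.continuous⟩

/-- The simplex lies in one of the sets of the family. -/
def Sm (𝒰 : Set (Set Z)) (σ : C(Sx n, Z)) : Prop := ∃ U ∈ 𝒰, ∀ t, σ t ∈ U

variable (G : Type*) [Group G] [MulAction G Z] [ContinuousConstSMul G Z] [DistribMulAction G M]

/-- Equivariant singular cochains. -/
def SEqv (f : C(Sx n, Z) → M) : Prop := ∀ (g : G) (σ : C(Sx n, Z)), f (g • σ) = g • f σ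

/-- The equivariant singular cohomology in degree `k + 1` vanishes. -/
def SVan (G Z M : Type*) [Group G] [TopologicalSpace Z] [MulAction G Z] [ContinuousConstSMul G Z]
    [AddCommGroup M] [DistribMulAction G M] (k : ℕ) : Prop :=
  ∀ f : C(Sx (k + 1), Z) → M, SEqv G f → cobd f = 0 →
    ∃ b : C(Sx k, Z) → M, SEqv G b ∧ cobd b = f

variable {G} in
theorem face_smul (g : G) (i : Fin (n + 2)) (σ : C(Sx (n + 1), Z)) :
    face i (g • σ) = g • face i σ := rfl

variable {G} in
theorem SEqv.cobd {f : C(Sx n, Z) → M} (h : SEqv G f) : SEqv G (cobd f) := fun g σ => by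
  rw [cobd_eq, smul_cof]
  simp only [cof, face_smul, h g]

end Singular

end Vale.Agent.P246
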