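import Vale.Agent.P246.Forest

/-! The presentation complex is simply connected. -/

namespace Vale.Agent.P246

open P173 (ev ev_mul ev_inv ev_of ev_one)

theorem potCayAux_ball {G : Type} [Group G] {S : Type} [DecidableEq S] (μ : S → G) {Γ : Type}
    [Group Γ] (lab : G → S → Γ) (g : G) {L : ℕ} (H : Ball S L → Γ)
    (h : ∀ (u v : Ball S L) (s : S), v.1 = u.1 * FreeGroup.of s →
      lab (g * FreeGroup.lift μ u.1) s = (H u)⁻¹ * H v) (u : Ball S L) :
    H u = H (Ball.one L) * ev μ lab g u.1 := by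
  have key : ∀ l : List (S × Bool), l.length ≤ L → ∀ u : Ball S L, u.1 = FreeGroup.mk l →
      H u = H (Ball.one L) * ev μ lab g u.1 := by
    intro l
    induction l using List.reverseRecOn with
    | nil =>
      intro _ u hu
      have : u = Ball.one L := Subtype.ext hu
      rw [this]
      exact (mul_one _).symm
    | append_singleton l x ih =>
      intro hl u hu
      rw [List.length_append, List.length_singleton] at hl
      have e := ih (by omega) ⟨FreeGroup.mk l, FreeGroup.norm_mk_le.trans (by omega)⟩ rfl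
      rw [← FreeGroup.mul_mk] at hu
      obtain ⟨s, _ | _⟩ := x
      · have hu' : FreeGroup.mk l = u.1 * FreeGroup.of s := by
          rw [hu]; exact (inv_mul_cancel_right _ (FreeGroup.of s)).symm
        have e2 := h u ⟨FreeGroup.mk l, FreeGroup.norm_mk_le.trans (by omega)⟩ s hu'
        rw [e] at e2
        simp only [hu', ev_mul, ev_of] at e2
        rw [← mul_assoc, ← mul_assoc, right_eq_mul, mul_assoc, inv_mul_eq_one] at e2
        exact e2
      · have e2 := h ⟨FreeGroup.mk l, FreeGroup.norm_mk_le.trans (by omega)⟩ u s hu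
        rw [e, eq_inv_mul_iff_mul_eq] at e2
        rw [← e2, hu, ev_mul, mul_assoc]
        exact congrArg (_ * ·) (congrArg (_ * ·) (ev_of μ lab _ s).symm)
  exact key u.1.toWord u.2 u FreeGroup.mk_toWord.symm

theorem potCayAux_ker {G : Type} [Group G] {S : Type} {μ : S → G} {Γ : Type} [Group Γ]
    {lab : G → S → Γ} {rel : Bool → FreeGroup S} (hrel : ∀ b, FreeGroup.lift μ (rel b) = 1)
    (h : ∀ g b, ev μ lab g (rel b) = 1) {w : FreeGroup S}
    (hw : w ∈ Subgroup.normalClosure (Set.range rel)) (g : G) : ev μ lab g w = 1 := by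
  let N : Subgroup (FreeGroup S) :=
    { carrier := {w | FreeGroup.lift μ w = 1 ∧ ∀ g, ev μ lab g w = 1}
      mul_mem' := fun {a b} ha hb => ⟨by rw [map_mul, ha.1, hb.1, one_mul],
        fun g => by rw [ev_mul, ha.2, hb.2, one_mul]⟩
      one_mem' := ⟨map_one _, fun g => ev_one μ lab g⟩
      inv_mem' := fun {a} ha => ⟨by rw [map_inv, ha.1, inv_one],
        fun g => by rw [ev_inv, ha.2, inv_one]⟩ }
  have : N.Normal := ⟨fun a ha x => ⟨by rw [map_mul, map_mul, ha.1, mul_one, map_inv, mul_inv_cancel],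
    fun g => by
      rw [ev_mul, ev_mul, ha.2, ev_inv, map_mul, ha.1, mul_one, mul_one, mul_inv_cancel_right,
        mul_inv_cancel]⟩⟩
  have hle : Subgroup.normalClosure (Set.range rel) ≤ N :=
    Subgroup.normalClosure_le_normal (by rintro _ ⟨b, rfl⟩; exact ⟨hrel b, fun g => h g b⟩)
  exact (hle hw).2 g

theorem pot_Q2 {G : Type} [Group G] {S : Type} [DecidableEq S] {μ : S → G}
    {rel : Bool → FreeGroup S} (hrel : ∀ b, FreeGroup.lift μ (rel b) = 1)
    (hsurj : Function.Surjective (FreeGroup.lift μ))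
    (hker : ∀ w, FreeGroup.lift μ w = 1 → w ∈ Subgroup.normalClosure (Set.range rel)) :
    (Q2 hrel).Pot := by
  intro Γ _ l hl
  refine pot_cone ((circ hrel id).fibConn Prod.fst_surjective) hl ?_
  have hl1 := hl.pull (inL (circ hrel id).toCay (circ hrel id).comp)
  obtain ⟨lab, hlab⟩ : ∃ lab : G → S → Γ, ∀ g s,
      lab g s = (cay μ).mhol (fun x y => l (.l x) (.l y)) ⟨g, s⟩ := ⟨_, fun _ _ => rfl⟩
  obtain ⟨hS, hhS⟩ := pot_base hl
  have hev : ∀ g b, ev μ lab g (rel b) = 1 := by
    intro g b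
    have hb : (rel b).norm ≤ (rel true).norm + (rel false).norm := by cases b <;> omega
    have hp : (forest G S _ Bool).flag.IsPot (fun x y => l (.l ((forestCay μ _ Bool).flag.f x))
        (.l ((forestCay μ _ Bool).flag.f y))) fun x => hS (.l x) :=
      fun x y hxy => hhS (.l x) (.l y) hxy
    have e := potCayAux_ball μ lab g (fun u => hS (.l (.l ⟨g, u, b⟩))) (fun u v s huv => by
      obtain ⟨v, hv⟩ := v
      obtain rfl : v = u.1 * FreeGroup.of s := huv
      rw [hlab]
      exact ((forestCay μ _ Bool).mhol_pull (fun x y => l (.l x) (.l y))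
        ⟨g, ⟨(u.1, s), u.2, hv⟩, b⟩).symm.trans (Gr.mhol_of_isPot _ hp _)) ⟨rel b, hb⟩
    have same : ∀ x y, (circ hrel id).flag.R x y →
        (circ hrel id).toCay.f x = (circ hrel id).toCay.f y → hS x = hS y := fun x y h1 h2 => by
      have := hhS x y h1
      beta_reduce at this
      rw [h2, hl.self] at this
      exact inv_mul_eq_one.1 this.symm
    have k : ∀ (j : Bool) (u : Ball S _), u.1 = cond j (rel b) 1 →
        hS (.l (.l ⟨g, u, b⟩)) = hS (.r (.l ⟨g, Ball.one 0, b⟩)) := fun j u hu => by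
      have e1 : (circ hrel id).a.f (.l ⟨g, Ball.one 0, (b, j)⟩) = .l ⟨g, u, b⟩ :=
        congrArg DV.l (Ind.ext (mul_one g) (Prod.ext (Subtype.ext ((mul_one _).trans hu.symm)) rfl))
      have e2 : (circ hrel id).c.f (.l ⟨g, Ball.one 0, (b, j)⟩) = .l ⟨g, Ball.one 0, b⟩ :=
        congrArg DV.l (Ind.ext (mul_one g) (Prod.ext (Subtype.ext (mul_one _)) rfl))
      rw [← e1, ← e2]
      refine (same (.l _) (.m (.l ⟨g, Ball.one 0, (b, j)⟩))
        (Flag.refl (forest G S _ Bool).flag _) rfl).trans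
        (same _ (.r _) (Flag.refl (forest G S 0 Bool).flag
          ((circ hrel id).c.f (.l ⟨g, Ball.one 0, (b, j)⟩))) ?_)
      refine congrArg DV.l ?_
      cases j <;> simp [discMap, forestCay, forestMap, hrel, Ball.one]
    rw [k true _ rfl, k false _ rfl] at e
    exact (left_eq_mul.1 e)
  choose w hw using hsurj
  refine (cay μ).pot hl1 (h := fun g => ev μ lab 1 (w g)) fun e => ?_
  have e1 := potCayAux_ker hrel hev
    (hker (w e.g * FreeGroup.of e.a * (w (e.g * μ e.a))⁻¹) (by simp [hw])) 1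
  rw [ev_mul, ev_mul, ev_inv, ev_of, map_mul, hw, hw, FreeGroup.lift_apply_of, one_mul, one_mul,
    mul_inv_cancel, mul_inv_eq_one, hlab] at e1
  exact eq_inv_mul_iff_mul_eq.2 e1

end Vale.Agent.P246
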