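import Vale.Agent.P246.Per
import Vale.Agent.P246.PotCay

/-! The properties of the final complex. -/

namespace Vale.Agent.P246

section General

variable {G : Type} [Group G] {L A R : Flag G} {a : A.Hom L} {c : A.Hom R}
  {M : Type*} [AddCommGroup M] [DistribMulAction G M] {n : ℕ}

theorem combAux_conn {b : Tup (n + 1) A.V → M} (hb : A.Coc b) {β : Tup (n + 1) L.V → M}
    (hβ : L.Coc β) (h : A.Cob (b - a.pull β)) : (dmc a c).Cob (conn a c b) :=
  (mv_iff hb).2 ⟨β, 0, hβ, Flag.Coc.zero, h.congr fun x _ => by simp [Flag.Hom.pull]⟩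

theorem combAux_conn0 {b : Tup (n + 1) A.V → M} (hb : A.Coc b) (h : A.Cob b) :
    (dmc a c).Cob (conn a c b) :=
  combAux_conn hb Flag.Coc.zero (h.congr fun x _ => by simp [Flag.Hom.pull])

theorem combAux_res {D : Type} [MulAction G D] {c : A.Hom (disc G D)}
    {f : Tup (n + 1) (dmc a c).V → M} (hf : (dmc a c).Coc f) :
    A.Cob (a.pull ((inL a c).pull f)) := by
  simpa using (mv_res hf).add ((van_disc D n _ (hf.pull (inR a c))).pull c)

theorem combAux_inv {D : Type} [MulAction G D] {c : A.Hom (disc G D)} {b : Tup (n + 1) A.V → M}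
    (hb : A.Coc b) (h : (dmc a c).Cob (conn a c b)) :
    ∃ β : Tup (n + 1) L.V → M, L.Coc β ∧ A.Cob (b - a.pull β) := by
  obtain ⟨β, γ, h1, h2, h3⟩ := (mv_iff hb).1 h
  refine ⟨β, h1, (h3.sub ((van_disc D n _ h2).pull c)).congr fun x _ => ?_⟩
  simp only [Pi.sub_apply]
  abel

end General

namespace Alg

variable {G : Type} [Group G] {S : Type} [DecidableEq S] {μ : S → G} {rel : Bool → FreeGroup S}
  (D : Alg μ rel) (hrel : ∀ b, FreeGroup.lift μ (rel b) = 1)

theorem cov : (D.Q3 hrel).Cov :=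
  cov_dmc (cov_dmc (cay_cov μ) (Fat.cov _) (cov_ind _))
    (cov_dmc (Fat.cov _) (Fat.cov _) (cov_ind _)) (cov_ind _)

theorem cofin [Finite S] : (D.Q3 hrel).Cofin :=
  cofin_dmc (cofin_dmc (cay_cofin μ) (Fat.cofin _) (cofin_ind _))
    (cofin_dmc (Fat.cofin _) (Fat.cofin _) (cofin_ind _)) (cofin_ind _)

theorem conn3 (hsurj : Function.Surjective (FreeGroup.lift μ)) : (D.Q3 hrel).Conn :=
  conn_dmc (conn_dmc (cay_conn hsurj) (Fat.comp_surj _)) fun x =>
    let ⟨v, hv⟩ := (surf rel D).comp_surj x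
    ⟨.l v, hv⟩

theorem pot (hsurj : Function.Surjective (FreeGroup.lift μ))
    (hker : ∀ w, FreeGroup.lift μ w = 1 → w ∈ Subgroup.normalClosure (Set.range rel)) :
    (D.Q3 hrel).Pot := fun Γ _ _ hl =>
  pot_cone (fibConn_desc _ _ _ ((surf rel D).fibConn fun _ => D.ne.elim fun j => ⟨j, rfl⟩)
    (Fat.comp_surj _)) hl (pot_Q2 hrel hsurj hker Γ _ (hl.pull (inL _ _)))

variable {M : Type} [AddCommGroup M] [DistribMulAction G M]

omit [DistribMulAction G M] in
theorem combAux_att (θ : Tup 1 (circ hrel id).flag.V → M) :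
    (D.att hrel).pull (Vale.Agent.P246.conn (circ hrel id).toCay (circ hrel id).comp θ) =
      Vale.Agent.P246.conn (D.toSurf hrel).flag (circ hrel D.ty).comp
        ((D.toCirc hrel).flag.pull θ) :=
  conn_pull _ _ _ _ _ θ

/-- The periods of a difference of two pulled back cocycles. -/
theorem combAux_per {θ : Tup 1 (circ hrel id).flag.V → M} (hθ : (circ hrel id).flag.Coc θ)
    {n : Bool × Bool → M} (hn : (circ hrel id).HasPer θ n) {ξ : Tup 1 (surf rel D).flag.V → M}
    (hξ : (surf rel D).flag.Coc ξ) {m : D.ι → M} (hm : (surf rel D).HasPer ξ m) :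
    (circ hrel D.ty).HasPer ((D.toCirc hrel).flag.pull θ - (D.toSurf hrel).flag.pull ξ)
      fun j => n (D.ty j.1, j.2) -
        (FreeGroup.lift μ (D.g j.1))⁻¹ • m (cond j.2 (D.j1 j.1) (D.j0 j.1)) := by
  have h := (hn.pull hθ (D.toCirc hrel)).sub (hm.pull hξ (D.toSurf hrel))
  convert h using 2 with j
  simp [toCirc, toSurf]

theorem combAux_van0 : (D.A3 hrel).Van M 0 := by
  intro f hf
  refine cob_cone ((circ hrel D.ty).fibConn Prod.fst_surjective) (Fat.comp_surj _) hf ?_
  have h1 := hf.pull (inL _ _)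
  obtain ⟨m, hm⟩ := Fat.exists_per h1
  refine hm.cob h1 fun j j' _ => D.conn M m (fun i => ?_) j j'
  have e := (hm.pull h1 (D.toSurf hrel)).unique (Fat.per_of_cob (combAux_res hf))
    (j := (i, true)) (j' := (i, false)) rfl
  simpa [toSurf, sub_eq_zero] using e

theorem combAux_q2 (k : ℕ) : (Q2 hrel).Van M (k + 2) :=
  van_dmc' (van_graph _ _) (van_disc _ _) (Fat.van _ _)

theorem combAux_top : (D.Q3 hrel).Van M 2 := by
  refine van_dmc (combAux_q2 hrel 0) (van_disc _ _) fun b hb => ?_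
  obtain ⟨θ, hθ, h1⟩ := mv_basic hb (Fat.van _ 0 _ (hb.pull _)) (van_disc _ _ _ (hb.pull _))
  obtain ⟨n, hn⟩ := Fat.exists_per hθ
  obtain ⟨m₀, m, hm⟩ := D.surj M fun i => n (i, true) - n (i, false)
  obtain ⟨ξ, hξ, hξ'⟩ := (surf rel D).exists_coc (fun j => -m j)
  obtain ⟨θ', h2, h3⟩ := (circ hrel id).exists_coc fun j => if j.1 && j.2 then m₀ else 0
  have h4 := (hn.sub (D.combAux_per hrel h2 h3 hξ hξ')).cob
    (hθ.sub ((h2.pull _).sub (hξ.pull _))) (by
      have key : ∀ i, n (i, true) - ((if D.ty i then m₀ else 0) -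
          (FreeGroup.lift μ (D.g i))⁻¹ • -m (D.j1 i)) =
          n (i, false) - (0 - (FreeGroup.lift μ (D.g i))⁻¹ • -m (D.j0 i)) := fun i => by
        have e := congrArg ((FreeGroup.lift μ (D.g i))⁻¹ • ·) (hm i)
        simp only [inv_smul_smul, smul_add, smul_sub, smul_ite, smul_zero] at e
        rw [smul_neg, smul_neg, sub_eq_iff_eq_add.1 e]
        abel
      rintro ⟨i, b⟩ ⟨i', b'⟩ (rfl : i = i')
      cases b <;> cases b' <;> simp only [Pi.sub_apply, Bool.and_true, Bool.and_false,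
        cond_true, cond_false, Bool.false_eq_true, if_false, key])
  have h5 := combAux_conn (c := (circ hrel D.ty).comp) (hθ.sub (h2.pull (D.toCirc hrel).flag))
    hξ.neg (h4.congr fun x _ => by simp only [Pi.sub_apply, Flag.Hom.pull, Pi.neg_apply]; abel)
  rw [conn_sub, ← combAux_att] at h5
  exact ⟨_, 0, conn_coc h2, Flag.Coc.zero, (h1.add h5).congr fun x _ => by simp [Flag.Hom.pull]⟩

theorem van_high (M : Type) [AddCommGroup M] [DistribMulAction G M] (k : ℕ) :
    (D.Q3 hrel).Van M (k + 2) := by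
  cases k with
  | zero => exact D.combAux_top hrel
  | succ k =>
    exact van_dmc' (combAux_q2 hrel _) (van_disc _ _)
      (van_dmc' (Fat.van _ _) (van_disc _ _) (Fat.van _ _))

theorem van_two (M : Type) [AddCommGroup M] [DistribMulAction G M]
    (h : ∀ m : M, ∃ η : S → M, fox μ η (rel true) = 0 ∧ fox μ η (rel false) = m) :
    (D.Q3 hrel).Van M 1 := by
  intro f hf
  have hf2 := hf.pull (inL _ _)
  obtain ⟨θ, hθ, h1⟩ := mv_basic hf2 (van_graph _ 0 _ (hf2.pull _)) (van_disc _ _ _ (hf2.pull _))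
  obtain ⟨n, hn⟩ := Fat.exists_per hθ
  obtain ⟨η, e1, e2⟩ := h (n (false, true) - n (false, false))
  obtain ⟨τ, hτ, hτ'⟩ := (cay μ).exists_coc (fun e => e.g • η e.a) fun g e => mul_smul g _ _
  have h2 := hθ.sub (hτ.pull (circ hrel id).toCay)
  have h3 := hn.sub ((circ hrel id).per_toCay hτ (η := η) fun s => (hτ' _).trans (one_smul _ _))
  have h4 := h1.add (combAux_conn (c := (circ hrel id).comp) (hτ.pull (circ hrel id).toCay) hτ
    (Flag.Cob.zero.congr fun x _ => (sub_self _).symm))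
  rw [sub_add, ← conn_sub] at h4
  have h5 := (combAux_res hf).sub (h4.pull (D.att hrel))
  rw [Flag.Hom.pull_sub, sub_sub_cancel, combAux_att] at h5
  obtain ⟨β, hβ, h6⟩ := combAux_inv (h2.pull (D.toCirc hrel).flag) h5
  obtain ⟨m, hm⟩ := Fat.exists_per hβ
  have h7 : n (true, true) - n (true, false) = 0 := D.inj M _ m fun i => by
    have e := (D.combAux_per hrel h2 h3 hβ hm).unique (Fat.per_of_cob h6)
      (j := (i, true)) (j' := (i, false)) rfl
    simp only [Pi.sub_apply, cond_true, cond_false, Pi.zero_apply, sub_zero, fox_one, id] at e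
    rw [sub_sub_sub_comm, sub_eq_zero, ← smul_sub, eq_inv_smul_iff] at e
    rw [← e]
    cases D.ty i
    · rw [e2]; simp
    · rw [e1]; simp
  have h8 := h3.cob h2 (by
    rintro ⟨i, b⟩ ⟨i', b'⟩ (rfl : i = i')
    cases i <;> cases b <;> cases b' <;> simp [e1, e2, sub_eq_zero.1 h7])
  have h9 := h4.add (combAux_conn0 h2 h8)
  rw [sub_add_cancel] at h9
  obtain ⟨b, hb, h10⟩ := mv_basic hf h9 (van_disc _ _ _ (hf.pull _))
  simpa using h10.add (combAux_conn0 hb (D.combAux_van0 hrel b hb))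

end Alg

end Vale.Agent.P246
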