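import Vale.Agent.P246.Sd

/-! Small simplices suffice, equivariantly. -/

open Set

namespace Vale.Agent.P246

variable {G Z M : Type*} [Group G] [TopologicalSpace Z] [MulAction G Z] [ContinuousConstSMul G Z]
  [AddCommGroup M] [DistribMulAction G M] {n : ℕ} {𝒰 : Set (Set Z)}

omit [MulAction G Z] [ContinuousConstSMul G Z] in
theorem smallAux_supp {k l : ℕ} (φ : Ch C(Sx k, Z) →ₗ[ℤ] Ch C(Sx l, Z))
    (h : ∀ σ : C(Sx k, Z), φ (sg σ) ∈ supp {τ : C(Sx l, Z) | range τ ⊆ range σ}) {c : Ch C(Sx k, Z)}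
    (hc : c ∈ supp {τ | Sm 𝒰 τ}) : φ c ∈ supp {τ | Sm 𝒰 τ} :=
  map_mem_of_supp φ _ (fun σ hσ => Finsupp.supported_mono (fun τ hτ => by
    obtain ⟨U, hU, hσ⟩ := hσ
    refine ⟨U, hU, fun t => ?_⟩
    obtain ⟨s, hs⟩ := hτ ⟨t, rfl⟩
    exact hs ▸ hσ s) (h σ)) hc

/-- the number of subdivisions, made monotone along faces -/
noncomputable def smallAux_mm (m0 : ∀ n, C(Sx n, Z) → ℕ) : ∀ n, C(Sx n, Z) → ℕ
  | 0, σ => m0 0 σ
  | n + 1, σ => max (m0 (n + 1) σ) (Finset.univ.sup fun i => smallAux_mm m0 n (face i σ))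

theorem smallAux_retr (ho : ∀ U ∈ 𝒰, IsOpen U) (hc : ∀ z, ∃ U ∈ 𝒰, z ∈ U)
    (hG : ∀ (g : G), ∀ U ∈ 𝒰, ∃ U' ∈ 𝒰, ∀ z ∈ U, g • z ∈ U') :
    ∃ (ρ : ∀ n, Ch C(Sx n, Z) →ₗ[ℤ] Ch C(Sx n, Z))
      (D : ∀ n, Ch C(Sx n, Z) →ₗ[ℤ] Ch C(Sx (n + 1), Z)),
      (∀ n c, ρ n c ∈ supp {τ | Sm 𝒰 τ}) ∧ (∀ n c, sbd (ρ (n + 1) c) = ρ n (sbd c)) ∧
      (∀ n σ, Sm 𝒰 σ → ρ n (sg σ) = sg σ) ∧
      (∀ n c, D n (sbd c) = c - ρ (n + 1) c - sbd (D (n + 1) c)) ∧
      (∀ (g : G) n σ, ρ n (sg (g • σ)) = push (g • ·) (ρ n (sg σ))) ∧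
      ∀ (g : G) n σ, D n (sg (g • σ)) = push (g • ·) (D n (sg σ)) := by
  classical
  obtain ⟨S, T, h1, h2, h3, h4, h5, h6, h7, h8⟩ := exists_sd Z
  let u : G → C(Z, Z) := fun g => ⟨(g • ·), continuous_const_smul g⟩
  have hu : ∀ (g : G) (k : ℕ), ((u g).comp : C(Sx k, Z) → C(Sx k, Z)) = (g • ·) :=
    fun _ _ => rfl
  have s1 : ∀ n i c, sbd ((S (n + 1) ^ i) c) = (S n ^ i) (sbd c) := fun n i => by
    induction i with
    | zero => exact fun _ => rfl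
    | succ i ih => exact fun c => by rw [pow_succ', pow_succ', Module.End.mul_apply,
        Module.End.mul_apply, h1, ih]
  have s2 : ∀ (g : G) n i c, (S n ^ i) (push (g • ·) c) = push (g • ·) ((S n ^ i) c) :=
    fun g n i => by
      induction i with
      | zero => exact fun _ => rfl
      | succ i ih => exact fun c => by rw [pow_succ', Module.End.mul_apply,
          Module.End.mul_apply, ih, ← hu, h4]
  have s3 : ∀ (g : G) n (c : Ch C(Sx n, Z)), c ∈ supp {τ | Sm 𝒰 τ} →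
      push (g • ·) c ∈ supp {τ : C(Sx n, Z) | Sm 𝒰 τ} := fun g n c hc =>
    push_mem_supp (fun τ hτ => by
      obtain ⟨U, hU, hτ⟩ := hτ
      obtain ⟨U', hU', h⟩ := hG g U hU
      exact ⟨U', hU', fun t => h _ (hτ t)⟩) hc
  let m0 : ∀ n, C(Sx n, Z) → ℕ := fun n σ => Nat.find (h8 𝒰 ho hc n σ)
  have m1 : ∀ n σ i, m0 n σ ≤ i → (S n ^ i) (sg σ) ∈ supp {τ | Sm 𝒰 τ} := fun n σ i hi => by
    induction i, hi using Nat.le_induction with
    | base => exact Nat.find_spec (h8 𝒰 ho hc n σ)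
    | succ i _ ih =>
      rw [pow_succ', Module.End.mul_apply]
      exact smallAux_supp _ (h6 n) ih
  have m2 : ∀ (g : G) n σ, m0 n (g • σ) ≤ m0 n σ := fun g n σ => Nat.find_min' _ (by
    rw [← push_sg (g • ·) σ, s2]
    exact s3 g n _ (m1 n σ _ le_rfl))
  have m3 : ∀ (g : G) n σ, m0 n (g • σ) = m0 n σ := fun g n σ =>
    (m2 g n σ).antisymm (by simpa only [inv_smul_smul] using m2 g⁻¹ n (g • σ))
  have m4 : ∀ n σ, Sm 𝒰 σ → m0 n σ = 0 := fun n σ h =>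
    Nat.le_zero.1 (Nat.find_min' _ (sg_mem_supp h))
  set mm := smallAux_mm m0 with hmm
  have k1 : ∀ n σ, m0 n σ ≤ mm n σ := fun n σ => by
    cases n with
    | zero => exact le_rfl
    | succ n => exact le_max_left _ _
  have k2 : ∀ n σ i, mm n (face i σ) ≤ mm (n + 1) σ := fun n σ i =>
    (Finset.le_sup (f := fun i => mm n (face i σ)) (Finset.mem_univ i)).trans (le_max_right _ _)
  have k3 : ∀ (g : G) n σ, mm n (g • σ) = mm n σ := fun g n => by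
    induction n with
    | zero => exact m3 g 0
    | succ n ih => exact fun σ => by simp only [hmm, smallAux_mm, m3, face_smul]; simp only [← hmm, ih]
  have sf : ∀ n (σ : C(Sx (n + 1), Z)), Sm 𝒰 σ → ∀ i, Sm 𝒰 (face i σ) :=
    fun n σ ⟨U, hU, h⟩ i => ⟨U, hU, fun t => h _⟩
  have k4 : ∀ n σ, Sm 𝒰 σ → mm n σ = 0 := fun n => by
    induction n with
    | zero => exact m4 0
    | succ n ih =>
      intro σ h
      simp only [hmm, smallAux_mm, m4 _ σ h]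
      simp [← hmm, ih _ (sf n σ h _)]
  let E : ∀ n, ℕ → Ch C(Sx n, Z) →ₗ[ℤ] Ch C(Sx (n + 1), Z) := fun n m =>
    ∑ i ∈ Finset.range m, T n ∘ₗ (S n ^ i)
  have e0 : ∀ n m c, E n (m + 1) c = E n m c + T n ((S n ^ m) c) := fun n m c => by
    simp only [E, Finset.sum_range_succ, LinearMap.add_apply, LinearMap.comp_apply]
  have ez : ∀ n c, E n 0 c = 0 := fun n c => by simp [E]
  have e1 : ∀ m c, sbd (E 0 m c) = c - (S 0 ^ m) c := fun m c => by
    induction m with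
    | zero => simp [ez]
    | succ m ih =>
      rw [e0, map_add, ih, h2, pow_succ', Module.End.mul_apply]
      abel
  have e2 : ∀ n m c, sbd (E (n + 1) m c) + E n m (sbd c) = c - (S (n + 1) ^ m) c :=
    fun n m c => by
      induction m with
      | zero => simp [ez]
      | succ m ih =>
        rw [e0, e0, map_add, add_add_add_comm, ih, ← s1, h3, pow_succ', Module.End.mul_apply]
        abel
  have e3 : ∀ n σ m, mm n σ ≤ m → E n m (sg σ) - E n (mm n σ) (sg σ) ∈ supp {τ | Sm 𝒰 τ} :=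
    fun n σ m hm => by
      induction m, hm using Nat.le_induction with
      | base => simp
      | succ m hm ih =>
        rw [e0, add_sub_right_comm]
        exact add_mem ih (smallAux_supp _ (h7 n) (m1 n σ m ((k1 n σ).trans hm)))
  have e4 : ∀ (g : G) n m c, E n m (push (g • ·) c) = push (g • ·) (E n m c) := fun g n m c => by
    induction m with
    | zero => simp [ez]
    | succ m ih =>
      rw [e0, e0, map_add, ih, s2]
      exact congrArg _ (h5 (u g) n _)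
  let D : ∀ n, Ch C(Sx n, Z) →ₗ[ℤ] Ch C(Sx (n + 1), Z) := fun n =>
    lin fun σ => E n (mm n σ) (sg σ)
  have d0 : ∀ n σ, D n (sg σ) = E n (mm n σ) (sg σ) := fun n σ => lin_sg _ σ
  have d1 : ∀ (g : G) n c, D n (push (g • ·) c) = push (g • ·) (D n c) := fun g n c =>
    LinearMap.congr_fun (ch_ext (φ := D n ∘ₗ push (g • ·)) (ψ := push (g • ·) ∘ₗ D n) fun σ => by
      rw [LinearMap.comp_apply, LinearMap.comp_apply, push_sg, d0, d0, k3, ← e4, push_sg]) c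
  have d2 : ∀ (g : G) n (c : Ch C(Sx (n + 1), Z)), sbd (push (g • ·) c) = push (g • ·) (sbd c) :=
    fun g n c => (push_sbd (u g) c).symm
  let ρ : ∀ n, Ch C(Sx n, Z) →ₗ[ℤ] Ch C(Sx n, Z) := fun n => match n with
    | 0 => LinearMap.id - sbd ∘ₗ D 0
    | n + 1 => LinearMap.id - sbd ∘ₗ D (n + 1) - D n ∘ₗ sbd
  have r0 : ∀ c, ρ 0 c = c - sbd (D 0 c) := fun _ => rfl
  have r1 : ∀ n c, ρ (n + 1) c = c - sbd (D (n + 1) c) - D n (sbd c) := fun _ _ => rfl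
  refine ⟨ρ, D, fun n c => ?_, fun n c => ?_, fun n σ h => ?_, fun n c => ?_, fun g n σ => ?_,
    fun g n σ => by rw [← d1, push_sg]⟩
  · refine map_mem_of_supp (s := univ) _ _ (fun σ _ => ?_) (by simp [supp])
    cases n with
    | zero =>
      rw [r0, d0, e1, sub_sub_cancel]
      exact m1 _ _ _ (k1 _ _)
    | succ n =>
      rw [r1, d0, eq_sub_of_add_eq (e2 n _ _), show ∀ a b c d : Ch C(Sx (n + 1), Z),
        a - (a - b - c) - d = b + (c - d) from fun _ _ _ _ => by abel]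
      refine add_mem (m1 _ _ _ (k1 _ _)) (map_mem_of_supp (s := {τ | mm n τ ≤ mm (n + 1) σ})
        (E n (mm (n + 1) σ) - D n) _ (fun τ hτ => ?_) (bdf_mem_supp (s := {σ}) ?_
          (sg_mem_supp rfl)))
      · rw [LinearMap.sub_apply, d0]
        exact e3 n τ _ hτ
      · rintro _ rfl i
        exact k2 n _ i
  · cases n with
    | zero => rw [r0, r1, map_sub, map_sub, sbd_sbd, sub_zero]
    | succ n => rw [r1, r1, map_sub, map_sub, sbd_sbd, sbd_sbd, map_zero, sub_zero, sub_zero]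
  · cases n with
    | zero => rw [r0, d0, k4 _ _ h, ez, map_zero, sub_zero]
    | succ n =>
      rw [r1, d0, k4 _ _ h, ez, map_zero, sub_zero, sub_eq_self]
      refine eq_of_supp (s := {τ | Sm 𝒰 τ}) (ψ := 0) (fun τ hτ => ?_)
        (bdf_mem_supp (d := face) (s := {τ | Sm 𝒰 τ}) (sf n) (sg_mem_supp h))
      rw [d0, k4 _ _ hτ, ez, LinearMap.zero_apply]
  · rw [r1]
    abel
  · rw [← push_sg (g • ·) σ]
    cases n with
    | zero => rw [r0, r0, d1, d2, map_sub]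
    | succ n => rw [r1, r1, d1, d2, d2, d1, map_sub, map_sub]

theorem smallAux_eqv {k : ℕ} {f : C(Sx k, Z) → M} (hf : SEqv G f)
    {φ : Ch C(Sx n, Z) →ₗ[ℤ] Ch C(Sx k, Z)}
    (h : ∀ (g : G) σ, φ (sg (g • σ)) = push (g • ·) (φ (sg σ))) :
    SEqv G fun σ => lin f (φ (sg σ)) := fun g σ => by
  simp only [h, lin_push, smul_lin, hf g]

omit [MulAction G Z] [ContinuousConstSMul G Z] in
theorem smallAux_cobd {k : ℕ} (f : C(Sx k, Z) → M) (φ : Ch C(Sx n, Z) →ₗ[ℤ] Ch C(Sx k, Z))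
    (τ : C(Sx (n + 1), Z)) :
    cobd (fun σ => lin f (φ (sg σ))) τ = lin f (φ (sbd (sg τ))) := by
  rw [bdf_sg, map_sum, map_sum]
  simp only [map_zsmul, cobd]

theorem small_ext (ho : ∀ U ∈ 𝒰, IsOpen U) (hc : ∀ z, ∃ U ∈ 𝒰, z ∈ U)
    (hG : ∀ (g : G), ∀ U ∈ 𝒰, ∃ U' ∈ 𝒰, ∀ z ∈ U, g • z ∈ U') {f : C(Sx n, Z) → M}
    (hf : SEqv G f) (h : ∀ τ, Sm 𝒰 τ → cobd f τ = 0) :
    ∃ f' : C(Sx n, Z) → M, SEqv G f' ∧ cobd f' = 0 ∧ ∀ σ, Sm 𝒰 σ → f' σ = f σ := by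
  obtain ⟨ρ, D, h1, h2, h3, -, h5, -⟩ := smallAux_retr ho hc hG
  refine ⟨fun σ => lin f (ρ n (sg σ)), smallAux_eqv hf (h5 · n), funext fun τ => ?_,
    fun σ hσ => ?_⟩
  · rw [smallAux_cobd, ← h2, lin_sbd, lin_congr (g := fun _ => 0) h (h1 _ _)]
    simp [Finsupp.linearCombination_apply]
  · simp only [h3 n σ hσ, lin_sg]

theorem small_cob (ho : ∀ U ∈ 𝒰, IsOpen U) (hc : ∀ z, ∃ U ∈ 𝒰, z ∈ U)
    (hG : ∀ (g : G), ∀ U ∈ 𝒰, ∃ U' ∈ 𝒰, ∀ z ∈ U, g • z ∈ U') {f : C(Sx (n + 1), Z) → M}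
    (hf : SEqv G f) (h : cobd f = 0) {b : C(Sx n, Z) → M} (hb : SEqv G b)
    (hfb : ∀ σ, Sm 𝒰 σ → cobd b σ = f σ) :
    ∃ b' : C(Sx n, Z) → M, SEqv G b' ∧ cobd b' = f := by
  obtain ⟨ρ, D, h1, h2, -, h4, h5, h6⟩ := smallAux_retr ho hc hG
  refine ⟨(fun σ => lin b (ρ n (sg σ))) + fun σ => lin f (D n (sg σ)), fun g σ => ?_,
    funext fun τ => ?_⟩
  · rw [Pi.add_apply, Pi.add_apply, smul_add]
    exact congrArg₂ _ (smallAux_eqv hb (h5 · n) g σ) (smallAux_eqv hf (h6 · n) g σ)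
  · rw [cobd_add, Pi.add_apply, smallAux_cobd, smallAux_cobd, ← h2, lin_sbd,
      lin_congr hfb (h1 _ _), h4, map_sub, map_sub, lin_sbd, h, lin_sg]
    simp [Finsupp.linearCombination_apply]

end Vale.Agent.P246
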