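import Vale.Agent.P246.Sq
import Vale.Agent.P246.Small
import Vale.Agent.P173.CxFlat

/-! Cochains dual to the faces. -/

universe u v w w'

namespace Vale.Agent.P246

open P173

theorem dualAux_log {A : Type*} [TopologicalSpace A] [PreconnectedSpace A] {Λ Λ' : C(A, ℂ)}
    (h : ∀ t, Complex.exp (Λ t) = Complex.exp (Λ' t)) (a b : A) : Λ a - Λ b = Λ' a - Λ' b := by
  have h1 : ∀ t, Complex.exp (Λ t - Λ' t) = 1 := fun t => by
    rw [Complex.exp_sub, h t, div_self (Complex.exp_ne_zero _)]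
  have := Complex.isCoveringMap_exp.const_of_comp (g := fun t => Λ t - Λ' t) (by fun_prop)
    (fun t t' => Subtype.ext ((h1 t).trans (h1 t').symm)) a b
  linear_combination this

theorem dualAux_theta {G F : Type*} [Group G] [TopologicalSpace F] [MulAction G F]
    [ContinuousConstSMul G F] [DistribMulAction G ℂ] {W : Set F} {z : F → ℂ} {A : F → ℂ →+ ℂ}
    (hz : ∀ x ∈ W, ContinuousAt z x) (hA : LC W A)
    (hW : ∀ (g : G), ∀ x ∈ W, g • x ∈ W ∧ z (g • x) = z x ∧ ∀ u, A (g • x) u = g • A x u) :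
    ∃ θ : C(Sx 1, F) → ℂ, SEqv G θ ∧
      (∀ (γ : C(Sx 1, F)) (Λ : C(Sx 1, ℂ)), (∀ t, γ t ∈ W ∧ Complex.exp (Λ t) = z (γ t)) →
        θ γ = A (γ (stdSimplex.vertex 0)) (Λ (stdSimplex.vertex 1) - Λ (stdSimplex.vertex 0))) ∧
      ∀ σ : C(Sx 2, F), (∀ t, σ t ∈ W ∧ z (σ t) ≠ 0) → cobd θ σ = 0 := by
  classical
  have : ∀ n, PreconnectedSpace (Sx n) := fun n =>
    isPreconnected_iff_preconnectedSpace.1 (convex_stdSimplex ℝ _).isPreconnected
  obtain ⟨θ, h1, h2⟩ : ∃ θ : C(Sx 1, F) → ℂ,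
      (∀ (γ : C(Sx 1, F)) (Λ : C(Sx 1, ℂ)), (∀ t, γ t ∈ W ∧ Complex.exp (Λ t) = z (γ t)) →
        θ γ = A (γ (stdSimplex.vertex 0)) (Λ (stdSimplex.vertex 1) - Λ (stdSimplex.vertex 0))) ∧
      ∀ γ : C(Sx 1, F), (¬ ∃ Λ : C(Sx 1, ℂ), ∀ t, γ t ∈ W ∧ Complex.exp (Λ t) = z (γ t)) →
        θ γ = 0 := by
    refine ⟨fun γ => if h : ∃ Λ : C(Sx 1, ℂ), ∀ t, γ t ∈ W ∧ Complex.exp (Λ t) = z (γ t) then
      A (γ (stdSimplex.vertex 0)) (h.choose (stdSimplex.vertex 1) - h.choose (stdSimplex.vertex 0))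
      else 0, fun γ Λ hΛ => ?_, fun γ h => dif_neg h⟩
    have h : ∃ Λ : C(Sx 1, ℂ), ∀ t, γ t ∈ W ∧ Complex.exp (Λ t) = z (γ t) := ⟨Λ, hΛ⟩
    simp only [dif_pos h]
    rw [dualAux_log fun t => (h.choose_spec t).2.trans (hΛ t).2.symm]
  have h3 : ∀ (g : G) (γ : C(Sx 1, F)) (Λ : C(Sx 1, ℂ)),
      (∀ t, γ t ∈ W ∧ Complex.exp (Λ t) = z (γ t)) →
      ∀ t, (g • γ) t ∈ W ∧ Complex.exp (Λ t) = z ((g • γ) t) := fun g γ Λ h t =>
    ⟨(hW g _ (h t).1).1, (h t).2.trans (hW g _ (h t).1).2.1.symm⟩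
  refine ⟨θ, fun g γ => ?_, h1, fun σ hσ => ?_⟩
  · by_cases h : ∃ Λ : C(Sx 1, ℂ), ∀ t, γ t ∈ W ∧ Complex.exp (Λ t) = z (γ t)
    · obtain ⟨Λ, hΛ⟩ := h
      rw [h1 _ Λ hΛ, h1 _ Λ (h3 g γ Λ hΛ)]
      exact (hW g _ (hΛ _).1).2.2 _
    · rw [h2 γ h, smul_zero]
      refine h2 _ fun ⟨Λ, hΛ⟩ => h ⟨Λ, ?_⟩
      have := h3 g⁻¹ _ Λ hΛ
      rwa [inv_smul_smul] at this
  · have := (convex_stdSimplex ℝ (Fin 3)).contractibleSpace ⟨_, (stdSimplex.vertex 0).2⟩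
    have := (convex_stdSimplex ℝ (Fin 3)).locallyPathConnectedSpace
    have hc : Continuous fun t => z (σ t) := continuous_iff_continuousAt.2 fun t =>
      (hz _ (hσ t).1).comp σ.continuous.continuousAt
    obtain ⟨Λ, ⟨-, hΛ⟩, -⟩ := Complex.isCoveringMapOn_exp.existsUnique_continuousMap_lifts
      (A := Sx 2) ⟨_, hc⟩ (a₀ := stdSimplex.vertex 0) (Complex.exp_log (hσ _).2)
      fun t => (hσ t).2
    have hl : IsLocallyConstant fun t => A (σ t) :=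
      (IsLocallyConstant.iff_eventually_eq _).2 fun t =>
        σ.continuous.continuousAt.eventually (hA _ (hσ t).1)
    have k : ∀ i : Fin 3, θ (face i σ) = A (σ (stdSimplex.vertex 0))
        (Λ (stdSimplex.vertex (i.succAbove 1)) - Λ (stdSimplex.vertex (i.succAbove 0))) := by
      intro i
      have f1 : ∀ j : Fin 2, face i Λ (stdSimplex.vertex j) =
          Λ (stdSimplex.vertex (i.succAbove j)) := fun j =>
        congrArg Λ (stdSimplex.map_vertex i.succAbove j)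
      have f2 : A (face i σ (stdSimplex.vertex 0)) = A (σ (stdSimplex.vertex 0)) :=
        hl.apply_eq_of_preconnectedSpace _ _
      rw [h1 (face i σ) (face i Λ) fun t => ⟨(hσ _).1, congrFun hΛ _⟩, f1, f1, f2]
    rw [cobd_eq, cof_three, k, k, k, ← map_sub, ← map_add]
    have e : Λ (stdSimplex.vertex ((0 : Fin 3).succAbove 1)) -
        Λ (stdSimplex.vertex ((0 : Fin 3).succAbove 0)) -
        (Λ (stdSimplex.vertex ((1 : Fin 3).succAbove 1)) -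
          Λ (stdSimplex.vertex ((1 : Fin 3).succAbove 0))) +
        (Λ (stdSimplex.vertex ((2 : Fin 3).succAbove 1)) -
          Λ (stdSimplex.vertex ((2 : Fin 3).succAbove 0))) = 0 := by
      show Λ (stdSimplex.vertex 2) - Λ (stdSimplex.vertex 1) -
        (Λ (stdSimplex.vertex 2) - Λ (stdSimplex.vertex 0)) +
        (Λ (stdSimplex.vertex 1) - Λ (stdSimplex.vertex 0)) = 0
      ring
    rw [e, map_zero]

theorem dualAux_glue {G F : Type*} [Group G] [TopologicalSpace F] [MulAction G F]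
    [ContinuousConstSMul G F] [DistribMulAction G ℂ] (hv : SVan G F ℂ 1) {W U : Set F}
    (hWo : IsOpen W) (hUo : IsOpen U) (hc : ∀ x, x ∈ W ∨ x ∈ U)
    (hW : ∀ (g : G), ∀ x ∈ W, g • x ∈ W) (hU : ∀ (g : G), ∀ x ∈ U, g • x ∈ U)
    {θ : C(Sx 1, F) → ℂ} (hθ : SEqv G θ)
    (h0 : ∀ σ : C(Sx 2, F), (∀ t, σ t ∈ W) → (∀ t, σ t ∈ U) → cobd θ σ = 0) :
    ∃ b : C(Sx 1, F) → ℂ, SEqv G b ∧ (∀ σ : C(Sx 2, F), (∀ t, σ t ∈ U) → cobd b σ = 0) ∧
      ∀ σ : C(Sx 2, F), (∀ t, σ t ∈ W) → cobd (b - θ) σ = 0 := by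
  classical
  obtain ⟨ω, h1, h2⟩ : ∃ ω : C(Sx 2, F) → ℂ, (∀ σ, (∀ t, σ t ∈ U) → ω σ = 0) ∧
      ∀ σ, (¬ ∀ t, σ t ∈ U) → ω σ = cobd θ σ :=
    ⟨fun σ => if ∀ t, σ t ∈ U then 0 else cobd θ σ, fun σ h => if_pos h, fun σ h => if_neg h⟩
  have h3 : ∀ σ : C(Sx 2, F), (∀ t, σ t ∈ W) → ω σ = cobd θ σ := fun σ h => by
    by_cases h' : ∀ t, σ t ∈ U
    · rw [h1 σ h', h0 σ h h']
    · exact h2 σ h'
  have h4 : SEqv G ω := fun g σ => by
    by_cases h' : ∀ t, σ t ∈ U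
    · rw [h1 σ h', h1 (g • σ) fun t => hU g _ (h' t), smul_zero]
    · rw [h2 σ h', h2 (g • σ) fun h => h' fun t => ?_, hθ.cobd]
      have := hU g⁻¹ _ (h t)
      rwa [ContinuousMap.smul_apply, inv_smul_smul] at this
  obtain ⟨ω', k1, k2, k3⟩ := small_ext (G := G) (𝒰 := {W, U}) (f := ω)
    (by rintro _ (rfl | rfl) <;> assumption)
    (fun x => (hc x).elim (fun h => ⟨W, Or.inl rfl, h⟩) fun h => ⟨U, Or.inr rfl, h⟩)
    (by
      rintro g _ (rfl | rfl)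
      exacts [⟨_, Or.inl rfl, hW g⟩, ⟨_, Or.inr rfl, hU g⟩]) h4
    (by
      rintro τ ⟨_, rfl | rfl, h⟩
      · refine Eq.trans ?_ (congrFun (cobd_cobd θ) τ)
        exact Finset.sum_congr rfl fun i _ => by rw [h3 (face i τ) fun t => h _]
      · exact Finset.sum_eq_zero fun i _ => by rw [h1 (face i τ) fun t => h _, smul_zero])
  obtain ⟨b, hb, hb'⟩ := hv ω' k1 k2
  refine ⟨b, hb, fun σ h => ?_, fun σ h => ?_⟩
  · rw [hb', k3 σ ⟨U, Or.inr rfl, h⟩, h1 σ h]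
  · rw [cobd_sub, Pi.sub_apply, hb', k3 σ ⟨W, Or.inl rfl, h⟩, h3 σ h, sub_self]

theorem dualAux_coef {G : Type*} [Group G] {Y : Type u} {F : Type v} [TopologicalSpace Y]
    [TopologicalSpace F] [MulAction G F] [ContinuousConstSMul G F] [DistribMulAction G ℂ]
    {C : Cx.{u, w} Y} {C' : Cx.{v, w'} F} {q : F → Y} (hq : IsQuotientCoveringMap q G)
    (cc : CellCov C C' q) (f₀ : C.Fa) :
    ∃ a : C'.Fa → ℂ →+ ℂ, (∀ (g : G) f f' w, ‖w‖ < 1 → C'.fa f' w = g • C'.fa f w →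
      ∀ u, a f' u = g • a f u) ∧ ∀ f u, u ≠ 0 → (a f u = 0 ↔ cc.pF f ≠ f₀) := by
  classical
  obtain ⟨x, hx⟩ := hq.surjective (C.fa f₀ 0)
  obtain ⟨f₁, hf₁, -⟩ := cc.liftF x f₀ 0 hx
  have h1 : ∀ f, cc.pF f = f₀ → ∃ g : G, ∀ w, C'.fa f w = g • C'.fa f₁ w := by
    intro f hf
    obtain ⟨g, hg⟩ := hq.apply_eq_iff_mem_orbit.1
      (show q (C'.fa f 0) = q (C'.fa f₁ 0) by rw [cc.hf, cc.hf, hf, hf₁])
    refine ⟨g, congrFun (hq.isCoveringMap.eq_of_comp_eq (g₁ := C'.fa f)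
      (g₂ := fun w => g • C'.fa f₁ w) (C'.fa f).continuous ((C'.fa f₁).continuous.const_smul g)
      (funext fun w => ?_) 0 hg.symm)⟩
    simp only [Function.comp_apply, hq.map_smul, cc.hf, hf, hf₁]
  choose γ hγ using h1
  refine ⟨fun f => if h : cc.pF f = f₀ then DistribSMul.toAddMonoidHom ℂ (γ f h) else 0,
    fun g f f' w hw h u => ?_, fun f u hu => ?_⟩
  · have h2 := congrArg q h
    rw [hq.map_smul, cc.hf, cc.hf] at h2
    have h3 := (C.fa_inj _ _ _ _ hw hw h2).1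
    by_cases h4 : cc.pF f = f₀
    · have := hq.isCancelSMul
      rw [hγ f h4, hγ f' (h3.trans h4), ← mul_smul] at h
      simp only [dif_pos h4, dif_pos (h3.trans h4), IsCancelSMul.right_cancel _ _ _ h]
      exact mul_smul _ _ _
    · simp only [dif_neg h4, dif_neg (h3 ▸ h4 : ¬ cc.pF f' = f₀)]
      exact (smul_zero g).symm
  · by_cases h4 : cc.pF f = f₀
    · simp only [dif_pos h4]
      exact iff_of_false (fun h => hu ((smul_eq_zero_iff_eq _).1 h)) fun h => h h4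
    · simp only [dif_neg h4]
      exact iff_of_true rfl h4

theorem dualAux_norm (r s : ℝ) :
    ‖(r : ℂ) * Complex.exp (2 * Real.pi * (s : ℝ) * Complex.I)‖ = |r| := by
  have := Complex.norm_exp_ofReal_mul_I (2 * Real.pi * s)
  push_cast at this
  rw [norm_mul, this, mul_one, Complex.norm_real, Real.norm_eq_abs]

theorem exists_dual {G : Type*} [Group G] {Y : Type u} {F : Type v} [TopologicalSpace Y]
    [TopologicalSpace F] [MulAction G F] [ContinuousConstSMul G F] [DistribMulAction G ℂ]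
    {C : Cx.{u, w} Y} {C' : Cx.{v, w'} F} {q : F → Y} (hq : IsQuotientCoveringMap q G)
    (cc : CellCov C C' q) (hv : SVan G F ℂ 1) (f₀ : C.Fa) :
    ∃ b : C(Sx 1, F) → ℂ, SEqv G b ∧
      (∀ τ : C(Sx 2, F), (∀ t, τ t ∈ C'.S1) → cobd b τ = 0) ∧
      ∀ f' : C'.Fa, b (pth (C'.loop f')) = 0 ↔ cc.pF f' ≠ f₀ := by
  obtain ⟨a, ha, ha'⟩ := dualAux_coef hq cc f₀
  obtain ⟨z, -, hz⟩ := C'.cxf_cases (fun _ w => w) fun _ => 0
  obtain ⟨A, -, hA⟩ := C'.cxf_cases (fun f _ => a f) fun _ => 0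
  have act : ∀ (g : G) f w, ∃ f', C'.fa f' w = g • C'.fa f w := fun g f w => by
    obtain ⟨f', -, h⟩ := cc.liftF (g • C'.fa f w) (cc.pF f) w (by rw [hq.map_smul, cc.hf])
    exact ⟨f', h⟩
  have mW : ∀ f w, ‖w‖ < 1 → C'.fa f w ∈ C'.S1ᶜ := fun f w hw h =>
    hw.ne ((C'.fa_mem_S1_iff f hw.le).1 h)
  have oW : ∀ x ∈ C'.S1ᶜ, ∃ f w, ‖w‖ < 1 ∧ x = C'.fa f w := fun x hx => by
    rcases C'.cover x with h | h | h
    exacts [absurd (Or.inl h) hx, absurd (Or.inr h) hx, h]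
  have nW : ∀ f, ∀ w ∈ Metric.closedBall (0 : ℂ) 1, C'.fa f w ∈ C'.S1ᶜ →
      ‖w‖ < 1 ∧ ∀ᶠ s in nhdsWithin w (Metric.closedBall (0 : ℂ) 1), ‖s‖ < 1 := fun f w hw h => by
    rw [mem_closedBall_zero_iff] at hw
    have h1 : ‖w‖ < 1 := hw.lt_of_ne fun e => h ((C'.fa_mem_S1_iff f hw).2 e)
    exact ⟨h1, nhdsWithin_le_nhds (continuous_norm.continuousAt.eventually_lt continuousAt_const h1)⟩
  have hWo := C'.isClosed_S1.isOpen_compl
  have sU : ∀ x ∈ C'.S1, x ∈ {y | ∀ f, y ≠ C'.fa f 0} := fun x hx f e =>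
    mW f 0 (by simp) (e ▸ hx)
  have mU : ∀ f w, ‖w‖ ≤ 1 → w ≠ 0 → C'.fa f w ∈ {y | ∀ f, y ≠ C'.fa f 0} := fun f w hw h0 => by
    rcases hw.eq_or_lt with h | h
    · exact sU _ ((C'.fa_mem_S1_iff f hw).2 h)
    · exact fun f' e => h0 (C'.fa_inj _ _ _ _ h (by simp) e).2
  have hW : ∀ (g : G), ∀ x ∈ C'.S1ᶜ, g • x ∈ C'.S1ᶜ ∧ z (g • x) = z x ∧
      ∀ u, A (g • x) u = g • A x u := by
    intro g x hx
    obtain ⟨f, w, hw, rfl⟩ := oW x hx
    obtain ⟨f', h⟩ := act g f w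
    rw [← h, hz _ _ hw, hz _ _ hw, hA _ _ hw, hA _ _ hw]
    exact ⟨mW _ _ hw, rfl, ha g f f' w hw h⟩
  obtain ⟨θ, t1, t2, t3⟩ := dualAux_theta (G := G) (W := C'.S1ᶜ) (z := z) (A := A)
    (C'.cw2 hWo z (fun e t ht h => absurd (C'.ed_mem_S1 e ht) h) fun f w hw h =>
      continuousWithinAt_id.congr_of_eventuallyEq
        ((nW f w hw h).2.mono fun s hs => hz f s hs) (hz f w (nW f w hw h).1))
    (C'.lc2 hWo A (fun e t ht h => absurd (C'.ed_mem_S1 e ht) h) fun f w hw h =>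
      (nW f w hw h).2.mono fun s hs => (hA f s hs).trans (hA f w (nW f w hw h).1).symm) hW
  obtain ⟨b, b1, b2, b3⟩ := dualAux_glue hv hWo C'.cxf_open
    (fun x => (em (x ∈ C'.S1)).symm.imp id (sU x)) (fun g x hx => (hW g x hx).1)
    (fun g x hx f e => by
      obtain ⟨f', h⟩ := act g⁻¹ f 0
      rw [← e, inv_smul_smul] at h
      exact hx f' h.symm) t1
    (fun σ h h' => t3 σ fun t => ⟨h t, fun e => by
      obtain ⟨f, w, hw, e'⟩ := oW _ (h t)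
      rw [e', hz _ _ hw] at e
      exact h' t f (e ▸ e')⟩)
  refine ⟨b, b1, fun τ h => b2 τ fun t => sU _ (h t), fun f => ?_⟩
  let Φ : (ℝ → ℝ) → unitInterval × unitInterval → F := fun r p =>
    C'.fa f ((r p.2 : ℝ) * Complex.exp (2 * Real.pi * (p.1 : ℝ) * Complex.I))
  have e1 : ∀ r s, Φ r (1, s) = Φ r (0, s) := fun r s => by simp [Φ]
  let γ : C(unitInterval, F) := ⟨fun s => Φ (fun _ => 1 / 2) (s, 0), by fun_prop⟩
  have k1 := pth_square b2 ⟨Φ fun t => 1 - t / 2, by fun_prop⟩ (fun p => mU _ _ (by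
      rw [dualAux_norm, abs_le]
      constructor <;> linarith [p.2.2.1, p.2.2.2]) (by
      rw [← norm_pos_iff, dualAux_norm]
      exact abs_pos_of_pos (by linarith [p.2.2.2])))
    (γb := C'.loop f) (γr := ⟨fun s => Φ (fun t => 1 - t / 2) (0, s), by fun_prop⟩)
    (γl := ⟨fun s => Φ (fun t => 1 - t / 2) (0, s), by fun_prop⟩) (γt := γ)
    (fun s => by simp [Φ, Cx.loop]) (fun s => (e1 (fun t => 1 - t / 2) s).symm) (fun s => rfl)
    (fun s => by norm_num [Φ, γ])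
  have k2 := pth_square b3 ⟨Φ fun t => (1 - t) / 2, by fun_prop⟩ (fun p => mW _ _ (by
      rw [dualAux_norm, abs_lt]
      constructor <;> linarith [p.2.2.1, p.2.2.2]))
    (γb := γ) (γr := ⟨fun s => Φ (fun t => (1 - t) / 2) (0, s), by fun_prop⟩)
    (γl := ⟨fun s => Φ (fun t => (1 - t) / 2) (0, s), by fun_prop⟩)
    (γt := ContinuousMap.const _ (C'.fa f 0))
    (fun s => by norm_num [Φ, γ]) (fun s => (e1 (fun t => (1 - t) / 2) s).symm) (fun s => rfl)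
    (fun s => by simp [Φ])
  rw [pth_const b3 (mW f 0 (by simp)) (γ := ContinuousMap.const _ (C'.fa f 0)) fun _ => rfl,
    add_zero, add_eq_right, Pi.sub_apply, sub_eq_zero] at k2
  rw [add_comm, add_right_inj, k2] at k1
  have hn : ∀ s : ℝ, ‖((1 / 2 : ℝ) : ℂ) * Complex.exp (2 * Real.pi * s * Complex.I)‖ < 1 :=
    fun s => by
      rw [dualAux_norm]
      norm_num
  have k3 := t2 (pth γ) ⟨fun t => Complex.log ((1 / 2 : ℝ) : ℂ) +
    2 * Real.pi * (t 1 : ℝ) * Complex.I, by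
      have : Continuous fun t : Sx 1 => t 1 := (continuous_apply 1).comp continuous_subtype_val
      exact continuous_const.add ((continuous_const.mul
        (Complex.continuous_ofReal.comp this)).mul continuous_const)⟩ fun t => ⟨mW _ _ (hn _), by
        refine Eq.trans ?_ (hz f _ (hn _)).symm
        rw [ContinuousMap.coe_mk, Complex.exp_add, Complex.exp_log (by norm_num)]
        rfl⟩
  have k4 : A (pth γ (stdSimplex.vertex 0)) = a f := hA f _ (hn _)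
  rw [k1, k3, k4]
  refine ha' f _ ?_
  simp

end Vale.Agent.P246
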