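import Vale.Agent.P246.Flag

/-! The tower argument, carried out on the Cayley tree of the free group on the edges. -/

universe w

namespace Vale.Agent.P246

open P173 Module
open FreeGroup (of)

section Aux

variable {Ed : Type w}

theorem tw_ind {p : FreeGroup Ed → Prop} (h1 : p 1) (h2 : ∀ x e, p x ↔ p (x * of e)) (x) : p x := by
  have hx : x ∈ Subgroup.closure (Set.range (of : Ed → FreeGroup Ed)) := by
    rw [FreeGroup.closure_range_of]; trivial
  induction hx using Subgroup.closure_induction_right with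
  | one => exact h1
  | mul_right x _ y hy ih => obtain ⟨e, rfl⟩ := hy; exact (h2 x e).1 ih
  | mul_inv_cancel x _ y hy ih => obtain ⟨e, rfl⟩ := hy; exact (h2 _ e).2 (by simpa using ih)

theorem tw_pot {M : Type*} [AddCommGroup M] (c : FreeGroup Ed → Ed → M) :
    ∃ Φ : FreeGroup Ed → M, ∀ g e, Φ (g * of e) - Φ g = c g e :=
  ⟨fun g => (ev of (fun g e => Multiplicative.ofAdd (c g e)) 1 g).toAdd, fun g e => by
    simp [ev_mul, FreeGroup.lift_of_apply]⟩

theorem tw_tree (s : Finset (FreeGroup Ed)) :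
    ∃ (Ω : Finset (FreeGroup Ed)) (E : Finset (FreeGroup Ed × Ed)), 1 ∈ Ω ∧ s ⊆ Ω ∧
      (∀ p ∈ E, p.1 ∈ Ω ∧ p.1 * of p.2 ∈ Ω) ∧
      ∀ (M : Type) (Φ : FreeGroup Ed → M), (∀ p ∈ E, Φ (p.1 * of p.2) = Φ p.1) →
        ∀ x ∈ Ω, Φ x = Φ 1 := by
  classical
  let P : Finset (FreeGroup Ed) → Finset (FreeGroup Ed × Ed) → Prop := fun Ω E =>
    1 ∈ Ω ∧ (∀ p ∈ E, p.1 ∈ Ω ∧ p.1 * of p.2 ∈ Ω) ∧
      ∀ (M : Type) (Φ : FreeGroup Ed → M), (∀ p ∈ E, Φ (p.1 * of p.2) = Φ p.1) →
        ∀ x ∈ Ω, Φ x = Φ 1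
  have k : ∀ x e Ω E, P Ω E → x ∈ Ω ∨ x * of e ∈ Ω →
      P (insert x (insert (x * of e) Ω)) (insert (x, e) E) := by
    rintro x e Ω E ⟨h1, h2, h3⟩ h
    refine ⟨by simp [h1], fun p hp => ?_, fun M Φ hΦ y hy => ?_⟩
    · rcases Finset.mem_insert.1 hp with rfl | hp
      · simp
      · simp [h2 p hp]
    · have h4 := h3 M Φ fun p hp => hΦ p (Finset.mem_insert_of_mem hp)
      have h5 := hΦ _ (Finset.mem_insert_self _ _)
      have h6 : Φ x = Φ 1 := h.elim (h4 x) fun h => h5.symm.trans (h4 _ h)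
      simp only [Finset.mem_insert] at hy
      rcases hy with rfl | rfl | hy
      exacts [h6, h5.trans h6, h4 y hy]
  have h : ∀ x, ∃ Ω E, P Ω E ∧ x ∈ Ω := tw_ind
    ⟨{1}, ∅, ⟨by simp, by simp, by simp⟩, by simp⟩ fun x e =>
    ⟨fun ⟨Ω, E, h, hx⟩ => ⟨_, _, k x e Ω E h (Or.inl hx), by simp⟩,
      fun ⟨Ω, E, h, hx⟩ => ⟨_, _, k x e Ω E h (Or.inr hx), by simp⟩⟩
  suffices ∃ Ω E, P Ω E ∧ s ⊆ Ω from
    let ⟨Ω, E, h, hs⟩ := this
    ⟨Ω, E, h.1, hs, h.2⟩
  induction s using Finset.induction_on with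
  | empty => exact (h 1).imp fun _ h => h.imp fun _ h => ⟨h.1, Finset.empty_subset _⟩
  | insert x s _ ih =>
    obtain ⟨Ω, E, ⟨a1, a2, a3⟩, hs⟩ := ih
    obtain ⟨Ω', E', ⟨-, b2, b3⟩, hx⟩ := h x
    refine ⟨Ω ∪ Ω', E ∪ E', ⟨by simp [a1], fun p hp => ?_, fun M Φ hΦ y hy => ?_⟩, ?_⟩
    · rcases Finset.mem_union.1 hp with hp | hp
      · simp [a2 p hp]
      · simp [b2 p hp]
    · rcases Finset.mem_union.1 hy with hy | hy
      · exact a3 M Φ (fun p hp => hΦ p (Finset.mem_union_left _ hp)) y hy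
      · exact b3 M Φ (fun p hp => hΦ p (Finset.mem_union_right _ hp)) y hy
    · exact Finset.insert_subset (Finset.mem_union_right _ hx) (hs.trans Finset.subset_union_left)

variable {R : Type} [CommRing R] {A : Type}

/-- The normalised increment of `Φ` from `x` to `x * g`. -/
def twDf (W : FreeGroup Ed → Rˣ) (Φ : FreeGroup Ed → R) (x g : FreeGroup Ed) : R :=
  ((W x)⁻¹ : Rˣ) * (Φ (x * g) - Φ x)

/-- The increments only depend on the class of the starting point. -/
def TwLev (π : FreeGroup Ed → A) (W : FreeGroup Ed → Rˣ) (Φ : FreeGroup Ed → R) : Prop :=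
  ∀ x y g, π x = π y → twDf W Φ x g = twDf W Φ y g

theorem twDf_mul (W : FreeGroup Ed → Rˣ) (Φ : FreeGroup Ed → R) (x g h : FreeGroup Ed) :
    twDf W Φ x (g * h) = twDf W Φ x g + ((W x)⁻¹ * W (x * g) : Rˣ) * twDf W Φ (x * g) h := by
  simp only [twDf, Units.val_mul, mul_assoc, Units.mul_inv_cancel_left]
  ring

theorem tw_lev {π : FreeGroup Ed → A} (hπ : ∀ x y g, π x = π y → π (x * g) = π (y * g))
    {W : FreeGroup Ed → Rˣ}
    (hW : ∀ x y g, π x = π y → (W x)⁻¹ * W (x * g) = (W y)⁻¹ * W (y * g)) {Φ : FreeGroup Ed → R}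
    (h : ∀ x y e, π x = π y → twDf W Φ x (of e) = twDf W Φ y (of e)) : TwLev π W Φ := by
  intro x y g hxy
  induction g using tw_ind with
  | h1 => simp [twDf]
  | h2 g e => rw [twDf_mul, twDf_mul, hW x y g hxy, h _ _ e (hπ x y g hxy), add_left_inj]

theorem tw_ring (k : Type) [Field k] : ∃ (R : Type) (_ : CommRing R) (_ : IsDomain R)
    (_ : Algebra k R) (s : Multiplicative ℚ →* Rˣ) (ε : R →ₐ[k] k) (l : ℚ → R →ₗ[k] k),
    (∀ a, ε (s a) = 1) ∧ ∀ a b, l a (s (.ofAdd b)) = if b = a then 1 else 0 := by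
  refine ⟨AddMonoidAlgebra k ℚ, inferInstance, inferInstance, inferInstance,
    (AddMonoidAlgebra.of k ℚ).toHomUnits, AddMonoidAlgebra.lift k k ℚ 1,
    fun a => Finsupp.lapply a ∘ₗ (AddMonoidAlgebra.coeffLinearEquiv k).toLinearMap,
    fun a => by simp, fun a b => ?_⟩
  simp [Finsupp.single_apply]

variable {k : Type} [Field k] {Fa : Type w} {I : Type} [Fintype I]

open Classical in
theorem tw_step (ψ : FreeGroup Ed →* kˣ) (rel : Fa → FreeGroup Ed) (u : I → FreeGroup Ed)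
    (f : I → Fa) {π : FreeGroup Ed → A} (hπ : ∀ x y g, π x = π y → π (x * g) = π (y * g))
    (hd : ∀ i₀, ∃ Φ, TwLev π ψ Φ ∧ ∀ i, twDf ψ Φ (u i) (rel (f i)) =
      if (π (u i), f i) = (π (u i₀), f i₀) then 1 else 0)
    {Θ : FreeGroup Ed → ℚ} (hΘ : ∀ x y g, π x = π y → Θ (x * g) - Θ x = Θ (y * g) - Θ y) (i₀ : I) :
    ∃ Φ, TwLev (fun x => (π x, Θ x)) ψ Φ ∧ ∀ i, twDf ψ Φ (u i) (rel (f i)) =
      if ((π (u i), Θ (u i)), f i) = ((π (u i₀), Θ (u i₀)), f i₀) then 1 else 0 := by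
  obtain ⟨R, _, _, _, s, ε, l, hε, hl⟩ := tw_ring k
  choose Φ hΦ hΦ' using hd
  let cl : I → A × Fa := fun i => (π (u i), f i)
  let J := Set.range cl
  let rp : J → I := Set.rangeSplitting cl
  have hrp : ∀ j : J, cl (rp j) = j := Set.apply_rangeSplitting cl
  let W : FreeGroup Ed → Rˣ := fun x =>
    Units.map (algebraMap k R : k →* R) (ψ x) * s (.ofAdd (Θ x))
  choose Ψ hΨ using fun i => tw_pot fun g e =>
    algebraMap k R (Φ i (g * of e) - Φ i g) * s (.ofAdd (Θ g))
  have hW : ∀ x g, (W x)⁻¹ * W (x * g) =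
      Units.map (algebraMap k R : k →* R) (ψ g) * s (.ofAdd (Θ (x * g) - Θ x)) := fun x g => by
    simp only [W, map_mul, ofAdd_sub, map_div]
    rw [div_eq_mul_inv, mul_inv, mul_mul_mul_comm, inv_mul_cancel_left, mul_comm (s _)⁻¹]
  have h1 : ∀ i, TwLev π W (Ψ i) := fun i => tw_lev hπ
    (fun x y g h => by rw [hW, hW, hΘ x y g h]) fun x y e h => by
      have : ∀ x, twDf W (Ψ i) x (of e) = algebraMap k R (twDf ψ (Φ i) x (of e)) := fun x => by
        simp only [twDf, hΨ, W, mul_inv, Units.val_mul, map_mul, ← map_inv, Units.coe_map,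
          MonoidHom.coe_coe]
        rw [mul_mul_mul_comm, ← Units.val_mul, ← map_mul s, inv_mul_cancel, map_one, Units.val_one,
          mul_one]
      rw [this, this, hΦ i x y _ h]
  have h2 : ∀ i x g, ε (twDf W (Ψ i) x g) = twDf ψ (Φ i) x g := fun i x g => by
    have : ε (Ψ i (x * g)) - ε (Ψ i x) = Φ i (x * g) - Φ i x := by
      induction g using tw_ind with
      | h1 => simp
      | h2 g e =>
        have := congrArg ε (hΨ i (x * g) e)
        simp only [map_sub, map_mul, hε, mul_one, AlgHom.commutes, Algebra.algebraMap_self,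
          RingHom.id_apply] at this
        rw [← mul_assoc]
        exact ⟨fun h => by linear_combination h + this, fun h => by linear_combination h - this⟩
    simp only [twDf, W, mul_inv, Units.val_mul, map_mul, ← map_inv, Units.coe_map,
      MonoidHom.coe_coe, hε, mul_one, AlgHom.commutes, Algebra.algebraMap_self, RingHom.id_apply,
      map_sub, this]
  let Mx : Matrix J J R := fun j j' => twDf W (Ψ (rp j)) (u (rp j')) (rel (f (rp j')))
  have hdet : Mx.det ≠ 0 := fun h => by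
    have h3 : (ε : R →+* k).mapMatrix Mx = 1 := by
      ext j j'
      change ε (twDf _ _ _ _) = _
      rw [h2, hΦ', Matrix.one_apply]
      refine if_congr ?_ rfl rfl
      change cl _ = cl _ ↔ _
      rw [hrp, hrp, Subtype.val_inj, eq_comm]
    have := RingHom.map_det (ε : R →+* k) Mx
    rw [h, h3] at this
    simp at this
  obtain ⟨g, hg⟩ := (LinearMap.mulRight k Mx.det).exists_leftInverse_of_injective
    (LinearMap.ker_eq_bot.2 (mul_left_injective₀ hdet))
  let j₀ : J := ⟨cl i₀, i₀, rfl⟩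
  let Ψ' : FreeGroup Ed → R := fun x => ∑ j, Mx.adjugate j₀ j * Ψ (rp j) x
  have h3 : ∀ x h, twDf W Ψ' x h = ∑ j, Mx.adjugate j₀ j * twDf W (Ψ (rp j)) x h := fun x h => by
    simp only [twDf, Ψ', ← Finset.sum_sub_distrib, Finset.mul_sum]
    exact Finset.sum_congr rfl fun j _ => by ring
  let L : R →ₗ[k] k := l (Θ (u i₀)) ∘ₗ g
  have h4 : ∀ x h, twDf ψ (fun x => L (Ψ' x)) x h = L (s (.ofAdd (Θ x)) * twDf W Ψ' x h) :=
    fun x h => by
    simp only [twDf, W, mul_inv, Units.val_mul, ← map_inv, Units.coe_map, MonoidHom.coe_coe]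
    rw [← map_sub, ← smul_eq_mul, ← map_smul, Algebra.smul_def, mul_assoc, mul_left_comm,
      ← mul_assoc (s _ : R), ← Units.val_mul, ← map_mul, mul_inv_cancel, map_one, Units.val_one,
      one_mul]
  refine ⟨fun x => L (Ψ' x), fun x y h e => ?_, fun i => ?_⟩
  · obtain ⟨e1, e2⟩ := Prod.mk.inj e
    rw [h4, h4, h3, h3, e2]
    simp only [h1 _ x y h e1]
  · let j : J := ⟨cl i, i, rfl⟩
    obtain ⟨e1, e2⟩ := Prod.mk.inj (hrp j)
    have h5 : twDf W Ψ' (u i) (rel (f i)) = (Mx.adjugate * Mx) j₀ j := by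
      rw [h3, Matrix.mul_apply]
      exact Finset.sum_congr rfl fun j' _ => by simp only [Mx, e2, h1 _ _ _ _ e1]
    rw [h4, h5, Matrix.adjugate_mul, Matrix.smul_apply, Matrix.one_apply]
    by_cases h : j₀ = j
    · obtain ⟨e3, e4⟩ : π (u i₀) = π (u i) ∧ f i₀ = f i := Prod.mk.inj (congrArg Subtype.val h)
      have h6 := LinearMap.congr_fun hg (s (.ofAdd (Θ (u i))))
      simp only [LinearMap.comp_apply, LinearMap.mulRight_apply, LinearMap.id_apply] at h6
      simp only [if_pos h, smul_eq_mul, mul_one, L, LinearMap.comp_apply, h6, hl, e3, e4,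
        Prod.mk.injEq, true_and, and_true]
    · rw [if_neg h, if_neg, smul_zero, mul_zero, map_zero]
      intro e
      simp only [Prod.mk.injEq] at e
      exact h (Subtype.ext (Prod.ext e.1.1.symm e.2.symm))

open Classical in
theorem tw_maps {K : Type} [Field K] (ψ : FreeGroup Ed →* Kˣ) (rel : Fa → FreeGroup Ed)
    (u : I → FreeGroup Ed) (f : I → Fa) {π : FreeGroup Ed → A}
    (hπ : ∀ x y g, π x = π y → π (x * g) = π (y * g)) (Ω : Finset (FreeGroup Ed))
    (E : Finset (FreeGroup Ed × Ed)) :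
    ∃ (δ0 : (Ω.image π → K) →ₗ[K] (E.image (Prod.map π id) → K))
      (δ1 : (E.image (Prod.map π id) → K) →ₗ[K]
        (Finset.univ.image (fun i => (π (u i), f i)) → K))
      (P : (E.image (Prod.map π id) → K) → FreeGroup Ed → K) (ex : (Ω.image π → K) → A → K),
      (∀ c, TwLev π ψ (P c)) ∧
      (∀ c i h, δ1 c ⟨(π (u i), f i), h⟩ = twDf ψ (P c) (u i) (rel (f i))) ∧
      (∀ c p h, twDf ψ (P c) p.1 (of p.2) = c ⟨Prod.map π id p, h⟩) ∧
      (∀ a x h, ex a x = a ⟨x, h⟩) ∧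
      ∀ a p h, δ0 a ⟨Prod.map π id p, h⟩ =
        twDf ψ (fun x => ψ x * ex a (π x)) p.1 (of p.2) := by
  let ex : A → (Ω.image π → K) →ₗ[K] K := fun x =>
    if h : x ∈ Ω.image π then LinearMap.proj ⟨x, h⟩ else 0
  let ex1 : A × Ed → (E.image (Prod.map π id) → K) →ₗ[K] K := fun x =>
    if h : x ∈ E.image (Prod.map π id) then LinearMap.proj ⟨x, h⟩ else 0
  obtain ⟨Φ, hΦ⟩ := tw_pot fun g e => (ψ g : K) • ex1 (π g, e)
  have h1 : ∀ c x e, twDf ψ (fun g => Φ g c) x (of e) = ex1 (π x, e) c := fun c x e => by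
    rw [twDf, ← LinearMap.sub_apply, hΦ]
    simp
  have h2 : ∀ c, TwLev π ψ (fun g => Φ g c) := fun c => tw_lev hπ (fun x y g _ => by simp)
    fun x y e h => by rw [h1, h1, h]
  choose r1 _ hr1 using fun x : E.image (Prod.map π id) => Finset.mem_image.1 x.2
  choose r2 _ hr2 using fun x : Finset.univ.image (fun i => (π (u i), f i)) =>
    Finset.mem_image.1 x.2
  refine ⟨LinearMap.pi fun x => (ψ (of x.1.2) : K) • ex (π ((r1 x).1 * of x.1.2)) - ex x.1.1,
    LinearMap.pi fun x => (((ψ (u (r2 x)))⁻¹ : Kˣ) : K) •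
      (Φ (u (r2 x) * rel (f (r2 x))) - Φ (u (r2 x))), fun c g => Φ g c, fun a x => ex x a, h2,
    fun c i h => ?_, fun c p h => ?_, fun a x h => ?_, fun a p h => ?_⟩
  · obtain ⟨e1, e2⟩ := Prod.mk.inj (hr2 ⟨_, h⟩)
    rw [← h2 c _ _ _ e1]
    exact congrArg (fun z => twDf ψ (fun g => Φ g c) _ (rel z)) e2
  · rw [h1]
    exact LinearMap.congr_fun (dif_pos h) c
  · exact LinearMap.congr_fun (dif_pos h) a
  · have e1 : π (r1 ⟨_, h⟩).1 = π p.1 := congrArg Prod.fst (hr1 ⟨_, h⟩)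
    simp only [LinearMap.pi_apply, LinearMap.sub_apply, LinearMap.smul_apply, hπ _ _ _ e1, twDf,
      Prod.map_fst, Prod.map_snd, id, map_mul, Units.val_mul, smul_eq_mul, mul_sub, mul_assoc,
      Units.inv_mul_cancel_left]

theorem twDf_congr {K : Type} [Field K] {W : FreeGroup Ed → Kˣ} {Ω : Finset (FreeGroup Ed)}
    {E : Finset (FreeGroup Ed × Ed)}
    (hc : ∀ (M : Type) (Φ : FreeGroup Ed → M), (∀ p ∈ E, Φ (p.1 * of p.2) = Φ p.1) →
      ∀ x ∈ Ω, Φ x = Φ 1) {Φ Φ' : FreeGroup Ed → K}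
    (h : ∀ p ∈ E, twDf W Φ p.1 (of p.2) = twDf W Φ' p.1 (of p.2)) {x g : FreeGroup Ed}
    (hx : x ∈ Ω) (hg : x * g ∈ Ω) : twDf W Φ x g = twDf W Φ' x g := by
  have h1 := hc K (Φ - Φ') fun p hp => by
    have := (Units.mul_right_inj _).1 (h p hp)
    simp only [Pi.sub_apply]
    linear_combination this
  have h2 := (h1 _ hg).trans (h1 _ hx).symm
  simp only [Pi.sub_apply] at h2
  rw [twDf, twDf]
  congr 1
  linear_combination h2

omit [Fintype I] in
theorem tw_closure {rel : Fa → FreeGroup Ed} {u : I → FreeGroup Ed} {f : I → Fa}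
    {π : FreeGroup Ed → A} (hπ : ∀ x y g, π x = π y → π (x * g) = π (y * g))
    (h : ∀ i, π (u i * rel (f i)) = π (u i)) {x : FreeGroup Ed}
    (hx : x ∈ Subgroup.closure (Set.range fun i => u i * rel (f i) * (u i)⁻¹)) : π x = π 1 := by
  induction hx using Subgroup.closure_induction with
  | mem x hx => obtain ⟨i, rfl⟩ := hx; simpa using hπ _ _ (u i)⁻¹ (h i)
  | one => rfl
  | mul x y _ _ hx hy => simpa [hy] using hπ _ _ y hx
  | inv x _ hx => simpa using (hπ _ _ x⁻¹ hx).symm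

open Classical in
theorem tw_main (ψ : FreeGroup Ed →* kˣ) (rel : Fa → FreeGroup Ed) (u : I → FreeGroup Ed)
    (f : I → Fa) (hψ : ∀ i, ψ (rel (f i)) = 1) {γ : FreeGroup Ed} {n : ℕ} (hn : n ≠ 0)
    (hγ : γ ^ n ∈ Subgroup.closure (Set.range fun i => u i * rel (f i) * (u i)⁻¹))
    {Ω : Finset (FreeGroup Ed)} {E : Finset (FreeGroup Ed × Ed)} (h1 : 1 ∈ Ω) (h2 : γ ∈ Ω)
    (h3 : ∀ i, u i ∈ Ω) (h4 : ∀ i, u i * rel (f i) ∈ Ω) (hE : ∀ p ∈ E, p.1 ∈ Ω ∧ p.1 * of p.2 ∈ Ω)
    (hc : ∀ (M : Type) (Φ : FreeGroup Ed → M), (∀ p ∈ E, Φ (p.1 * of p.2) = Φ p.1) →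
      ∀ x ∈ Ω, Φ x = Φ 1) (N : ℕ) :
    ∀ (A : Type) (π : FreeGroup Ed → A), Ω.card - (Ω.image π).card < N →
      (∀ x y g, π x = π y → π (x * g) = π (y * g)) → π γ = π 1 →
      (∀ i, π (u i * rel (f i)) = π (u i)) →
      (∀ i₀, ∃ Φ, TwLev π ψ Φ ∧ ∀ i, twDf ψ Φ (u i) (rel (f i)) =
        if (π (u i), f i) = (π (u i₀), f i₀) then 1 else 0) → ψ γ = 1 := by
  induction N with
  | zero => exact fun _ _ h => absurd h (Nat.not_lt_zero _)
  | succ N ih =>
    intro A π hN hπ hg hr hd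
    by_contra hne
    have hm : ∀ x ∈ Ω, π x ∈ Ω.image π := fun x hx => Finset.mem_image_of_mem π hx
    have c1 : (Ω.image π).card + (Finset.univ.image fun i => (π (u i), f i)).card ≤
        (E.image (Prod.map π id)).card := by
      obtain ⟨δ0, δ1, P, ex, a1, a2, a3, a4, a5⟩ := tw_maps ψ rel u f hπ Ω E
      have b1 : LinearMap.ker δ0 = ⊥ := LinearMap.ker_eq_bot'.2 fun a ha => by
        have b := hc k (fun x => ψ x * ex a (π x)) fun p hp => by
          have := a5 a p (Finset.mem_image_of_mem _ hp)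
          rw [ha, twDf, eq_comm, Pi.zero_apply, Units.mul_right_eq_zero, sub_eq_zero] at this
          exact this
        have b0 : ex a (π 1) = 0 := by
          have := b γ h2
          simp only [hg, map_one, Units.val_one, one_mul] at this
          by_contra h0
          exact hne (Units.ext (mul_left_eq_self₀.1 this |>.resolve_right h0))
        funext x
        obtain ⟨y, hy, e⟩ := Finset.mem_image.1 x.2
        have := b y hy
        rw [b0, mul_zero, Units.mul_right_eq_zero, e, a4 a _ x.2] at this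
        exact this
      have b2 : LinearMap.range δ0 ≤ LinearMap.ker δ1 := by
        rintro _ ⟨a, rfl⟩
        funext x
        obtain ⟨i, -, e⟩ := Finset.mem_image.1 x.2
        obtain ⟨x, hx⟩ := x
        subst e
        rw [a2, twDf_congr hc (fun p hp => (a3 _ p (Finset.mem_image_of_mem _ hp)).trans
          (a5 a p _)) (h3 i) (h4 i)]
        simp [twDf, hψ, hr]
      have b3 : LinearMap.range δ1 = ⊤ := by
        rw [eq_top_iff, ← (Pi.basisFun k _).span_eq, Submodule.span_le]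
        rintro _ ⟨x, rfl⟩
        obtain ⟨i₀, -, e⟩ := Finset.mem_image.1 x.2
        obtain ⟨Φ, b4, b5⟩ := hd i₀
        choose r1 _ hr1 using fun x : E.image (Prod.map π id) => Finset.mem_image.1 x.2
        refine ⟨fun y => twDf ψ Φ (r1 y).1 (of y.1.2), funext fun y => ?_⟩
        obtain ⟨i, -, e'⟩ := Finset.mem_image.1 y.2
        obtain ⟨y, hy⟩ := y
        subst e'
        rw [a2, twDf_congr hc (fun p hp => (a3 _ p (Finset.mem_image_of_mem _ hp)).trans
          (b4 _ p.1 _ (congrArg Prod.fst (hr1 ⟨_, Finset.mem_image_of_mem _ hp⟩)))) (h3 i) (h4 i),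
          b5, Pi.basisFun_apply, Pi.single_apply, e]
        exact if_congr (by rw [Subtype.ext_iff]) rfl rfl
      have b4 := LinearMap.finrank_range_add_finrank_ker δ0
      have b5 := LinearMap.finrank_range_add_finrank_ker δ1
      have b6 := Submodule.finrank_mono b2
      rw [b1] at b4
      rw [b3] at b5
      simp only [finrank_bot, finrank_top, finrank_fintype_fun_eq_card, Fintype.card_coe] at b4 b5
      omega
    obtain ⟨δ0, δ1, P, ex, a1, a2, a3, a4, a5⟩ := tw_maps (K := ℚ) 1 rel u f hπ Ω E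
    have b1 : ¬ LinearMap.ker δ1 ≤ LinearMap.range δ0 := fun b => by
      have b4 := LinearMap.finrank_range_add_finrank_ker δ0
      have b5 := LinearMap.finrank_range_add_finrank_ker δ1
      have b6 := Submodule.finrank_mono b
      have b7 := Submodule.finrank_le (LinearMap.range δ1)
      have b8 : finrank ℚ (LinearMap.ker δ0) ≠ 0 := fun h => by
        have h5 : (fun _ => 1) ∈ LinearMap.ker δ0 := funext fun x => by
          obtain ⟨p, hp, e⟩ := Finset.mem_image.1 x.2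
          obtain ⟨x, hx⟩ := x
          subst e
          rw [a5]
          simp [twDf, a4 _ _ (hm _ (hE p hp).1), a4 _ _ (hm _ (hE p hp).2)]
        rw [Submodule.finrank_eq_zero.1 h] at h5
        exact one_ne_zero (congrFun h5 ⟨_, hm 1 h1⟩)
      simp only [finrank_fintype_fun_eq_card, Fintype.card_coe] at b4 b5 b7
      omega
    obtain ⟨c, hc1, hc2⟩ := Set.not_subset.1 b1
    have d1 : ∀ x y g, π x = π y → P c (x * g) - P c x = P c (y * g) - P c y := fun x y g h => by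
      simpa [twDf] using a1 c x y g h
    have d2 : ∀ x y g, (π x, P c x) = (π y, P c y) →
        (π (x * g), P c (x * g)) = (π (y * g), P c (y * g)) := fun x y g h => by
      obtain ⟨e1, e2⟩ := Prod.mk.inj h
      exact Prod.ext (hπ x y g e1) (by simpa [e2] using d1 x y g e1)
    have d3 : ∀ i, (π (u i * rel (f i)), P c (u i * rel (f i))) = (π (u i), P c (u i)) := fun i => by
      have := a2 c i (Finset.mem_image_of_mem _ (Finset.mem_univ i))
      rw [show δ1 c = 0 from hc1] at this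
      exact Prod.ext (hr i) (by simpa [twDf, eq_comm, sub_eq_zero] using this)
    have d4 : P c γ = P c 1 := by
      have e1 : ∀ m : ℕ, π (γ ^ m) = π 1 ∧ P c (γ ^ m) - P c 1 = m * (P c γ - P c 1) := fun m => by
        induction m with
        | zero => simp
        | succ m ih =>
          have e2 := hπ _ _ γ ih.1
          have e3 := d1 _ _ γ ih.1
          rw [one_mul, ← pow_succ] at e2 e3
          exact ⟨e2.trans hg, by push_cast; linear_combination e3 + ih.2⟩
      have e2 := congrArg Prod.snd (tw_closure (π := fun x => (π x, P c x)) d2 d3 hγ)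
      have e3 := (e1 n).2
      rw [sub_eq_zero.2 e2, eq_comm, mul_eq_zero, sub_eq_zero] at e3
      exact e3.resolve_left (Nat.cast_ne_zero.2 hn)
    refine hne (ih (A × ℚ) (fun x => (π x, P c x)) ?_ d2 (Prod.ext hg d4) d3
      fun i₀ => (tw_step ψ rel u f hπ hd d1 i₀).imp fun _ h => ⟨h.1, fun i =>
        (h.2 i).trans (congrArg (fun d => @ite _ _ d _ _) (Subsingleton.elim _ _))⟩)
    have e1 : (Ω.image fun x => (π x, P c x)).image Prod.fst = Ω.image π := Finset.image_image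
    have e2 := Finset.card_image_le (s := Ω) (f := fun x => (π x, P c x))
    have e3 : (Ω.image π).card < (Ω.image fun x => (π x, P c x)).card := by
      refine lt_of_le_of_ne (e1 ▸ Finset.card_image_le) fun e => hc2 ?_
      have e4 := Finset.card_image_iff.1 (e1.symm ▸ e)
      choose r0 hr0 hr0' using fun x : Ω.image π => Finset.mem_image.1 x.2
      have e5 : ∀ x ∈ Ω, ex (fun y => P c (r0 y)) (π x) = P c x := fun x hx => by
        rw [a4 _ _ (hm x hx)]
        exact congrArg Prod.snd (e4 (Finset.mem_image_of_mem _ (hr0 _))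
          (Finset.mem_image_of_mem _ hx) (hr0' _))
      refine ⟨fun y => P c (r0 y), funext fun x => ?_⟩
      obtain ⟨p, hp, e⟩ := Finset.mem_image.1 x.2
      obtain ⟨x, hx⟩ := x
      subst e
      rw [a5, ← a3 c]
      simp [twDf, e5 _ (hE p hp).1, e5 _ (hE p hp).2]
    exact (congrArg (fun d : DecidableEq (A × ℚ) =>
      Ω.card - (@Finset.image _ _ d (fun x => (π x, P c x)) Ω).card < N) (Subsingleton.elim _ _)).mp
      (show Ω.card - (Ω.image fun x => (π x, P c x)).card < N by omega)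

theorem tw_finite {rel : Fa → FreeGroup Ed} {x : FreeGroup Ed}
    (h : x ∈ Subgroup.normalClosure (Set.range rel)) : ∃ s : Finset (FreeGroup Ed × Fa),
      x ∈ Subgroup.closure ((fun p => p.1 * rel p.2 * p.1⁻¹) '' (s : Set (FreeGroup Ed × Fa))) := by
  classical
  induction h using Subgroup.closure_induction with
  | mem x hx =>
    obtain ⟨_, ⟨f, rfl⟩, h⟩ := Group.mem_conjugatesOfSet_iff.1 hx
    obtain ⟨c, rfl⟩ := isConj_iff.1 h
    exact ⟨{(c, f)}, Subgroup.subset_closure ⟨(c, f), by simp, rfl⟩⟩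
  | one => exact ⟨∅, one_mem _⟩
  | mul x y _ _ hx hy =>
    obtain ⟨s, hs⟩ := hx
    obtain ⟨t, ht⟩ := hy
    exact ⟨s ∪ t, mul_mem (Subgroup.closure_mono (Set.image_mono (by simp)) hs)
      (Subgroup.closure_mono (Set.image_mono (by simp)) ht)⟩
  | inv x _ hx => exact hx.imp fun _ => inv_mem

end Aux

theorem tower {k : Type} [Field k] {Ed Fa : Type w} (rel : Fa → FreeGroup Ed) (ψ : Ed → kˣ)
    (hψ : ∀ f, FreeGroup.lift ψ (rel f) = 1)
    (dual : ∀ f₀, ∃ c : Ed → k, ∀ f, fox ψ c (rel f) = 0 ↔ f ≠ f₀) {γ : FreeGroup Ed}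
    {n : ℕ} (hn : n ≠ 0) (h : γ ^ n ∈ Subgroup.normalClosure (Set.range rel)) :
    FreeGroup.lift ψ γ = 1 := by
  classical
  obtain ⟨s, hs⟩ := tw_finite h
  let e := s.equivFin.symm
  obtain ⟨Ω, E, h1, h2, h3, h4⟩ := tw_tree (insert γ (Finset.univ.image (fun i => (e i).1.1) ∪
    Finset.univ.image fun i => (e i).1.1 * rel (e i).1.2))
  refine tw_main (FreeGroup.lift ψ) rel (fun i => (e i).1.1) (fun i => (e i).1.2) (fun _ => hψ _)
    hn (Subgroup.closure_mono ?_ hs) h1 (h2 (by simp)) (fun i => h2 (by simp)) (fun i => h2 (by simp))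
    h3 h4 _ Unit (fun _ => ()) (Nat.lt_succ_self _) (fun _ _ _ _ => rfl) rfl (fun _ => rfl)
    fun i₀ => ?_
  · rintro _ ⟨p, hp, rfl⟩
    exact ⟨e.symm ⟨p, hp⟩, by simp⟩
  · obtain ⟨c, hc⟩ := dual (e i₀).1.2
    have h5 : ∀ a x g, twDf (FreeGroup.lift ψ) (fun x => a * fox ψ c x) x g = a * fox ψ c g :=
      fun a x g => by
        simp only [twDf, fox_mul, Units.smul_def, smul_eq_mul, mul_add, add_sub_cancel_left]
        rw [mul_left_comm, Units.inv_mul_cancel_left]
    refine ⟨fun x => (fox ψ c (rel (e i₀).1.2))⁻¹ * fox ψ c x, fun x y g _ => by rw [h5, h5],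
      fun i => ?_⟩
    rw [h5]
    split_ifs with h
    · rw [(Prod.mk.inj h).2]
      exact inv_mul_cancel₀ fun h => (hc _).1 h rfl
    · rw [(hc _).2 fun e => h (Prod.ext rfl e), mul_zero]

end Vale.Agent.P246
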