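import Vale.Agent.P246.PathRel
import Vale.Agent.P246.Dual
import Vale.Agent.P246.Tower
import Vale.Agent.P173.CxCover
import Vale.Agent.P173.CoverComb

/-! No two-dimensional complex has the forbidden universal cover. -/

universe u v w

namespace Vale.Agent.P246

open P173

theorem coordAux_lift {G H S : Type*} [Group G] [Group H] (ψ : G →* H) (μ : S → G)
    (w : FreeGroup S) : FreeGroup.lift (fun s => ψ (μ s)) w = ψ (FreeGroup.lift μ w) :=
  DFunLike.congr_fun (show FreeGroup.lift (fun s => ψ (μ s)) = ψ.comp (FreeGroup.lift μ) by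
    ext s; simp) w

theorem coordAux_fox {G S : Type*} [Group G] [DistribMulAction G ℂ] (ψ : G →* ℂˣ)
    (hψ : ∀ (g : G) (z : ℂ), g • z = ψ g * z) (μ : S → G) (c : S → ℂ) (w : FreeGroup S) :
    fox (fun s => ψ (μ s)) c w = fox μ c w := by
  induction w using FreeGroup.induction_on with
  | C1 => simp
  | of s => simp
  | inv_of s h => rw [fox_inv, fox_inv, h, coordAux_lift, hψ, map_inv]; rfl
  | mul x y hx hy => rw [fox_mul, fox_mul, hx, hy, coordAux_lift, hψ]; rfl

theorem coordAux_pow {V Ed : Type*} {src tgt : Ed → V} {a : V} {w : FreeGroup Ed}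
    (h : IsPath src tgt a w a) (n : ℕ) : IsPath src tgt a (w ^ n) a := by
  induction n with
  | zero => rw [pow_zero]; exact IsPath.refl a
  | succ n ih => rw [pow_succ]; exact ih.trans h

theorem coordAux_pot {G P V Ed : Type*} [Group G] [Group P] {src tgt : Ed → V} {μ : Ed → G}
    {φ : FreeGroup Ed →* P} {U : G → V → P}
    (hU : ∀ g e, φ (FreeGroup.of e) = (U g (src e))⁻¹ * U (g * μ e) (tgt e)) {a b : V}
    {w : FreeGroup Ed} (h : IsPath src tgt a w b) (g : G) :
    φ w = (U g a)⁻¹ * U (g * FreeGroup.lift μ w) b := by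
  induction h with
  | refl => simp
  | @fwd w e _ ih =>
    rw [map_mul, ih, hU (g * FreeGroup.lift μ w), map_mul, FreeGroup.lift_apply_of, mul_assoc,
      mul_inv_cancel_left, mul_assoc]
  | @bwd w e _ ih =>
    rw [map_mul, ih, map_inv, hU (g * FreeGroup.lift μ w * (μ e)⁻¹), map_mul, map_inv,
      FreeGroup.lift_apply_of, inv_mul_cancel_right, ← mul_assoc g]
    simp [mul_assoc]

theorem psi_eq_one {G : Type*} [Group G] {Y : Type u} {F : Type v} [TopologicalSpace Y]
    [TopologicalSpace F] [MulAction G F] [ContinuousConstSMul G F] [DistribMulAction G ℂ]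
    [SimplyConnectedSpace F] (C : Cx.{u, w} Y) {q : F → Y} (hq : IsQuotientCoveringMap q G)
    (ψ : G →* ℂˣ) (hψ : ∀ (g : G) (z : ℂ), g • z = ψ g * z) (hv : SVan G F ℂ 1) {x : G} {n : ℕ}
    (hn : n ≠ 0) (hx : x ^ n = 1) : ψ x = 1 := by
  obtain ⟨C', ⟨cc⟩⟩ := exists_cellCov C hq.isCoveringMap hq.surjective
  have := hq.isCancelSMul
  choose l0 hl0 using fun a => hq.surjective (C.vx a)
  have hco : ∀ a', ∃ g : G, g • l0 (cc.pV a') = C'.vx a' := fun a' =>
    hq.apply_eq_iff_mem_orbit.1 ((cc.hv a').trans (hl0 _).symm)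
  choose co hco using hco
  have h2 : ∀ a b, cc.pV a = cc.pV b → co a = co b → a = b := fun a b h h' =>
    C'.vx_inj (by rw [← hco, ← hco, h, h'])
  have hV : ∀ (g : G) a, ∃ b, cc.pV b = a ∧ co b = g := fun g a => by
    obtain ⟨b, hb⟩ := cc.liftV (g • l0 a) a ((hq.map_smul g).trans (hl0 a))
    have h : cc.pV b = a := C.vx_inj (by rw [← cc.hv, hb, hq.map_smul, hl0])
    exact ⟨b, h, IsCancelSMul.right_cancel _ _ (l0 a) (by rw [← hb, ← hco, h])⟩
  choose lv lv1 lv2 using hV
  have hE : ∀ g e, ∃ e', cc.pE e' = e ∧ C'.src e' = lv g (C.src e) := fun g e => by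
    obtain ⟨e', h, h'⟩ := cc.liftE (C'.vx (lv g (C.src e))) e (-1) (by rw [cc.hv, lv1, C.ed_src])
    exact ⟨e', h, C'.vx_inj ((C'.ed_src e').symm.trans h')⟩
  choose le le1 le2 using hE
  have key : ∀ e' t, C'.ed e' t = co (C'.src e') • C'.ed (le 1 (cc.pE e')) t := fun e' =>
    congrFun (hq.isCoveringMap.eq_of_comp_eq (C'.ed e').continuous
      ((C'.ed (le 1 (cc.pE e'))).continuous.const_smul _)
      (funext fun t => by
        rw [Function.comp_apply, Function.comp_apply, hq.map_smul, cc.he, cc.he, le1]) (-1)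
      (by rw [C'.ed_src, C'.ed_src, le2, ← hco, ← hco, lv1, lv2, one_smul, cc.cvc_src]))
  obtain ⟨μ, hμ⟩ : ∃ μ : C.Ed → G, ∀ e, μ e = co (C'.tgt (le 1 e)) := ⟨_, fun _ => rfl⟩
  have h1 : ∀ e', co (C'.tgt e') = co (C'.src e') * μ (cc.pE e') := fun e' => by
    refine IsCancelSMul.right_cancel _ _ (l0 (cc.pV (C'.tgt e'))) ?_
    have h : cc.pV (C'.tgt e') = cc.pV (C'.tgt (le 1 (cc.pE e'))) := by
      rw [cc.cvc_tgt, cc.cvc_tgt, le1]
    rw [hco, ← C'.ed_tgt, key, C'.ed_tgt, mul_smul, hμ, h, hco]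
  have hF : ∀ f, ∃ f', cc.pF f' = f := fun f => by
    obtain ⟨y, hy⟩ := hq.surjective (C.fa f 0)
    exact (cc.liftF y f 0 hy).imp fun _ h => h.1
  obtain ⟨γ', hγ'⟩ := C'.conn C'.v0 (lv (co C'.v0 * x) C.v0)
  obtain ⟨p1, p2⟩ := cc.cvc_path h1 hγ'
  rw [cc.h0, lv1] at p1
  rw [lv2] at p2
  have p3 := mul_left_cancel p2
  rw [p3, ← coordAux_lift]
  refine tower C.rel _ (fun f => ?_) (fun f₀ => ?_) hn ?_
  · obtain ⟨f', rfl⟩ := hF f
    have := (cc.cvc_path h1 (C'.path_rel f')).2
    rw [cc.cvc_rel] at this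
    rw [coordAux_lift, left_eq_mul.1 this, map_one]
  · obtain ⟨b, hb1, hb2, hb3⟩ := exists_dual hq cc hv f₀
    refine ⟨fun e => b (pth (C'.epath (le 1 e))), fun f => ?_⟩
    obtain ⟨f', rfl⟩ := hF f
    have e1 : (fun e' => Multiplicative.ofAdd (b (pth (C'.epath e')))) = fun e' =>
        Multiplicative.ofAdd (co (C'.src e') • b (pth (C'.epath (le 1 (cc.pE e'))))) :=
      funext fun e' => by
        rw [← hb1]
        exact congrArg (fun σ => Multiplicative.ofAdd (b σ)) (ContinuousMap.ext fun t => key e' _)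
    have e2 := rel_of_cocycle C' hb2 f'
    rw [e1, cc.cvc_ev h1 (fun g e => Multiplicative.ofAdd (g • b (pth (C'.epath (le 1 e)))))
      (C'.path_rel f'), cc.cvc_rel] at e2
    have e3 := congrArg Multiplicative.toAdd e2
    rw [fox_ev, toAdd_ofAdd] at e3
    rw [coordAux_fox ψ hψ, ← hb3, ← e3, smul_eq_zero_iff_eq]
  · obtain ⟨U, hU⟩ := C'.pot_of_flat (fun e => QuotientGroup.mk'
      (Subgroup.normalClosure (Set.range C.rel)) (FreeGroup.of (cc.pE e))) fun f => by
        rw [coordAux_lift]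
        have : FreeGroup.lift (fun e => FreeGroup.of (cc.pE e)) (C'.rel f) =
            FreeGroup.map cc.pE (C'.rel f) :=
          DFunLike.congr_fun (show FreeGroup.lift (fun e => FreeGroup.of (cc.pE e)) =
            FreeGroup.map cc.pE by ext e; simp) _
        rw [this, cc.cvc_rel]
        exact (QuotientGroup.eq_one_iff _).2 (Subgroup.subset_normalClosure ⟨_, rfl⟩)
    have h5 := coordAux_pot (μ := μ) (U := fun g a => U (lv g a))
      (φ := QuotientGroup.mk' (Subgroup.normalClosure (Set.range C.rel))) (fun g e => by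
        have h4 : C'.tgt (le g e) = lv (g * μ e) (C.tgt e) :=
          h2 _ _ (by rw [cc.cvc_tgt, le1, lv1]) (by rw [h1, le2, lv2, lv2, le1])
        have := hU (le g e)
        rwa [h4, le2, le1] at this) (coordAux_pow p1 n) 1
    rw [map_pow (FreeGroup.lift μ), ← p3, hx, mul_one, inv_mul_cancel] at h5
    exact (QuotientGroup.eq_one_iff _).1 h5

end Vale.Agent.P246
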