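import Mathlib

/-! Definitions for the statement of P246. -/

open CategoryTheory

namespace Vale.Agent.P246

/-- The standard topological `n`-simplex. -/
abbrev Sx (n : ℕ) : Type := stdSimplex ℝ (Fin (n + 1))

/-- The `i`-th face of a singular simplex. -/
noncomputable def face {E : Type*} [TopologicalSpace E] {n : ℕ} (i : Fin (n + 2))
    (σ : C(Sx (n + 1), E)) : C(Sx n, E) :=
  σ.comp ⟨stdSimplex.map i.succAbove, stdSimplex.continuous_map _⟩

/-- The coboundary of a singular cochain. -/
noncomputable def cobd {E M : Type*} [TopologicalSpace E] [AddCommGroup M] {n : ℕ}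
    (f : C(Sx n, E) → M) (σ : C(Sx (n + 1), E)) : M :=
  ∑ i : Fin (n + 2), (-1 : ℤ) ^ (i : ℕ) • f (face i σ)

/-- The cochain `f` is `ℤ[G]`-linear: it commutes with the action of every `g : G`. -/
def IsEqv (G : Type) [Group G] {E M : Type} [TopologicalSpace E] [MulAction G E]
    [ContinuousConstSMul G E] [AddCommGroup M] [Module (MonoidAlgebra ℤ G) M] {n : ℕ}
    (f : C(Sx n, E) → M) : Prop :=
  ∀ (g : G) (σ : C(Sx n, E)), f (g • σ) = MonoidAlgebra.of ℤ G g • f σ

/-- The third cohomology of `Hom_{ℤ[G]}(S_*(E), M)` vanishes. -/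
def H3Zero (G : Type) [Group G] (E M : Type) [TopologicalSpace E] [MulAction G E]
    [ContinuousConstSMul G E] [AddCommGroup M] [Module (MonoidAlgebra ℤ G) M] : Prop :=
  ∀ f : C(Sx 3, E) → M, IsEqv G f → cobd f = 0 →
    ∃ b : C(Sx 2, E) → M, IsEqv G b ∧ cobd b = f

/-- The `D(2)` condition, for the universal cover `p : E → X` with deck group `G`. -/
def D2 (X : Type) [TopologicalSpace X] : Prop :=
  ∃ (E : Type) (_ : TopologicalSpace E) (G : Type) (_ : Group G) (_ : MulAction G E)
    (_ : ContinuousConstSMul G E) (p : E → X),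
    IsQuotientCoveringMap p G ∧ SimplyConnectedSpace E ∧
    (∀ i, 2 < i → Limits.IsZero
      (((AlgebraicTopology.singularHomologyFunctor (ModuleCat.{0} ℤ) i).obj
        (ModuleCat.of ℤ ℤ)).obj (TopCat.of E))) ∧
    ∀ (M : Type) [AddCommGroup M] [Module (MonoidAlgebra ℤ G) M],
      Module.Finite (MonoidAlgebra ℤ G) M → H3Zero G E M

end Vale.Agent.P246
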