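import Vale.Agent.P246.Flag

/-! Potentials, and the structural properties of double mapping cylinders. -/

namespace Vale.Agent.P246

variable {G : Type} [Group G] {K L A R : Flag G} {a : A.Hom L} {c : A.Hom R}
  {M : Type*} [AddCommGroup M] [DistribMulAction G M] {P : Type*} [Group P]

section Abelian

theorem Flag.Coc.tri {f : Tup 1 K.V → M} (hf : K.Coc f) {x y z : K.V} (h1 : K.R x y)
    (h2 : K.R y z) (h3 : K.R x z) : f ![x, y] + f ![y, z] = f ![x, z] := by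
  have h := hf.2 ![x, y, z] fun i j => by
    fin_cases i <;> fin_cases j <;>
      first | exact K.refl _ | assumption | exact K.symm ‹_›
  rw [tco_one_eq] at h
  rw [← sub_eq_zero, ← h]
  abel

theorem Flag.Coc.self {f : Tup 1 K.V → M} (hf : K.Coc f) (x : K.V) : f ![x, x] = 0 := by
  exact add_eq_left.1 (hf.tri (K.refl x) (K.refl x) (K.refl x))

theorem Flag.Coc.swap {f : Tup 1 K.V → M} (hf : K.Coc f) {x y : K.V} (h : K.R x y) :
    f ![y, x] = -f ![x, y] := by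
  exact eq_neg_of_add_eq_zero_right ((hf.tri h (K.symm h) (K.refl x)).trans (hf.self x))

theorem Flag.Eqv.pair {f : Tup 1 K.V → M} (hf : K.Eqv f) (g : G) (x y : K.V) :
    f ![g • x, g • y] = g • f ![x, y] := by
  rw [← hf]
  exact congrArg f (funext fun i => by fin_cases i <;> rfl)

theorem Flag.Hom.pull_pair {N : Type*} (φ : K.Hom L) (f : Tup 1 L.V → N) (x y : K.V) :
    φ.pull f ![x, y] = f ![φ.f x, φ.f y] := by
  exact congrArg f (funext fun i => by fin_cases i <;> rfl)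

theorem Flag.cob_iff {f : Tup 1 K.V → M} : K.Cob f ↔ ∃ φ, K.APot f φ := by
  constructor
  · rintro ⟨b, h1, h2⟩
    refine ⟨fun x => b fun _ => x, fun g x => h1 g fun _ => x, fun x y h => ?_⟩
    rw [← h2 ![x, y] fun i j => by
      fin_cases i <;> fin_cases j <;> first | exact K.refl _ | exact h | exact K.symm h]
    exact tco_zero_eq b _
  · rintro ⟨φ, h1, h2⟩
    refine ⟨fun x => φ (x 0), fun g x => h1 g (x 0), fun x hx => ?_⟩
    rw [tco_zero_eq, ← h2 _ _ (hx 0 1)]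
    exact congrArg f (funext fun i => by fin_cases i <;> rfl)

theorem Flag.APot.pull {f : Tup 1 L.V → M} {φ : L.V → M} (h : L.APot f φ) (ψ : K.Hom L) :
    K.APot (ψ.pull f) fun x => φ (ψ.f x) := by
  exact ⟨fun g x => (congrArg φ (ψ.smul g x)).trans (h.1 g _), fun x y e => by rw [ψ.pull_pair, h.2 _ _ (ψ.rel e)]⟩

/-- Two potentials differ by a constant on connected pieces. -/
theorem Flag.APot.sub_eq {f : Tup 1 K.V → M} {φ φ' : K.V → M} (h : K.APot f φ) (h' : K.APot f φ')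
    {x y : K.V} (hxy : Relation.ReflTransGen K.R x y) : φ x - φ' x = φ y - φ' y := by
  induction hxy with
  | refl => rfl
  | tail _ e ih =>
    have e' := (h.2 _ _ e).symm.trans (h'.2 _ _ e)
    rw [ih, sub_eq_sub_iff_sub_eq_sub, ← neg_inj, neg_sub, neg_sub, e']

theorem deg1Aux_l {f : Tup 1 (dmc a c).V → M} (hf : (dmc a c).Coc f) {φL : L.V → M}
    (hL : L.APot ((inL a c).pull f) φL) {x : L.V} {y : A.V} (e : L.R x (a.f y)) :
    φL x + f ![.l x, .m y] = φL (a.f y) + f ![.l (a.f y), .m y] := by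
  have e1 : f ![.l x, .l (a.f y)] = φL (a.f y) - φL x :=
    ((inL a c).pull_pair f x _).symm.trans (hL.2 x _ e)
  rw [← hf.tri (x := .l x) (y := .l (a.f y)) (z := .m y) e (L.refl _) e, e1]
  abel

theorem deg1Aux_r {f : Tup 1 (dmc a c).V → M} (hf : (dmc a c).Coc f) {φR : R.V → M}
    (hR : R.APot ((inR a c).pull f) φR) {x : R.V} {y : A.V} (e : R.R x (c.f y)) :
    φR x + f ![.r x, .m y] = φR (c.f y) + f ![.r (c.f y), .m y] := by
  have e1 : f ![.r x, .r (c.f y)] = φR (c.f y) - φR x :=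
    ((inR a c).pull_pair f x _).symm.trans (hR.2 x _ e)
  rw [← hf.tri (x := .r x) (y := .r (c.f y)) (z := .m y) e (R.refl _) e, e1]
  abel

theorem deg1Aux_lm {f : Tup 1 (dmc a c).V → M} (hf : (dmc a c).Coc f) {φL : L.V → M}
    (hL : L.APot ((inL a c).pull f) φL) {x y : A.V} (e : A.R x y) :
    φL (a.f x) + f ![.l (a.f x), .m x] + f ![.m x, .m y] = φL (a.f y) + f ![.l (a.f y), .m y] := by
  rw [add_assoc, hf.tri (x := .l (a.f x)) (y := .m x) (z := .m y) (L.refl _) e (a.rel e),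
    deg1Aux_l hf hL (a.rel e)]

theorem deg1Aux_rm {f : Tup 1 (dmc a c).V → M} (hf : (dmc a c).Coc f) {φR : R.V → M}
    (hR : R.APot ((inR a c).pull f) φR) {x y : A.V} (e : A.R x y) :
    φR (c.f x) + f ![.r (c.f x), .m x] + f ![.m x, .m y] = φR (c.f y) + f ![.r (c.f y), .m y] := by
  rw [add_assoc, hf.tri (x := .r (c.f x)) (y := .m x) (z := .m y) (R.refl _) e (c.rel e),
    deg1Aux_r hf hR (c.rel e)]

theorem apot_dmc {f : Tup 1 (dmc a c).V → M} (hf : (dmc a c).Coc f) {φL : L.V → M} {φR : R.V → M}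
    (hL : L.APot ((inL a c).pull f) φL) (hR : R.APot ((inR a c).pull f) φR)
    (h : ∀ x, φL (a.f x) + f ![.l (a.f x), .m x] = φR (c.f x) + f ![.r (c.f x), .m x]) :
    ∃ φ, (dmc a c).APot f φ ∧ (∀ x, φ (.l x) = φL x) ∧ ∀ x, φ (.r x) = φR x := by
  refine ⟨fun
    | .l x => φL x
    | .m x => φL (a.f x) + f ![.l (a.f x), .m x]
    | .r x => φR x, ⟨fun g x => ?_, fun x y e => ?_⟩, fun _ => rfl, fun _ => rfl⟩
  · rcases x with x | x | x
    · exact hL.1 g x
    · change φL (a.f (g • x)) + f ![.l (a.f (g • x)), .m (g • x)] = g • (_ + _)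
      rw [a.smul, hL.1, smul_add, ← hf.1.pair]
      rfl
    · exact hR.1 g x
  · rcases x with x | x | x <;> rcases y with y | y | y
    · exact ((inL a c).pull_pair f x y).symm.trans (hL.2 x y e)
    · exact eq_sub_of_add_eq' (deg1Aux_l hf hL e)
    · exact e.elim
    · rw [hf.swap ((dmc a c).symm e), eq_sub_of_add_eq' (deg1Aux_l hf hL (L.symm e)), neg_sub]
    · exact eq_sub_of_add_eq' (deg1Aux_lm hf hL e)
    · rw [hf.swap ((dmc a c).symm e), eq_sub_of_add_eq' (deg1Aux_r hf hR (R.symm e)), neg_sub, ← h]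
    · exact e.elim
    · exact eq_sub_of_add_eq' ((deg1Aux_r hf hR e).trans (h y).symm)
    · exact ((inR a c).pull_pair f x y).symm.trans (hR.2 x y e)

/-- The gluing defect is constant along the edges of the middle part. -/
theorem defect_eq {f : Tup 1 (dmc a c).V → M} (hf : (dmc a c).Coc f) {φL : L.V → M} {φR : R.V → M}
    (hL : L.APot ((inL a c).pull f) φL) (hR : R.APot ((inR a c).pull f) φR) {x y : A.V}
    (h : Relation.ReflTransGen A.R x y) :
    φL (a.f x) + f ![.l (a.f x), .m x] - (φR (c.f x) + f ![.r (c.f x), .m x]) =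
      φL (a.f y) + f ![.l (a.f y), .m y] - (φR (c.f y) + f ![.r (c.f y), .m y]) := by
  induction h with
  | refl => rfl
  | tail _ e ih => rw [ih, ← deg1Aux_lm hf hL e, ← deg1Aux_rm hf hR e, add_sub_add_right_eq_sub]

theorem cob_cone {D : Type} [MulAction G D] {c : A.Hom (disc G D)} (hc : c.FibConn)
    (hs : Function.Surjective c.f) {f : Tup 1 (dmc a c).V → M} (hf : (dmc a c).Coc f)
    (hL : L.Cob ((inL a c).pull f)) : (dmc a c).Cob f := by
  obtain ⟨φL, hL⟩ := Flag.cob_iff.1 hL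
  choose s hs using hs
  have h0 : ∀ x, (inR a c).pull f ![x, x] = 0 := fun x => (hf.pull _).self x
  have h1 : (disc G D).APot ((inR a c).pull f) fun _ => 0 :=
    ⟨fun g _ => (smul_zero g).symm, by rintro x _ rfl; rw [h0, sub_self]⟩
  have key : ∀ x, φL (a.f (s (c.f x))) + f ![.l (a.f (s (c.f x))), .m (s (c.f x))] -
      f ![.r (c.f x), .m (s (c.f x))] =
      φL (a.f x) + f ![.l (a.f x), .m x] - f ![.r (c.f x), .m x] := fun x => by
    have := defect_eq hf hL h1 (hc (s (c.f x)) x (hs _))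
    rwa [zero_add, zero_add, hs] at this
  obtain ⟨φ, hφ, -⟩ := apot_dmc hf hL
    (φR := fun d => φL (a.f (s d)) + f ![.l (a.f (s d)), .m (s d)] - f ![.r d, .m (s d)])
    ⟨fun g d => by
      have e : g • d = c.f (g • s d) := by rw [c.smul, hs]
      beta_reduce
      rw [e, key, a.smul, hL.1, ← e, smul_sub, smul_add, ← hf.1.pair, ← hf.1.pair]
      rfl, by rintro x _ rfl; rw [h0, sub_self]⟩
    fun x => by rw [key, sub_add_cancel]
  exact Flag.cob_iff.2 ⟨φ, hφ⟩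

theorem Gr.apot (Γ : Gr G) {f : Tup 1 Γ.flag.V → M} (hf : Γ.flag.Coc f) {φ : Γ.V → M}
    (hφ : ∀ (g : G) v, φ (g • v) = g • φ v) (h : ∀ e, Γ.hol f e = φ (Γ.t e) - φ (Γ.s e)) :
    ∃ φ', Γ.flag.APot f φ' ∧ ∀ v, φ' (.l v) = φ v := by
  obtain ⟨φ', h1, h2, -⟩ := apot_dmc hf (φL := φ)
    (φR := fun e => φ (Γ.s e) + f ![.l (Γ.s e), .m (.inl e)] - f ![.r e, .m (.inl e)])
    ⟨hφ, by rintro x _ rfl; rw [(hf.pull _).self, sub_self]⟩
    ⟨fun g e => by
      beta_reduce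
      rw [Γ.s_smul, hφ, smul_sub, smul_add, ← hf.1.pair, ← hf.1.pair]
      rfl, by rintro x _ rfl; rw [(hf.pull _).self, sub_self]⟩
    (by
      rintro (e | e)
      · exact (sub_add_cancel _ _).symm
      · have e1 := h e
        rw [Gr.hol, hf.swap (x := .r e) (y := .m (.inl e)) rfl,
          hf.swap (x := .l (Γ.t e)) (y := .m (.inr e)) rfl] at e1
        change φ (Γ.t e) + f ![.l (Γ.t e), .m (.inr e)] = φ (Γ.s e) + f ![.l (Γ.s e), .m (.inl e)] -
          f ![.r e, .m (.inl e)] + f ![.r e, .m (.inr e)]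
        rw [← add_sub_cancel (φ (Γ.s e)) (φ (Γ.t e)), add_sub_assoc, ← e1]
        abel)
  exact ⟨φ', h1, h2⟩

theorem Gr.hol_of_apot (Γ : Gr G) {f : Tup 1 Γ.flag.V → M} {φ : Γ.flag.V → M}
    (h : Γ.flag.APot f φ) (e : Γ.E) : Γ.hol f e = φ (.l (Γ.t e)) - φ (.l (Γ.s e)) := by
  rw [Gr.hol, h.2 (.l (Γ.s e)) (.m (.inl e)) rfl, h.2 (.m (.inl e)) (.r e) rfl,
    h.2 (.r e) (.m (.inr e)) rfl, h.2 (.m (.inr e)) (.l (Γ.t e)) rfl]
  abel

theorem Gr.hol_smul (Γ : Gr G) {f : Tup 1 Γ.flag.V → M} (hf : Γ.flag.Eqv f) (g : G) (e : Γ.E) :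
    Γ.hol f (g • e) = g • Γ.hol f e := by
  simp only [Gr.hol, smul_add, ← hf.pair, Γ.s_smul, Γ.t_smul]
  rfl

/-- The cochain concentrated on the last quarter of each edge. -/
def deg1Aux_F {V E : Type} (η : E → M) : DV V (E ⊕ E) E → DV V (E ⊕ E) E → M
  | .m (.inr e), .l _ => η e
  | .l _, .m (.inr e) => -η e
  | _, _ => 0

theorem deg1Aux_F_smul {Γ : Gr G} {η : Γ.E → M} (hη : ∀ (g : G) e, η (g • e) = g • η e) (g : G)
    (x y : Γ.flag.V) : deg1Aux_F η (g • x) (g • y) = g • deg1Aux_F η x y := by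
  rcases x with x | (x | x) | x <;> rcases y with y | (y | y) | y <;>
    first
      | exact (smul_zero g).symm
      | exact hη g _
      | exact (congrArg Neg.neg (hη g _)).trans (smul_neg g _).symm

omit [DistribMulAction G M] in
theorem deg1Aux_F_tri {Γ : Gr G} (η : Γ.E → M) {x y z : Γ.flag.V} (h1 : Γ.flag.R x y)
    (h2 : Γ.flag.R y z) (h3 : Γ.flag.R x z) :
    deg1Aux_F η y z - deg1Aux_F η x z + deg1Aux_F η x y = 0 := by
  rcases x with x | (x | x) | x <;> rcases y with y | (y | y) | y <;>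
    rcases z with z | (z | z) | z <;> simp_all [deg1Aux_F, dmcRel]

theorem Gr.exists_coc (Γ : Gr G) (η : Γ.E → M) (hη : ∀ (g : G) e, η (g • e) = g • η e) :
    ∃ f : Tup 1 Γ.flag.V → M, Γ.flag.Coc f ∧ ∀ e, Γ.hol f e = η e := by
  refine ⟨fun x => deg1Aux_F η (x 0) (x 1), ⟨fun g x => deg1Aux_F_smul hη g _ _, fun x hx => ?_⟩,
    fun e => ?_⟩
  · have e : x = ![x 0, x 1, x 2] := funext fun i => by fin_cases i <;> rfl
    rw [e, tco_one_eq]
    exact deg1Aux_F_tri η (hx 0 1) (hx 1 2) (hx 0 2)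
  · change (0 : M) + 0 + 0 + η e = η e
    simp

omit [DistribMulAction G M] in
theorem Gr.Hom.hol_pull {Γ Γ' : Gr G} (φ : Γ.Hom Γ') (f : Tup 1 Γ'.flag.V → M) (e : Γ.E) :
    Γ.hol (φ.flag.pull f) e = Γ'.hol f (φ.e e) := by
  rw [Gr.hol, Gr.hol, φ.hs, φ.ht, φ.flag.pull_pair, φ.flag.pull_pair, φ.flag.pull_pair,
    φ.flag.pull_pair]
  rfl

end Abelian

section NonAbelian

theorem Flag.Flat.self {l : K.V → K.V → P} (h : K.Flat l) (x : K.V) : l x x = 1 := by
  exact mul_eq_left.1 (h x x x (K.refl x) (K.refl x) (K.refl x))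

theorem Flag.Flat.swap {l : K.V → K.V → P} (h : K.Flat l) {x y : K.V} (hxy : K.R x y) :
    l y x = (l x y)⁻¹ := by
  exact eq_inv_of_mul_eq_one_right ((h x y x hxy (K.symm hxy) (K.refl x)).trans (h.self x))

theorem Flag.Flat.pull {l : L.V → L.V → P} (h : L.Flat l) (φ : K.Hom L) :
    K.Flat fun x y => l (φ.f x) (φ.f y) := by
  exact fun _ _ _ h1 h2 h3 => h _ _ _ (φ.rel h1) (φ.rel h2) (φ.rel h3)

theorem deg1Aux_l' {l : (dmc a c).V → (dmc a c).V → P} (hl : (dmc a c).Flat l) {hL : L.V → P}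
    (h1 : L.IsPot (fun x y => l (.l x) (.l y)) hL) {x : L.V} {y : A.V} (e : L.R x (a.f y)) :
    hL x * l (.l x) (.m y) = hL (a.f y) * l (.l (a.f y)) (.m y) := by
  have e1 : l (.l x) (.l (a.f y)) = (hL x)⁻¹ * hL (a.f y) := h1 x _ e
  rw [← hl (.l x) (.l (a.f y)) (.m y) e (L.refl _) e, e1]
  group

theorem deg1Aux_r' {l : (dmc a c).V → (dmc a c).V → P} (hl : (dmc a c).Flat l) {hR : R.V → P}
    (h2 : R.IsPot (fun x y => l (.r x) (.r y)) hR) {x : R.V} {y : A.V} (e : R.R x (c.f y)) :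
    hR x * l (.r x) (.m y) = hR (c.f y) * l (.r (c.f y)) (.m y) := by
  have e1 : l (.r x) (.r (c.f y)) = (hR x)⁻¹ * hR (c.f y) := h2 x _ e
  rw [← hl (.r x) (.r (c.f y)) (.m y) e (R.refl _) e, e1]
  group

theorem deg1Aux_lm' {l : (dmc a c).V → (dmc a c).V → P} (hl : (dmc a c).Flat l) {hL : L.V → P}
    (h1 : L.IsPot (fun x y => l (.l x) (.l y)) hL) {x y : A.V} (e : A.R x y) :
    hL (a.f x) * l (.l (a.f x)) (.m x) * l (.m x) (.m y) = hL (a.f y) * l (.l (a.f y)) (.m y) := by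
  rw [mul_assoc, hl (.l (a.f x)) (.m x) (.m y) (L.refl _) e (a.rel e), deg1Aux_l' hl h1 (a.rel e)]

theorem pot_dmc {l : (dmc a c).V → (dmc a c).V → P} (hl : (dmc a c).Flat l) {hL : L.V → P}
    {hR : R.V → P} (h1 : L.IsPot (fun x y => l (.l x) (.l y)) hL)
    (h2 : R.IsPot (fun x y => l (.r x) (.r y)) hR)
    (h : ∀ x, hL (a.f x) * l (.l (a.f x)) (.m x) = hR (c.f x) * l (.r (c.f x)) (.m x)) :
    ∃ h, (dmc a c).IsPot l h := by
  refine ⟨fun
    | .l x => hL x
    | .m x => hL (a.f x) * l (.l (a.f x)) (.m x)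
    | .r x => hR x, fun x y e => ?_⟩
  rcases x with x | x | x <;> rcases y with y | y | y
  · exact h1 x y e
  · exact eq_inv_mul_of_mul_eq (deg1Aux_l' hl h1 e)
  · exact e.elim
  · rw [hl.swap ((dmc a c).symm e), eq_inv_mul_of_mul_eq (deg1Aux_l' hl h1 (L.symm e)),
      mul_inv_rev, inv_inv]
  · exact eq_inv_mul_of_mul_eq (deg1Aux_lm' hl h1 e)
  · rw [hl.swap ((dmc a c).symm e), eq_inv_mul_of_mul_eq (deg1Aux_r' hl h2 (R.symm e)),
      mul_inv_rev, inv_inv, ← h]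
  · exact e.elim
  · exact eq_inv_mul_of_mul_eq ((deg1Aux_r' hl h2 e).trans (h y).symm)
  · exact h2 x y e

theorem pot_cone {D : Type} [MulAction G D] {c : A.Hom (disc G D)} (hc : c.FibConn)
    {l : (dmc a c).V → (dmc a c).V → P} (hl : (dmc a c).Flat l)
    (h : ∃ h, L.IsPot (fun x y => l (.l x) (.l y)) h) : ∃ h, (dmc a c).IsPot l h := by
  classical
  obtain ⟨hL, h1⟩ := h
  have key : ∀ x y, Relation.ReflTransGen A.R x y →
      hL (a.f x) * l (.l (a.f x)) (.m x) * (l (.r (c.f x)) (.m x))⁻¹ =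
      hL (a.f y) * l (.l (a.f y)) (.m y) * (l (.r (c.f y)) (.m y))⁻¹ := fun x y h => by
    induction h with
    | refl => rfl
    | @tail y z _ e ih =>
      have e1 : c.f y = c.f z := c.rel e
      rw [ih, ← deg1Aux_lm' hl h1 e, ← e1, ← hl (.r (c.f y)) (.m y) (.m z) rfl e e1]
      group
  refine pot_dmc hl h1 (hR := fun d => if h : ∃ x, c.f x = d then
    hL (a.f h.choose) * l (.l (a.f h.choose)) (.m h.choose) * (l (.r (c.f h.choose)) (.m h.choose))⁻¹
    else 1) ?_ fun x => ?_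
  · rintro x _ rfl
    rw [inv_mul_cancel]
    exact hl.self _
  · have h : ∃ y, c.f y = c.f x := ⟨x, rfl⟩
    rw [dif_pos h, key _ _ (hc _ x h.choose_spec), inv_mul_cancel_right]

/-- Labels that extend over a cone have a potential on the base of the cone. -/
theorem pot_base {D : Type} [MulAction G D] {c : A.Hom (disc G D)}
    {l : (dmc a c).V → (dmc a c).V → P} (hl : (dmc a c).Flat l) :
    ∃ h, A.IsPot (fun x y => l (.l (a.f x)) (.l (a.f y))) h := by
  refine ⟨fun x => l (.r (c.f x)) (.m x) * l (.m x) (.l (a.f x)), fun x y e => ?_⟩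
  have e1 : c.f x = c.f y := c.rel e
  refine eq_inv_mul_of_mul_eq ?_
  rw [mul_assoc, hl (.m x) (.l (a.f x)) (.l (a.f y)) (L.refl _) (a.rel e) (a.rel e),
    ← hl (.m x) (.m y) (.l (a.f y)) e (L.refl _) (a.rel e), ← mul_assoc,
    hl (.r (c.f x)) (.m x) (.m y) rfl e e1, e1]

theorem Gr.pot (Γ : Gr G) {l : Γ.flag.V → Γ.flag.V → P} (hl : Γ.flag.Flat l) {h : Γ.V → P}
    (e : ∀ e, Γ.mhol l e = (h (Γ.s e))⁻¹ * h (Γ.t e)) : ∃ h', Γ.flag.IsPot l h' := by
  refine pot_dmc hl (hL := h)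
    (hR := fun e => h (Γ.s e) * l (.l (Γ.s e)) (.m (.inl e)) * (l (.r e) (.m (.inl e)))⁻¹) ?_ ?_ ?_
  · rintro x _ rfl
    rw [inv_mul_cancel]
    exact hl.self _
  · rintro x _ rfl
    rw [inv_mul_cancel]
    exact hl.self _
  · rintro (x | x)
    · exact (inv_mul_cancel_right _ _).symm
    · have e1 := e x
      rw [Gr.mhol, hl.swap (x := .r x) (y := .m (.inl x)) rfl,
        hl.swap (x := .l (Γ.t x)) (y := .m (.inr x)) rfl] at e1
      change h (Γ.t x) * l (.l (Γ.t x)) (.m (.inr x)) = h (Γ.s x) * l (.l (Γ.s x)) (.m (.inl x)) *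
        (l (.r x) (.m (.inl x)))⁻¹ * l (.r x) (.m (.inr x))
      rw [← mul_inv_cancel_left (h (Γ.s x)) (h (Γ.t x)), ← e1]
      group

theorem Gr.mhol_of_isPot (Γ : Gr G) {l : Γ.flag.V → Γ.flag.V → P} {h : Γ.flag.V → P}
    (hh : Γ.flag.IsPot l h) (e : Γ.E) :
    Γ.mhol l e = (h (.l (Γ.s e)))⁻¹ * h (.l (Γ.t e)) := by
  rw [Gr.mhol, hh (.l (Γ.s e)) (.m (.inl e)) rfl, hh (.m (.inl e)) (.r e) rfl,
    hh (.r e) (.m (.inr e)) rfl, hh (.m (.inr e)) (.l (Γ.t e)) rfl]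
  group

theorem Gr.Hom.mhol_pull {Γ Γ' : Gr G} (φ : Γ.Hom Γ') (l : Γ'.flag.V → Γ'.flag.V → P) (e : Γ.E) :
    Γ.mhol (fun x y => l (φ.flag.f x) (φ.flag.f y)) e = Γ'.mhol l (φ.e e) := by
  simp only [Gr.mhol, φ.hs, φ.ht]
  rfl

end NonAbelian

section Structure

theorem cov_dmc (hL : L.Cov) (hA : A.Cov) (hR : R.Cov) : (dmc a c).Cov := by
  rintro g (x | x | x) (y | y | y) h1 h2
  · exact hL g x y h1 h2
  · exact hL g x (a.f y) h1 (a.smul g y ▸ h2)
  · exact h1.elim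
  · exact hL g (a.f x) y h1 h2
  · exact hA g x y h1 h2
  · exact hR g (c.f x) y h1 h2
  · exact h1.elim
  · exact hR g x (c.f y) h1 (c.smul g y ▸ h2)
  · exact hR g x y h1 h2

theorem cofin_dmc (hL : L.Cofin) (hA : A.Cofin) (hR : R.Cofin) : (dmc a c).Cofin := by
  obtain ⟨s1, f1, h1⟩ := hL
  obtain ⟨s2, f2, h2⟩ := hA
  obtain ⟨s3, f3, h3⟩ := hR
  refine ⟨DV.l '' s1 ∪ DV.m '' s2 ∪ DV.r '' s3,
    ((f1.image _).union (f2.image _)).union (f3.image _), ?_⟩
  rintro (x | x | x)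
  · exact (h1 x).imp fun g hg => .inl (.inl ⟨_, hg, rfl⟩)
  · exact (h2 x).imp fun g hg => .inl (.inr ⟨_, hg, rfl⟩)
  · exact (h3 x).imp fun g hg => .inr ⟨_, hg, rfl⟩

theorem cov_disc {D : Type} [MulAction G D] (h : ∀ (g : G) (x : D), g • x = x → g = 1) :
    (disc G D).Cov := by
  rintro g x _ rfl h2
  exact h g x h2.symm

theorem cov_ind (α : Type) : (disc G (Ind G α)).Cov := by
  exact cov_disc fun g x h => mul_eq_right.1 (congrArg Ind.g h)

theorem cofin_ind (α : Type) [Finite α] : (disc G (Ind G α)).Cofin := by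
  exact ⟨Set.range fun a => Ind.mk 1 a, Set.finite_range _,
    fun x => ⟨x.g⁻¹, x.a, Ind.ext (inv_mul_cancel x.g).symm rfl⟩⟩

theorem Gr.cov (Γ : Gr G) (hV : (disc G Γ.V).Cov) (hE : (disc G Γ.E).Cov) : Γ.flag.Cov := by
  refine cov_dmc hV (cov_disc ?_) hE
  rintro g (e | e) h
  · exact hE g e e rfl (Sum.inl_injective h).symm
  · exact hE g e e rfl (Sum.inr_injective h).symm

theorem Gr.cofin (Γ : Gr G) (hV : (disc G Γ.V).Cofin) (hE : (disc G Γ.E).Cofin) :
    Γ.flag.Cofin := by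
  refine cofin_dmc hV ?_ hE
  obtain ⟨s, f, h⟩ := hE
  refine ⟨Sum.inl '' s ∪ Sum.inr '' s, (f.image _).union (f.image _), ?_⟩
  rintro (e | e)
  · exact (h e).imp fun g hg => .inl ⟨_, hg, rfl⟩
  · exact (h e).imp fun g hg => .inr ⟨_, hg, rfl⟩

theorem Flag.Hom.reach (φ : K.Hom L) {x y : K.V} (h : Relation.ReflTransGen K.R x y) :
    Relation.ReflTransGen L.R (φ.f x) (φ.f y) := by
  induction h with
  | refl => exact .refl
  | tail _ e ih => exact ih.tail (φ.rel e)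

theorem Flag.reach_symm {x y : K.V} (h : Relation.ReflTransGen K.R x y) :
    Relation.ReflTransGen K.R y x := by
  induction h with
  | refl => exact .refl
  | tail _ e ih => exact .head (K.symm e) ih

/-- Every vertex of the cylinder can be joined to the left end. -/
theorem reach_left (hs : Function.Surjective c.f) (x : (dmc a c).V) :
    (∃ y, x = .l y) ∨ ∃ y, Relation.ReflTransGen (dmc a c).R x (.l (a.f y)) ∧
      (x = .m y ∨ x = .r (c.f y)) := by
  rcases x with x | x | x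
  · exact .inl ⟨x, rfl⟩
  · exact .inr ⟨x, .single (L.refl _), .inl rfl⟩
  · obtain ⟨y, rfl⟩ := hs x
    exact .inr ⟨y, .head (b := DV.m y) (R.refl _) (.single (L.refl _)), .inr rfl⟩

theorem conn_dmc (hL : L.Conn) (hs : Function.Surjective c.f) : (dmc a c).Conn := by
  have key : ∀ x : (dmc a c).V, ∃ y, Relation.ReflTransGen (dmc a c).R x (.l y) := fun x => by
    rcases reach_left hs x with ⟨y, rfl⟩ | ⟨y, h, -⟩
    exacts [⟨y, .refl⟩, ⟨_, h⟩]
  refine ⟨hL.1.map DV.l, fun x y => ?_⟩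
  obtain ⟨x', hx⟩ := key x
  obtain ⟨y', hy⟩ := key y
  exact (hx.trans ((inL a c).reach (hL.2 x' y'))).trans (Flag.reach_symm hy)

/-- The fibres of a map out of a cylinder are connected if they are on the left end. -/
theorem fibConn_desc (fL : L.Hom K) (fR : R.Hom K) (h : ∀ x, fL.f (a.f x) = fR.f (c.f x))
    (hL : fL.FibConn) (hs : Function.Surjective c.f) : (dmcDesc fL fR h).FibConn := by
  have key : ∀ x : (dmc a c).V, ∃ y, Relation.ReflTransGen (dmc a c).R x (.l y) ∧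
      (dmcDesc fL fR h).f x = fL.f y := fun x => by
    rcases reach_left hs x with ⟨y, rfl⟩ | ⟨y, h', rfl | rfl⟩
    exacts [⟨y, .refl, rfl⟩, ⟨_, h', rfl⟩, ⟨_, h', (h y).symm⟩]
  intro x y e
  obtain ⟨x', hx, ex⟩ := key x
  obtain ⟨y', hy, ey⟩ := key y
  exact (hx.trans ((inL a c).reach (hL x' y' (ex.symm.trans (e.trans ey))))).trans
    (Flag.reach_symm hy)

theorem Gr.reach_edge (Γ : Gr G) (e : Γ.E) :
    Relation.ReflTransGen Γ.flag.R (.l (Γ.s e)) (.l (Γ.t e)) := by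
  exact .head (b := DV.m (Sum.inl e)) rfl (.head (b := DV.r e) rfl
    (.head (b := DV.m (Sum.inr e)) rfl (.single rfl)))

theorem Gr.fold_surj (Γ : Gr G) : Function.Surjective Γ.fold.f := by
  exact fun e => ⟨.inl e, rfl⟩

end Structure

end Vale.Agent.P246
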