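import Vale.Agent.P246.Chain

/-! The prism operator and homotopy invariance. -/

namespace Vale.Agent.P246

/-- The inclusion of the simplex at height `s` of the prism. -/
def pin {n : ℕ} (s : unitInterval) : C(Sx n, Sx n × unitInterval) :=
  ⟨fun t => (t, s), by fun_prop⟩

/-- The side faces of the prism. -/
noncomputable def pface {n : ℕ} (i : Fin (n + 2)) :
    C(Sx n × unitInterval, Sx (n + 1) × unitInterval) :=
  (sxmap i.succAbove).prodMap (ContinuousMap.id _)

section Aux

variable {A B : Type*} {n m : ℕ}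

/-- Tuples at a fixed height. -/
noncomputable abbrev prismAux_i (s : Fin 2) : Ch (Tup n A) →ₗ[ℤ] Ch (Tup n (A × Fin 2)) :=
  push (tmap fun a => (a, s))

/-- The prism operator on tuples. -/
noncomputable def prismAux_T : ∀ n, Ch (Tup n A) →ₗ[ℤ] Ch (Tup (n + 1) (A × Fin 2))
  | 0 => lin fun x => cone (x 0, 0) (prismAux_i 1 (sg x) - prismAux_i 0 (sg x))
  | n + 1 => lin fun x => cone (x 0, 0)
      (prismAux_i 1 (sg x) - prismAux_i 0 (sg x) - prismAux_T n (tbd (sg x)))

theorem prismAux_bd0 (c : Ch (Tup 0 A)) :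
    tbd (prismAux_T 0 c) = prismAux_i 1 c - prismAux_i 0 c :=
  LinearMap.congr_fun (ch_ext (φ := tbd ∘ₗ prismAux_T 0) (ψ := prismAux_i 1 - prismAux_i 0)
    fun x => by
    rw [LinearMap.comp_apply, prismAux_T, lin_sg, tbd_cone_zero, map_sub, LinearMap.sub_apply]
    simp only [push_sg, aug, lin_sg, sub_self, zero_smul, sub_zero]) c

theorem prismAux_bd : ∀ (n : ℕ) (c : Ch (Tup (n + 1) A)), tbd (prismAux_T (n + 1) c) =
    prismAux_i 1 c - prismAux_i 0 c - prismAux_T n (tbd c) := by
  have key : ∀ n : ℕ, (∀ c : Ch (Tup (n + 1) A), tbd (prismAux_T n (tbd c)) =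
      prismAux_i 1 (tbd c) - prismAux_i 0 (tbd c)) → ∀ c : Ch (Tup (n + 1) A),
      tbd (prismAux_T (n + 1) c) = prismAux_i 1 c - prismAux_i 0 c - prismAux_T n (tbd c) :=
    fun n h c => LinearMap.congr_fun (ch_ext (φ := tbd ∘ₗ prismAux_T (n + 1))
      (ψ := prismAux_i 1 - prismAux_i 0 - prismAux_T n ∘ₗ tbd) fun x => by
      rw [LinearMap.comp_apply, prismAux_T, lin_sg, tbd_cone, map_sub tbd, map_sub tbd, h,
        ← push_tbd, ← push_tbd, sub_self, map_zero, sub_zero]
      rfl) c
  intro n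
  induction n with
  | zero => exact key 0 fun c => prismAux_bd0 _
  | succ n ih => exact key _ fun c => by rw [ih, tbd_tbd, map_zero, sub_zero]

theorem prismAux_nat (u : A → B) : ∀ (n : ℕ) (c : Ch (Tup n A)),
    push (tmap (Prod.map u id)) (prismAux_T n c) = prismAux_T n (push (tmap u) c) := by
  intro n
  induction n with
  | zero =>
    refine LinearMap.congr_fun (ch_ext (φ := push (tmap (Prod.map u id)) ∘ₗ prismAux_T 0)
      (ψ := prismAux_T 0 ∘ₗ push (tmap u)) fun x => ?_)
    simp only [LinearMap.comp_apply, prismAux_T, lin_sg, push_sg, map_sub, tmap_tcons]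
    rfl
  | succ n ih =>
    refine LinearMap.congr_fun (ch_ext (φ := push (tmap (Prod.map u id)) ∘ₗ prismAux_T (n + 1))
      (ψ := prismAux_T (n + 1) ∘ₗ push (tmap u)) fun x => ?_)
    simp only [LinearMap.comp_apply, prismAux_T, lin_sg, push_sg, push_cone, map_sub, ih, push_tbd,
      tmap_tcons]
    rfl

/-- The affine simplex of the prism with given vertices. -/
noncomputable def prismAux_aff (x : Tup n (Fin (m + 1) × Fin 2)) :
    C(Sx n, Sx m × unitInterval) :=
  (sxmap (tmap Prod.fst x)).prodMk ((pth (ContinuousMap.id _)).comp (sxmap (tmap Prod.snd x)))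

theorem prismAux_face (i : Fin (n + 2)) (x : Tup (n + 1) (Fin (m + 1) × Fin 2)) :
    prismAux_aff (tface i x) = face i (prismAux_aff x) :=
  ContinuousMap.ext fun t => Prod.ext
    (DFunLike.congr_fun (face_sxmap (ContinuousMap.id _) i (tmap Prod.fst x)) t)
    (DFunLike.congr_fun (face_sxmap (pth (ContinuousMap.id _)) i (tmap Prod.snd x)) t)

theorem prismAux_const (s : Fin 2) (t : Sx n) :
    stdSimplex.map (fun _ => s) t = stdSimplex.vertex s := by
  rw [show (fun _ : Fin (n + 1) => s) = (fun _ => s) ∘ fun _ => (0 : Fin 1) from rfl,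
    ← stdSimplex.map_comp_apply, Subsingleton.elim (stdSimplex.map _ t) (stdSimplex.vertex 0),
    stdSimplex.map_vertex]

theorem prismAux_pin0 : prismAux_aff (tmap (fun a => (a, 0)) id) = pin (n := n) 0 :=
  ContinuousMap.ext fun t => Prod.ext (stdSimplex.map_id_apply t)
    (congrArg stdSimplexHomeomorphUnitInterval (prismAux_const 0 t))

theorem prismAux_pin1 : prismAux_aff (tmap (fun a => (a, 1)) id) = pin (n := n) 1 :=
  ContinuousMap.ext fun t => Prod.ext (stdSimplex.map_id_apply t)
    (congrArg stdSimplexHomeomorphUnitInterval (prismAux_const 1 t))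

theorem prismAux_pface (i : Fin (m + 2)) (x : Tup n (Fin (m + 1) × Fin 2)) :
    prismAux_aff (tmap (Prod.map i.succAbove id) x) = (pface i).comp (prismAux_aff x) :=
  ContinuousMap.ext fun t => Prod.ext (stdSimplex.map_comp_apply _ i.succAbove t).symm rfl

theorem prismAux_sbd (c : Ch (Tup (n + 1) (Fin (m + 1) × Fin 2))) :
    sbd (push prismAux_aff c) = push prismAux_aff (tbd c) :=
  (push_bdf (d := tface) (d' := face) prismAux_face c).symm

end Aux

theorem exists_prism : ∃ P : ∀ n, Ch C(Sx (n + 1), Sx n × unitInterval),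
    sbd (P 0) = sg (pin 1) - sg (pin 0) ∧
    ∀ n, sbd (P (n + 1)) = sg (pin 1) - sg (pin 0) -
      ∑ i : Fin (n + 2), (-1 : ℤ) ^ (i : ℕ) • push (pface i).comp (P n) := by
  refine ⟨fun n => push prismAux_aff (prismAux_T n (sg id)), ?_, fun n => ?_⟩
  · rw [prismAux_sbd, prismAux_bd0]
    simp only [map_sub, push_sg, prismAux_pin0, prismAux_pin1]
  · rw [prismAux_sbd, prismAux_bd, bdf_sg]
    simp only [map_sub, push_sg, prismAux_pin0, prismAux_pin1, map_sum, map_zsmul, push_push,
      ← prismAux_pface]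
    congr 1
    refine Finset.sum_congr rfl fun i _ => ?_
    rw [← push_push prismAux_aff (tmap (Prod.map i.succAbove id)), prismAux_nat, push_sg]
    rfl

theorem svan_of_dom {G Z Z' M : Type*} [Group G] [TopologicalSpace Z] [MulAction G Z]
    [ContinuousConstSMul G Z] [TopologicalSpace Z'] [MulAction G Z'] [ContinuousConstSMul G Z']
    [AddCommGroup M] [DistribMulAction G M] (u : C(Z', Z)) (v : C(Z, Z'))
    (hu : ∀ (g : G) z, u (g • z) = g • u z) (hv : ∀ (g : G) z, v (g • z) = g • v z)
    (H : C(unitInterval × Z', Z')) (hH : ∀ (g : G) s z, H (s, g • z) = g • H (s, z))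
    (h0 : ∀ z, H (0, z) = z) (h1 : ∀ z, H (1, z) = v (u z)) {k : ℕ} (h : SVan G Z M k) :
    SVan G Z' M k := by
  obtain ⟨P, -, hP⟩ := exists_prism
  intro f hf hf0
  let Hs : ∀ {n : ℕ}, C(Sx n, Z') → C(Sx n × unitInterval, Z') := fun s =>
    H.comp (ContinuousMap.snd.prodMk (s.comp ContinuousMap.fst))
  obtain ⟨b, hb, hb0⟩ := h (fun s => f (v.comp s))
    (fun g s => by
      rw [← hf g]
      exact congrArg f (ContinuousMap.ext fun t => hv g _))
    (funext fun s => congrFun hf0 (v.comp s))
  refine ⟨fun s => b (u.comp s) - lin f (push (Hs s).comp (P k)), fun g s => ?_,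
    funext fun s => ?_⟩
  · have e1 : u.comp (g • s) = g • u.comp s := ContinuousMap.ext fun t => hu g _
    have e2 : ∀ x : C(Sx (k + 1), Sx k × unitInterval), (Hs (g • s)).comp x = g • (Hs s).comp x :=
      fun x => ContinuousMap.ext fun t => hH g _ _
    simp only [smul_sub, e1, hb g, lin_push, smul_lin, e2, hf g]
  · have e0 : lin f (sbd (push (Hs s).comp (P (k + 1)))) = 0 := by
      rw [lin_sbd, hf0]
      simp
    have e1 : (Hs s).comp (pin 1) = v.comp (u.comp s) := ContinuousMap.ext fun t => h1 _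
    have e2 : (Hs s).comp (pin 0) = s := ContinuousMap.ext fun t => h0 _
    have e3 : cobd b (u.comp s) = f (v.comp (u.comp s)) := congrFun hb0 _
    rw [← push_sbd, hP] at e0
    simp only [map_sub, push_sg, lin_sg, map_sum, map_zsmul, push_push, e1, e2] at e0
    rw [sub_eq_zero, sub_eq_iff_eq_add', ← sub_eq_iff_eq_add, ← e3] at e0
    rw [← e0]
    simp only [cobd, smul_sub, Finset.sum_sub_distrib]
    rfl

end Vale.Agent.P246
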