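import Vale.Agent.P246.Real
import Vale.Agent.P246.Small
import Vale.Agent.P246.Prism

/-! From simplicial to singular cohomology. -/

namespace Vale.Agent.P246

open Flag.Real

section Aux

variable {G : Type} [Group G] {K : Flag G}

theorem domAux_cof_congr {X X' M : Type*} [AddCommGroup M] {n : ℕ} (d : Fin n → X' → X)
    {f g : X → M} {x : X'} (h : ∀ i, f (d i x) = g (d i x)) : cof d f x = cof d g x :=
  Finset.sum_congr rfl fun i _ => by rw [h i]

theorem domAux_cof_mem {X X' M : Type*} [AddCommGroup M] {n : ℕ} (d : Fin n → X' → X)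
    {f : X → M} {x : X'} (P : Submodule ℤ M) (h : ∀ i, f (d i x) ∈ P) : cof d f x ∈ P :=
  Submodule.sum_mem _ fun i _ => Submodule.smul_mem _ _ (h i)

theorem domAux_sign (n : ℕ) : ∑ i : Fin (n + 1), (-1 : ℤ) ^ (i : ℕ) +
    ∑ i : Fin n, (-1 : ℤ) ^ (i : ℕ) = 1 := by
  rw [Fin.sum_univ_succ, add_assoc, ← Finset.sum_add_distrib]
  simp [pow_succ]

/-- The vertices in whose open star the simplex lies. -/
def domAux_N {n : ℕ} (s : C(Sx n, K.Real)) : Set K.V := {q | ∀ t, (s t).1 q ≠ 0}

/-- The common neighbours of these vertices. -/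
def domAux_L {n : ℕ} (s : C(Sx n, K.Real)) : Set K.V := {q | ∀ r ∈ domAux_N s, K.R r q}

/-- Simplices carried by a set of vertices. -/
def domAux_car (n : ℕ) (L : Set K.V) : Set C(Sx n, K.Real) := {t | ∀ a r, (t a).1 r ≠ 0 → r ∈ L}

theorem domAux_N_face {n : ℕ} (s : C(Sx (n + 1), K.Real)) (i : Fin (n + 2)) :
    domAux_N s ⊆ domAux_N (face i s) := fun _ h _ => h _

theorem domAux_L_face {n : ℕ} (s : C(Sx (n + 1), K.Real)) (i : Fin (n + 2)) :
    domAux_L (face i s) ⊆ domAux_L s := fun _ h r hr => h r (domAux_N_face s i hr)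

theorem domAux_self {n : ℕ} (s : C(Sx n, K.Real)) : s ∈ domAux_car n (domAux_L s) :=
  fun a r h q hq => (s a).2.2.2.2 q r (hq a) h

theorem domAux_NL {n : ℕ} (s : C(Sx n, K.Real)) : domAux_N s ⊆ domAux_L s :=
  fun q h => domAux_self s (stdSimplex.vertex 0) q (h _)

theorem domAux_N_smul {n : ℕ} (s : C(Sx n, K.Real)) (g : G) (q : K.V) :
    q ∈ domAux_N (g • s) ↔ g⁻¹ • q ∈ domAux_N s := Iff.rfl

theorem domAux_ne_smul {n : ℕ} (s : C(Sx n, K.Real)) (g : G) :
    (domAux_N (g • s)).Nonempty ↔ (domAux_N s).Nonempty :=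
  ⟨fun ⟨_, h⟩ => ⟨_, (domAux_N_smul s g _).1 h⟩,
    fun ⟨q, h⟩ => ⟨g • q, (domAux_N_smul s g _).2 (by rwa [inv_smul_smul])⟩⟩

/-- An equivariant choice of apexes. -/
def domAux_Ap (ap : ∀ n, C(Sx n, K.Real) → K.V) : Prop :=
  ∀ n s, (domAux_N s).Nonempty → ap n s ∈ domAux_N s ∧ ∀ g : G, ap n (g • s) = g • ap n s

theorem domAux_apex (hK : K.Cov) : ∃ ap : ∀ n, C(Sx n, K.Real) → K.V, domAux_Ap ap := by
  classical
  obtain ⟨wo, hwo⟩ := exists_wellFoundedLT (MulAction.orbitRel.Quotient G K.V)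
  let f : K.V → MulAction.orbitRel.Quotient G K.V := Quotient.mk _
  have hf : ∀ (g : G) a, f (g • a) = f a := fun g a => Quotient.sound ⟨g, rfl⟩
  refine ⟨fun n s => if h : (domAux_N s).Nonempty then Function.argminOn f _ h
    else (exists_ne_zero (s (stdSimplex.vertex 0))).choose, fun n s h => ?_⟩
  beta_reduce
  refine ⟨by rw [dif_pos h]; exact Function.argminOn_mem f _ h, fun g => ?_⟩
  have h' := (domAux_ne_smul s g).2 h
  rw [dif_pos h, dif_pos h']
  have m1 := Function.argminOn_mem f _ h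
  have m2 := Function.argminOn_mem f _ h'
  have l1 := Function.argminOn_le f _ ((domAux_N_smul s g _).1 m2)
  have l2 := Function.argminOn_le f (domAux_N (g • s)) (a := g • Function.argminOn f _ h)
    ((domAux_N_smul s g _).2 (by rwa [inv_smul_smul]))
  rw [hf] at l2
  obtain ⟨k, hk⟩ : ∃ k : G, k • Function.argminOn f _ h = g⁻¹ • Function.argminOn f _ h' :=
    Quotient.exact (le_antisymm ((hf _ _).le.trans l2) l1)
  have := hK k _ _ (K.refl _) (hk ▸ domAux_NL s ((domAux_N_smul s g _).1 m2) _ m1)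
  rw [this, one_smul] at hk
  rw [hk, smul_inv_smul]

/-- The simplicial approximation. -/
noncomputable def domAux_A (ap : ∀ n, C(Sx n, K.Real) → K.V) :
    ∀ n, C(Sx n, K.Real) → Ch (Tup n K.V)
  | 0, s => sg fun _ => ap 0 s
  | n + 1, s => cone (ap (n + 1) s) (cobd (domAux_A ap n) s)

variable {ap : ∀ n, C(Sx n, K.Real) → K.V}

theorem domAux_A_bd : ∀ (n : ℕ) (s : C(Sx (n + 1), K.Real)),
    tbd (domAux_A ap (n + 1) s) = cobd (domAux_A ap n) s
  | 0, s => by
    have h : aug (cobd (domAux_A ap 0) s) = 0 := by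
      rw [cobd_eq, map_cof, cof_two]
      simp [domAux_A, aug]
    rw [domAux_A, tbd_cone_zero, h, zero_smul, sub_zero]
  | n + 1, s => by
    have h : tbd (cobd (domAux_A ap (n + 1)) s) = 0 := by
      rw [cobd_eq, map_cof, funext (domAux_A_bd n), ← cobd_eq, cobd_cobd]
      rfl
    rw [domAux_A, tbd_cone, h, map_zero, sub_zero]

theorem domAux_A_mem (hap : domAux_Ap ap) : ∀ (n : ℕ) (s : C(Sx n, K.Real)),
    (domAux_N s).Nonempty → domAux_A ap n s ∈ supp {x | K.Clq x ∧ ∀ i, x i ∈ domAux_L s}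
  | 0, s, h => sg_mem_supp ⟨fun _ _ => K.refl _, fun _ => domAux_NL s (hap 0 s h).1⟩
  | n + 1, s, h => by
    have h1 : cobd (domAux_A ap n) s ∈ supp {x | K.Clq x ∧ ∀ i, x i ∈ domAux_L s} :=
      domAux_cof_mem face _ fun i => Finsupp.supported_mono
        (fun x hx => And.intro hx.1 fun j => domAux_L_face s i (hx.2 j))
        (domAux_A_mem hap n _ (h.mono (domAux_N_face s i)))
    have h2 := (hap _ s h).1
    rw [domAux_A]
    refine push_mem_supp (fun x hx => ?_) h1
    refine ⟨fun i j => ?_, fun i => ?_⟩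
    · refine Fin.cases ?_ (fun i => ?_) i <;> refine Fin.cases ?_ (fun j => ?_) j
      · exact K.refl _
      · exact hx.2 j _ h2
      · exact K.symm (hx.2 i _ h2)
      · exact hx.1 i j
    · refine Fin.cases ?_ (fun i => ?_) i
      · exact domAux_NL s h2
      · exact hx.2 i

theorem domAux_A_smul (hap : domAux_Ap ap) (g : G) : ∀ (n : ℕ) (s : C(Sx n, K.Real)),
    (domAux_N s).Nonempty → domAux_A ap n (g • s) = push (tmap (g • ·)) (domAux_A ap n s)
  | 0, s, h => by
    rw [domAux_A, domAux_A, push_sg, (hap 0 s h).2]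
    rfl
  | n + 1, s, h => by
    have e : cobd (domAux_A ap n) (g • s) = push (tmap (g • ·)) (cobd (domAux_A ap n) s) := by
      rw [cobd_eq, map_cof]
      refine Finset.sum_congr rfl fun i _ => ?_
      rw [face_smul, domAux_A_smul hap g n _ (h.mono (domAux_N_face s i))]
    rw [domAux_A, domAux_A, push_cone, (hap _ s h).2, e]

open Classical in
/-- The affine simplex of a clique as a chain. -/
noncomputable def domAux_B {n : ℕ} (x : Tup n K.V) : Ch C(Sx n, K.Real) :=
  if h : K.Clq x then sg (aff x h) else 0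

theorem domAux_face_aff {n : ℕ} (x : Tup (n + 1) K.V) (h : K.Clq x) (i : Fin (n + 2)) :
    face i (aff x h) = aff (tface i x) (h.face i) := by
  classical
  ext1 t
  refine Flag.Real.ext fun q => ?_
  change (aff x h (stdSimplex.map i.succAbove t)).1 q = _
  rw [aff_val, aff_val]
  simp only [stdSimplex.map_coe, FunOnFinite.linearMap_apply_apply]
  rw [Finset.sum_fiberwise_eq_sum_filter]
  refine Finset.sum_congr ?_ fun _ _ => rfl
  ext j
  simp only [Finset.mem_filter, Finset.mem_univ, true_and]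
  exact Iff.rfl

theorem domAux_B_bd {n : ℕ} (x : Tup (n + 1) K.V) (h : K.Clq x) :
    sbd (domAux_B x) = tco domAux_B x := by
  rw [domAux_B, dif_pos h, bdf_sg]
  refine Finset.sum_congr rfl fun i _ => ?_
  rw [domAux_B, dif_pos (h.face i), domAux_face_aff]

theorem domAux_B_smul {n : ℕ} (g : G) (x : Tup n K.V) :
    domAux_B (g • x) = push (g • ·) (domAux_B x) := by
  classical
  unfold domAux_B
  by_cases h : K.Clq x
  · rw [dif_pos h, dif_pos (h.smul g), push_sg]
    congr 1
    ext1 t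
    refine Flag.Real.ext fun q => ?_
    change _ = (aff x h t).1 (g⁻¹ • q)
    rw [aff_val, aff_val]
    refine Finset.sum_congr ?_ fun _ _ => rfl
    ext j
    simp [eq_inv_smul_iff]
  · rw [dif_neg h, dif_neg fun h' => h (by simpa using h'.smul g⁻¹), map_zero]

theorem domAux_B_mem {n : ℕ} {L : Set K.V} (x : Tup n K.V) (h : ∀ i, x i ∈ L) :
    domAux_B x ∈ supp (domAux_car n L) := by
  unfold domAux_B
  split_ifs with hx
  · refine sg_mem_supp fun a r hr => ?_
    obtain ⟨i, rfl⟩ := mem_range_of_aff hr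
    exact h i
  · exact Submodule.zero_mem _

/-- The straight homotopy to a vertex. -/
noncomputable def domAux_H (q : K.V) {n : ℕ} (t : C(Sx n, K.Real)) (h : ∀ a, t a ∈ cstar q) :
    C(Sx n × unitInterval, K.Real) :=
  ⟨fun p => toward q (t p.1) (h _) p.2,
    continuous_toward q (t.continuous.comp continuous_fst) (fun _ => h _) continuous_snd⟩

open Classical in
/-- The singular cone operator. -/
noncomputable def domAux_K (P : ∀ n, Ch C(Sx (n + 1), Sx n × unitInterval)) (q : K.V) (n : ℕ)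
    (t : C(Sx n, K.Real)) : Ch C(Sx (n + 1), K.Real) :=
  if h : ∀ a, t a ∈ cstar q then
    sg (ContinuousMap.const _ (vtx q)) - push (domAux_H q t h).comp (P n) else 0

theorem domAux_H0 (q : K.V) {n : ℕ} (t : C(Sx n, K.Real)) (h : ∀ a, t a ∈ cstar q) :
    (domAux_H q t h).comp (pin 0) = t := ContinuousMap.ext fun a => toward_zero q _ (h a)

theorem domAux_H1 (q : K.V) {n : ℕ} (t : C(Sx n, K.Real)) (h : ∀ a, t a ∈ cstar q) :
    (domAux_H q t h).comp (pin 1) = ContinuousMap.const _ (vtx q) :=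
  ContinuousMap.ext fun a => toward_one q _ (h a)

theorem domAux_sbd_const {Z : Type*} [TopologicalSpace Z] (n : ℕ) (z : Z) :
    sbd (sg (ContinuousMap.const (Sx (n + 1)) z)) =
      (∑ i : Fin (n + 2), (-1 : ℤ) ^ (i : ℕ)) • sg (ContinuousMap.const (Sx n) z) := by
  rw [bdf_sg, Finset.sum_smul]
  rfl

variable {P : ∀ n, Ch C(Sx (n + 1), Sx n × unitInterval)}

theorem domAux_K0 (hP : sbd (P 0) = sg (pin 1) - sg (pin 0)) (q : K.V) (t : C(Sx 0, K.Real))
    (h : ∀ a, t a ∈ cstar q) :
    sbd (domAux_K P q 0 t) = sg t - sg (ContinuousMap.const _ (vtx q)) := by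
  rw [domAux_K, dif_pos h, map_sub, ← push_sbd, hP, map_sub, push_sg, push_sg, domAux_H0,
    domAux_H1, domAux_sbd_const]
  simp [Fin.sum_univ_two]

theorem domAux_K1 {n : ℕ} (hP : sbd (P (n + 1)) = sg (pin 1) - sg (pin 0) -
      ∑ i : Fin (n + 2), (-1 : ℤ) ^ (i : ℕ) • push (pface i).comp (P n)) (q : K.V)
    (t : C(Sx (n + 1), K.Real)) (h : ∀ a, t a ∈ cstar q) :
    sbd (domAux_K P q (n + 1) t) = sg t - cobd (domAux_K P q n) t := by
  have e : ∀ i : Fin (n + 2), domAux_K P q n (face i t) = sg (ContinuousMap.const _ (vtx q)) -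
      push (domAux_H q t h).comp (push (pface i).comp (P n)) := fun i => by
    rw [domAux_K, dif_pos (show ∀ a, face i t a ∈ cstar q from fun a => h _), push_push]
    rfl
  have e2 := domAux_sign (n + 2)
  rw [domAux_K, dif_pos h, map_sub, ← push_sbd, hP, map_sub, map_sub, push_sg, push_sg,
    domAux_H0, domAux_H1, domAux_sbd_const, cobd, map_sum, eq_sub_of_add_eq e2]
  simp only [e, smul_sub, Finset.sum_sub_distrib, map_zsmul, ← Finset.sum_smul, sub_smul,
    one_smul]
  abel

theorem domAux_K_mem {n : ℕ} {L : Set K.V} {q : K.V} (hq : q ∈ L) {t : C(Sx n, K.Real)}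
    (ht : t ∈ domAux_car n L) : domAux_K P q n t ∈ supp (domAux_car (n + 1) L) := by
  unfold domAux_K
  by_cases h : ∀ a, t a ∈ cstar q
  · rw [dif_pos h]
    refine Submodule.sub_mem _ (sg_mem_supp fun a r hr => ?_)
      (push_mem_supp (s := Set.univ) (fun u _ a r hr => ?_) (by simp))
    · obtain rfl : r = q := by_contra fun e => hr (vtx_of_ne e)
      exact hq
    · rcases toward_ne_zero (h := h _) hr with h1 | rfl
      · exact ht _ _ h1
      · exact hq
  · rw [dif_neg h]
    exact Submodule.zero_mem _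

theorem domAux_K_smul {n : ℕ} (g : G) {q : K.V} {t : C(Sx n, K.Real)}
    (h : ∀ a, t a ∈ cstar q) : domAux_K P (g • q) n (g • t) = push (g • ·) (domAux_K P q n t) := by
  have h' : ∀ a, (g • t) a ∈ cstar (g • q) := fun a r hr => by
    simpa using K.smul g (h a _ hr)
  rw [domAux_K, domAux_K, dif_pos h, dif_pos h', map_sub, push_sg, push_push, ← smul_vtx]
  have e : (domAux_H (g • q) (g • t) h').comp = fun u : C(Sx (n + 1), Sx n × unitInterval) =>
      g • (domAux_H q t h).comp u := by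
    funext u
    exact ContinuousMap.ext fun a => (smul_toward g q _ (h _) (h' _) _).symm
  rw [e]
  rfl

variable (P ap) in
/-- The cycles to be filled. -/
noncomputable def domAux_Z : ∀ n, C(Sx n, K.Real) → Ch C(Sx n, K.Real)
  | 0, s => sg s - lin domAux_B (domAux_A ap 0 s)
  | n + 1, s => sg s - lin domAux_B (domAux_A ap (n + 1) s) -
      cobd (fun t => lin (domAux_K P (ap n t) n) (domAux_Z n t)) s

theorem domAux_BA_mem (hap : domAux_Ap ap) (n : ℕ) (s : C(Sx n, K.Real))
    (h : (domAux_N s).Nonempty) :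
    sg s - lin domAux_B (domAux_A ap n s) ∈ supp (domAux_car n (domAux_L s)) :=
  Submodule.sub_mem _ (sg_mem_supp (domAux_self s)) (map_mem_of_supp _ _ (fun x hx => by
    rw [lin_sg]
    exact domAux_B_mem x hx.2) (domAux_A_mem hap n s h))

theorem domAux_Z_mem (hap : domAux_Ap ap) : ∀ (n : ℕ) (s : C(Sx n, K.Real)),
    (domAux_N s).Nonempty → domAux_Z ap P n s ∈ supp (domAux_car n (domAux_L s))
  | 0, s, h => domAux_BA_mem hap 0 s h
  | n + 1, s, h => by
    rw [domAux_Z, cobd_eq]
    refine Submodule.sub_mem _ (domAux_BA_mem hap _ s h) (domAux_cof_mem face _ fun i => ?_)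
    have h1 := h.mono (domAux_N_face s i)
    refine map_mem_of_supp _ _ (fun t ht => ?_) (domAux_Z_mem hap n _ h1)
    rw [lin_sg]
    exact domAux_K_mem (domAux_L_face s i (domAux_NL _ (hap _ _ h1).1))
      fun a r hr => domAux_L_face s i (ht a r hr)

theorem domAux_car_cstar (hap : domAux_Ap ap) {n m : ℕ} {s : C(Sx n, K.Real)}
    (h : (domAux_N s).Nonempty) {t : C(Sx m, K.Real)} (ht : t ∈ domAux_car m (domAux_L s))
    (a : Sx m) : t a ∈ cstar (ap n s) := fun r hr => ht a r hr _ (hap n s h).1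

theorem domAux_BA_bd (hap : domAux_Ap ap) (n : ℕ) (s : C(Sx (n + 1), K.Real))
    (h : (domAux_N s).Nonempty) : sbd (sg s - lin domAux_B (domAux_A ap (n + 1) s)) =
      cobd (fun t => sg t - lin domAux_B (domAux_A ap n t)) s := by
  have e : sbd (lin domAux_B (domAux_A ap (n + 1) s)) =
      lin domAux_B (tbd (domAux_A ap (n + 1) s)) := by
    rw [map_lin, lin_tbd]
    exact lin_congr (fun x hx => domAux_B_bd x hx.1) (domAux_A_mem hap _ s h)
  rw [map_sub, e, domAux_A_bd, cobd_eq, map_cof, bdf_sg]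
  exact (congrFun (cof_sub face sg fun t => lin domAux_B (domAux_A ap n t)) s).symm

theorem domAux_Z_bd (hap : domAux_Ap ap) (hP0 : sbd (P 0) = sg (pin 1) - sg (pin 0))
    (hP : ∀ n, sbd (P (n + 1)) = sg (pin 1) - sg (pin 0) -
      ∑ i : Fin (n + 2), (-1 : ℤ) ^ (i : ℕ) • push (pface i).comp (P n)) :
    ∀ (n : ℕ) (s : C(Sx n, K.Real)), (domAux_N s).Nonempty →
      sbd (lin (domAux_K P (ap n s) n) (domAux_Z ap P n s)) = domAux_Z ap P n s
  | 0, s, h => by
    have e := eq_of_supp (φ := sbd ∘ₗ lin (domAux_K P (ap 0 s) 0))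
      (ψ := LinearMap.id - aug.smulRight (sg (ContinuousMap.const _ (vtx (ap 0 s)))))
      (fun t ht => by
        simp only [LinearMap.comp_apply, LinearMap.sub_apply, LinearMap.id_apply, lin_sg,
          LinearMap.smulRight_apply, aug, one_smul]
        exact domAux_K0 hP0 _ t (domAux_car_cstar hap h ht)) (domAux_Z_mem (P := P) hap 0 s h)
    have e2 : aug (domAux_Z ap P 0 s) = 0 := by
      rw [domAux_Z, domAux_A, lin_sg, domAux_B, 
        dif_pos (show K.Clq (fun _ : Fin 1 => ap 0 s) from fun _ _ => K.refl _)]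
      simp [aug]
    simpa only [LinearMap.comp_apply, LinearMap.sub_apply, LinearMap.id_apply,
      LinearMap.smulRight_apply, e2, zero_smul, sub_zero] using e
  | n + 1, s, h => by
    have e := eq_of_supp (φ := sbd ∘ₗ lin (domAux_K P (ap (n + 1) s) (n + 1)))
      (ψ := LinearMap.id - lin (domAux_K P (ap (n + 1) s) n) ∘ₗ sbd)
      (fun t ht => by
        simp only [LinearMap.comp_apply, LinearMap.sub_apply, LinearMap.id_apply, lin_sg,
          lin_sbd]
        exact domAux_K1 (hP n) _ t (domAux_car_cstar hap h ht))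
      (domAux_Z_mem (P := P) hap (n + 1) s h)
    have e2 : sbd (domAux_Z ap P (n + 1) s) = 0 := by
      rw [domAux_Z, map_sub, domAux_BA_bd hap n s h, cobd_eq, cobd_eq, map_cof,
        domAux_cof_congr face (g := domAux_Z ap P n)
          (f := fun t => sbd (lin (domAux_K P (ap n t) n) (domAux_Z ap P n t))) fun i => domAux_Z_bd hap hP0 hP n _ (h.mono (domAux_N_face s i))]
      refine (congrFun (cof_sub face _ _) s).symm.trans ?_
      cases n with
      | zero =>
        refine (domAux_cof_congr face (g := 0) fun i => ?_).trans (congrFun (cof_zero _) s)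
        exact sub_self _
      | succ n =>
        refine (domAux_cof_congr face (g := cobd fun t =>
          lin (domAux_K P (ap n t) n) (domAux_Z ap P n t)) fun i => ?_).trans
            (congrFun (cobd_cobd _) s)
        exact sub_sub_cancel _ _
    simpa only [LinearMap.comp_apply, LinearMap.sub_apply, LinearMap.id_apply, e2, map_zero,
      sub_zero] using e

theorem domAux_BA_smul (hap : domAux_Ap ap) (g : G) (n : ℕ) (s : C(Sx n, K.Real))
    (h : (domAux_N s).Nonempty) : sg (g • s) - lin domAux_B (domAux_A ap n (g • s)) =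
      push (g • ·) (sg s - lin domAux_B (domAux_A ap n s)) := by
  rw [map_sub, push_sg, domAux_A_smul hap g n s h, lin_push, map_lin]
  exact congrArg (fun F => sg (g • s) - lin F (domAux_A ap n s)) (funext (domAux_B_smul g))

theorem domAux_KZ_smul (hap : domAux_Ap ap) (g : G) {n : ℕ} {s : C(Sx n, K.Real)}
    (h : (domAux_N s).Nonempty)
    (e : domAux_Z ap P n (g • s) = push (g • ·) (domAux_Z ap P n s)) :
    lin (domAux_K P (ap n (g • s)) n) (domAux_Z ap P n (g • s)) =
      push (g • ·) (lin (domAux_K P (ap n s) n) (domAux_Z ap P n s)) := by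
  rw [e, (hap n s h).2, lin_push, map_lin]
  exact lin_congr (fun t ht => domAux_K_smul g (domAux_car_cstar hap h ht))
    (domAux_Z_mem hap n s h)

theorem domAux_Z_smul (hap : domAux_Ap ap) (g : G) : ∀ (n : ℕ) (s : C(Sx n, K.Real)),
    (domAux_N s).Nonempty → domAux_Z ap P n (g • s) = push (g • ·) (domAux_Z ap P n s)
  | 0, s, h => domAux_BA_smul hap g 0 s h
  | n + 1, s, h => by
    rw [domAux_Z, domAux_Z, map_sub, domAux_BA_smul hap g _ s h, cobd_eq, map_cof]
    refine congrArg _ (Finset.sum_congr rfl fun i _ => ?_)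
    have h1 := h.mono (domAux_N_face s i)
    beta_reduce
    rw [face_smul, domAux_KZ_smul hap g h1 (domAux_Z_smul hap g n _ h1)]

end Aux

theorem svan_of_van {G : Type} [Group G] (K : Flag G) (hK : K.Cov) (M : Type*) [AddCommGroup M]
    [DistribMulAction G M] (k : ℕ) (h : K.Van M k) : SVan G K.Real M k := by
  classical
  intro f hf hc
  obtain ⟨ap, hap⟩ := domAux_apex hK
  obtain ⟨P, hP0, hP⟩ := exists_prism
  have hfe : ∀ (g : G) (c : Ch C(Sx (k + 1), K.Real)), lin f (push (g • ·) c) = g • lin f c :=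
    fun g c => by
      rw [lin_push, smul_lin]
      exact congrArg (fun F => lin F c) (funext (hf g))
  have hfc : ∀ c, lin f (sbd c) = 0 := fun c => by
    rw [lin_sbd, hc]
    simp
  obtain ⟨b0, hb0, hb1⟩ := h (fun x => lin f (domAux_B x))
    ⟨fun g x => by beta_reduce; rw [domAux_B_smul, hfe], fun x hx => by
      rw [tco, ← map_cof, ← hfc (domAux_B x), domAux_B_bd x hx]⟩
  have hSm : ∀ {n : ℕ} (s : C(Sx n, K.Real)), Sm (Set.range Flag.Real.star) s →
      (domAux_N s).Nonempty := by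
    rintro n s ⟨_, ⟨q, rfl⟩, hq⟩
    exact ⟨q, hq⟩
  refine small_cob (𝒰 := Set.range Flag.Real.star) (b := fun s =>
    if (domAux_N s).Nonempty then
    lin b0 (domAux_A ap k s) + lin f (lin (domAux_K P (ap k s) k) (domAux_Z ap P k s)) else 0)
    ?_ ?_ ?_ hf hc (fun g s => ?_) fun s hs => ?_
  · rintro _ ⟨q, rfl⟩
    exact isOpen_star q
  · intro z
    obtain ⟨q, hq⟩ := exists_ne_zero z
    exact ⟨_, ⟨q, rfl⟩, hq⟩
  · rintro g _ ⟨q, rfl⟩
    exact ⟨_, ⟨g • q, rfl⟩, fun z hz => (smul_val_smul g z q).trans_ne hz⟩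
  · beta_reduce
    by_cases hs : (domAux_N s).Nonempty
    · rw [if_pos hs, if_pos ((domAux_ne_smul s g).2 hs),
        domAux_KZ_smul hap g hs (domAux_Z_smul hap g k s hs), hfe, domAux_A_smul hap g k s hs,
        lin_push, smul_add, smul_lin g b0]
      exact congrArg (fun F => lin F (domAux_A ap k s) + _) (funext (hb0 g))
    · rw [if_neg hs, if_neg fun h' => hs ((domAux_ne_smul s g).1 h'), smul_zero]
  · have h1 := hSm s hs
    have e1 : cof face (fun t => lin b0 (domAux_A ap k t)) s =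
        lin f (lin domAux_B (domAux_A ap (k + 1) s)) := by
      rw [← map_cof, ← cobd_eq, ← domAux_A_bd, lin_tbd, map_lin]
      exact lin_congr (fun x hx => hb1 x hx.1) (domAux_A_mem hap _ s h1)
    have e2 := hfc (lin (domAux_K P (ap (k + 1) s) (k + 1)) (domAux_Z ap P (k + 1) s))
    rw [domAux_Z_bd hap hP0 hP _ s h1, domAux_Z, map_sub, map_sub, lin_sg, cobd_eq, map_cof,
      ← e1, sub_sub, sub_eq_zero] at e2
    rw [e2, cobd_eq]
    refine Eq.trans ?_ (congrFun (cof_add face _ _) s)
    exact domAux_cof_congr face fun i => if_pos (h1.mono (domAux_N_face s i))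

end Vale.Agent.P246
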