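import Vale.Agent.P246.Flag

/-! Cayley graphs, forests of balls, thick circles and the final complex. -/

namespace Vale.Agent.P246

variable {G : Type} [Group G] {S : Type} [DecidableEq S]

/-- The Cayley graph. -/
@[reducible] def cay (μ : S → G) : Gr G where
  V := G
  E := Ind G S
  s e := e.g
  t e := e.g * μ e.a
  s_smul _ _ := rfl
  t_smul g e := mul_assoc g e.g (μ e.a)

/-- The ball of radius `L` in the free group. -/
abbrev Ball (S : Type) [DecidableEq S] (L : ℕ) : Type := {u : FreeGroup S // u.norm ≤ L}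

/-- The edges of the ball. -/
abbrev BallE (S : Type) [DecidableEq S] (L : ℕ) : Type :=
  {p : FreeGroup S × S // p.1.norm ≤ L ∧ (p.1 * FreeGroup.of p.2).norm ≤ L}

/-- The centre of the ball. -/
def Ball.one (L : ℕ) : Ball S L := ⟨1, by simp⟩

/-- A family of balls in the Cayley tree, indexed by `G × κ`. -/
@[reducible] def forest (G : Type) [Group G] (S : Type) [DecidableEq S] (L : ℕ) (κ : Type) :
    Gr G where
  V := Ind G (Ball S L × κ)
  E := Ind G (BallE S L × κ)
  s e := ⟨e.g, ⟨e.a.1.1.1, e.a.1.2.1⟩, e.a.2⟩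
  t e := ⟨e.g, ⟨e.a.1.1.1 * FreeGroup.of e.a.1.1.2, e.a.1.2.2⟩, e.a.2⟩
  s_smul _ _ := rfl
  t_smul _ _ := rfl

theorem norm_mul_le_of {k u : FreeGroup S} {L L' : ℕ} (h : k.norm + L ≤ L') (hu : u.norm ≤ L) :
    (k * u).norm ≤ L' := (FreeGroup.norm_mul_le k u).trans (by omega)

/-- Translation of balls. -/
def forestMap {L L' : ℕ} {κ κ' : Type} (k : κ → FreeGroup S) (σ : κ → G) (km : κ → κ')
    (h : ∀ i, (k i).norm + L ≤ L') : (forest G S L κ).Hom (forest G S L' κ') where
  v x := ⟨x.g * σ x.a.2, ⟨k x.a.2 * x.a.1.1, norm_mul_le_of (h _) x.a.1.2⟩, km x.a.2⟩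
  e x := ⟨x.g * σ x.a.2, ⟨(k x.a.2 * x.a.1.1.1, x.a.1.1.2), norm_mul_le_of (h _) x.a.1.2.1,
    mul_assoc (k x.a.2) _ _ ▸ norm_mul_le_of (h _) x.a.1.2.2⟩, km x.a.2⟩
  v_smul g _ := Ind.ext (mul_assoc g _ _) rfl
  e_smul g _ := Ind.ext (mul_assoc g _ _) rfl
  hs _ := rfl
  ht _ := Ind.ext rfl (Prod.ext (Subtype.ext (mul_assoc _ _ _)) rfl)

/-- The map from the balls to the Cayley graph. -/
def forestCay (μ : S → G) (L : ℕ) (κ : Type) : (forest G S L κ).Hom (cay μ) where
  v x := x.g * FreeGroup.lift μ x.a.1.1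
  e x := ⟨x.g * FreeGroup.lift μ x.a.1.1.1, x.a.1.1.2⟩
  v_smul g _ := mul_assoc g _ _
  e_smul g _ := Ind.ext (mul_assoc g _ _) rfl
  hs _ := rfl
  ht x := by simp [mul_assoc]

/-- The component of a vertex of a forest. -/
def forestComp {κ κ' : Type} (L : ℕ) (π : κ → κ') :
    (forest G S L κ).flag.Hom (disc G (Ind G κ')) :=
  (forest G S L κ).toDisc (fun x => ⟨x.g, π x.a.2⟩) (fun _ _ => rfl) fun _ => rfl

/-- Data for a big ball in which translates of a small ball are glued together. -/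
structure Fat (μ : S → G) : Type 1 where
  κ : Type
  ι : Type
  π : ι → κ
  y : ι → FreeGroup S
  LT : ℕ
  LB : ℕ
  hL : ∀ j, (y j).norm + LB ≤ LT
  hy : ∀ j, FreeGroup.lift μ (y j) = 1

namespace Fat

variable {μ : S → G} (A : Fat μ)

/-- The translates of the small ball in the big ball. -/
def a : (forest G S A.LB A.ι).flag.Hom (forest G S A.LT A.κ).flag :=
  (forestMap A.y (fun _ => 1) A.π A.hL).flag

/-- The fold map of the small balls. -/
def c : (forest G S A.LB A.ι).flag.Hom (forest G S A.LB A.κ).flag :=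
  (forestMap (fun _ => 1) (fun _ => 1) A.π fun _ => by simp).flag

/-- The flag complex. -/
@[reducible] def flag : Flag G := dmc A.a A.c

/-- The map to the Cayley graph. -/
def toCay : A.flag.Hom (cay μ).flag :=
  dmcDesc (forestCay μ A.LT A.κ).flag (forestCay μ A.LB A.κ).flag fun x => by
    rcases x with x | (x | x) | x <;>
      simp [a, c, Gr.Hom.flag, dmcMap, DV.map, discMap, forestCay, forestMap, A.hy]

/-- The component of a vertex. -/
def comp : A.flag.Hom (disc G (Ind G A.κ)) :=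
  dmcDesc (forestComp A.LT id) (forestComp A.LB id) fun x => by
    rcases x with x | (x | x) | x <;> rfl

/-- The base vertex of the `j`-th small ball. -/
def base (j : A.ι) : (forest G S A.LB A.ι).flag.V := .l ⟨1, Ball.one _, j⟩

/-- The periods of a 1-cocycle. -/
def HasPer {M : Type*} [AddCommGroup M] [DistribMulAction G M] (f : Tup 1 A.flag.V → M)
    (m : A.ι → M) : Prop :=
  ∃ (φT : (forest G S A.LT A.κ).flag.V → M) (φB : (forest G S A.LB A.κ).flag.V → M),
    Flag.APot _ ((inL A.a A.c).pull f) φT ∧ Flag.APot _ ((inR A.a A.c).pull f) φB ∧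
    ∀ j, m j = φT (A.a.f (A.base j)) + f ![.l (A.a.f (A.base j)), .m (A.base j)] -
      (φB (A.c.f (A.base j)) + f ![.r (A.c.f (A.base j)), .m (A.base j)])

/-- Maps given by translations. -/
structure Hom (A B : Fat μ) : Type where
  km : A.κ → B.κ
  jm : A.ι → B.ι
  k : A.κ → FreeGroup S
  g : A.κ → FreeGroup S
  hπ : ∀ j, B.π (jm j) = km (A.π j)
  hk : ∀ j, B.y (jm j) * g (A.π j) = k (A.π j) * A.y j
  hbar : ∀ i, FreeGroup.lift μ (k i) = FreeGroup.lift μ (g i)
  hT : ∀ i, (k i).norm + A.LT ≤ B.LT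
  hB : ∀ i, (g i).norm + A.LB ≤ B.LB

/-- The simplicial map. -/
def Hom.flag {A B : Fat μ} (Φ : A.Hom B) : A.flag.Hom B.flag :=
  dmcMap (forestMap Φ.k (fun i => (FreeGroup.lift μ (Φ.g i))⁻¹) Φ.km Φ.hT).flag
    (forestMap (fun j => Φ.g (A.π j)) (fun j => (FreeGroup.lift μ (Φ.g (A.π j)))⁻¹) Φ.jm
      fun _ => Φ.hB _).flag
    (forestMap Φ.g (fun i => (FreeGroup.lift μ (Φ.g i))⁻¹) Φ.km Φ.hB).flag
    (fun x => by
      rcases x with x | (x | x) | x <;>
        simp [a, Gr.Hom.flag, dmcMap, DV.map, discMap, forestMap, Φ.hπ, ← mul_assoc, Φ.hk])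
    (fun x => by
      rcases x with x | (x | x) | x <;>
        simp [c, Gr.Hom.flag, dmcMap, DV.map, discMap, forestMap, Φ.hπ])

theorem Hom.toCay_flag {A B : Fat μ} (Φ : A.Hom B) (x : A.flag.V) :
    B.toCay.f (Φ.flag.f x) = A.toCay.f x := by
  rcases x with x | x | x <;> rcases x with x | (x | x) | x <;>
    simp [toCay, Hom.flag, a, Gr.Hom.flag, dmcMap, dmcDesc, DV.map, discMap, forestMap, forestCay,
      Φ.hbar, A.hy, B.hy, mul_assoc]

theorem Hom.comp_flag {A B : Fat μ} (Φ : A.Hom B) (x : A.flag.V) :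
    B.comp.f (Φ.flag.f x) = ⟨(A.comp.f x).g * (FreeGroup.lift μ (Φ.g (A.comp.f x).a))⁻¹,
      Φ.km (A.comp.f x).a⟩ := by
  rcases x with x | x | x <;> rcases x with x | (x | x) | x <;>
    simp [comp, Hom.flag, a, Gr.Hom.flag, dmcMap, dmcDesc, DV.map, discMap, forestMap, forestComp,
      Gr.toDisc, Gr.ends, Φ.hπ]

end Fat

/-- A spherical diagram over the two relators that crosses the first relator algebraically
once. -/
structure Alg (μ : S → G) (rel : Bool → FreeGroup S) : Type 1 where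
  κ : Type
  ι : Type
  [fκ : Fintype κ]
  [fι : Fintype ι]
  ne : Nonempty ι
  y : ι → FreeGroup S
  hy : ∀ j, FreeGroup.lift μ (y j) = 1
  ty : κ → Bool
  g : κ → FreeGroup S
  j0 : κ → ι
  j1 : κ → ι
  hj : ∀ i, y (j1 i) * g i = y (j0 i) * g i * rel (ty i)
  conn : ∀ (α : Type) (m : ι → α), (∀ i, m (j1 i) = m (j0 i)) → ∀ j j', m j = m j'
  surj : ∀ (M : Type) [AddCommGroup M] [DistribMulAction G M] (p : κ → M),
    ∃ (m₀ : M) (m : ι → M), ∀ i, FreeGroup.lift μ (g i) • p i =
      m (j1 i) - m (j0 i) + if ty i then FreeGroup.lift μ (g i) • m₀ else 0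
  inj : ∀ (M : Type) [AddCommGroup M] [DistribMulAction G M] (m₀ : M) (m : ι → M),
    (∀ i, m (j1 i) - m (j0 i) = if ty i then FreeGroup.lift μ (g i) • m₀ else 0) → m₀ = 0

attribute [instance] Alg.fκ Alg.fι

section Final

variable {μ : S → G} {rel : Bool → FreeGroup S}

/-- A family of circles reading the relators. -/
@[reducible] def circ (hrel : ∀ b, FreeGroup.lift μ (rel b) = 1) {κ : Type} (ty : κ → Bool) :
    Fat μ where
  κ := κ
  ι := κ × Bool
  π := Prod.fst
  y j := cond j.2 (rel (ty j.1)) 1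
  LT := (rel true).norm + (rel false).norm
  LB := 0
  hL := by rintro ⟨i, _ | _⟩ <;> cases ty i <;> simp
  hy := by rintro ⟨i, _ | _⟩ <;> simp [hrel]

/-- The presentation complex. -/
@[reducible] def Q2 (hrel : ∀ b, FreeGroup.lift μ (rel b) = 1) : Flag G :=
  dmc (circ hrel id).toCay (circ hrel id).comp

namespace Alg

variable (D : Alg μ rel) (hrel : ∀ b, FreeGroup.lift μ (rel b) = 1)

/-- The radius of the small balls. -/
def rB : ℕ := Finset.univ.sup fun i => (D.g i).norm

/-- The planar surface. -/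
@[reducible] def surf (rel : Bool → FreeGroup S) (D : Alg μ rel) : Fat μ where
  κ := Unit
  ι := D.ι
  π _ := ()
  y := D.y
  LT := (Finset.univ.sup fun j => (D.y j).norm) + D.rB + ((rel true).norm + (rel false).norm)
  LB := D.rB
  hL j := by
    have := Finset.le_sup (f := fun j => (D.y j).norm) (Finset.mem_univ j)
    omega
  hy := D.hy

/-- The boundary circles of the surface. -/
def toSurf : (circ hrel D.ty).Hom (surf rel D) where
  km _ := ()
  jm j := cond j.2 (D.j1 j.1) (D.j0 j.1)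
  k i := D.y (D.j0 i) * D.g i
  g := D.g
  hπ _ := rfl
  hk := by rintro ⟨i, _ | _⟩ <;> simp [D.hj]
  hbar i := by simp [D.hy]
  hT i := by
    have h1 := Finset.le_sup (f := fun j => (D.y j).norm) (Finset.mem_univ (D.j0 i))
    have h2 : (D.g i).norm ≤ D.rB := Finset.le_sup (f := fun i => (D.g i).norm) (Finset.mem_univ i)
    have h3 := FreeGroup.norm_mul_le (D.y (D.j0 i)) (D.g i)
    dsimp only at h1 ⊢
    omega
  hB i := Finset.le_sup (f := fun i => (D.g i).norm) (Finset.mem_univ i)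

/-- The circles map to the two relator circles. -/
def toCirc : (circ hrel D.ty).Hom (circ hrel id) where
  km := D.ty
  jm j := (D.ty j.1, j.2)
  k _ := 1
  g _ := 1
  hπ _ := rfl
  hk _ := by simp
  hbar _ := rfl
  hT _ := by simp
  hB _ := by simp

/-- The sphere. -/
@[reducible] def A3 : Flag G := dmc (D.toSurf hrel).flag (circ hrel D.ty).comp

/-- The map from the sphere to the presentation complex. -/
def att : (D.A3 hrel).Hom (Q2 hrel) :=
  dmcMap (surf rel D).toCay (D.toCirc hrel).flag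
    (discMap (fun x => ⟨x.g, D.ty x.a⟩) fun _ _ => rfl)
    (fun x => by rw [Fat.Hom.toCay_flag, Fat.Hom.toCay_flag])
    fun x => by rw [Fat.Hom.comp_flag]; simp [toCirc, discMap]

/-- The sheet of a vertex of the sphere. -/
def sheet : (D.A3 hrel).Hom (disc G (Ind G Unit)) :=
  dmcDesc (surf rel D).comp
    (discMap (fun x => ⟨x.g * (FreeGroup.lift μ (D.g x.a))⁻¹, ()⟩)
      fun g _ => Ind.ext (mul_assoc g _ _) rfl)
    fun x => by rw [Fat.Hom.comp_flag]; rfl

/-- The final complex. -/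
@[reducible] def Q3 : Flag G := dmc (D.att hrel) (D.sheet hrel)

end Alg

end Final

end Vale.Agent.P246
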