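import Vale.Agent.P246.Chain
import Vale.Agent.P173.Defs

/-! Flag complexes with a group action, double mapping cylinders, graphs. -/

namespace Vale.Agent.P246

/-- A flag complex with an action of `G`: the simplices are the cliques of `R`. -/
structure Flag (G : Type) [Group G] : Type 1 where
  V : Type
  [act : MulAction G V]
  R : V → V → Prop
  refl : ∀ a, R a a
  symm : ∀ {a b}, R a b → R b a
  smul : ∀ (g : G) {a b}, R a b → R (g • a) (g • b)

attribute [instance] Flag.act

variable {G : Type} [Group G]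

namespace Flag

/-- Equivariant simplicial maps. -/
structure Hom (K L : Flag G) : Type where
  f : K.V → L.V
  smul : ∀ (g : G) a, f (g • a) = g • f a
  rel : ∀ {a b}, K.R a b → L.R (f a) (f b)

/-- Composition. -/
def Hom.comp {K L N : Flag G} (φ : L.Hom N) (ψ : K.Hom L) : K.Hom N where
  f a := φ.f (ψ.f a)
  smul g a := by rw [ψ.smul, φ.smul]
  rel h := φ.rel (ψ.rel h)

variable (K : Flag G)

/-- The tuple spans a simplex. -/
def Clq {n : ℕ} (x : Tup n K.V) : Prop := ∀ i j, K.R (x i) (x j)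

/-- No vertex has two neighbours in one orbit. -/
def Cov : Prop := ∀ (g : G) a b, K.R a b → K.R a (g • b) → g = 1

/-- Finitely many orbits of vertices. -/
def Cofin : Prop := ∃ s : Set K.V, s.Finite ∧ ∀ a, ∃ g : G, g • a ∈ s

/-- Connectedness. -/
def Conn : Prop := Nonempty K.V ∧ ∀ a b, Relation.ReflTransGen K.R a b

/-- Labels multiplicative on triangles. -/
def Flat {Γ : Type*} [Group Γ] (l : K.V → K.V → Γ) : Prop :=
  ∀ a b c, K.R a b → K.R b c → K.R a c → l a b * l b c = l a c

/-- `h` is a potential of `l`. -/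
def IsPot {Γ : Type*} [Group Γ] (l : K.V → K.V → Γ) (h : K.V → Γ) : Prop :=
  ∀ a b, K.R a b → l a b = (h a)⁻¹ * h b

/-- All flat labels have a potential. -/
def Pot : Prop := ∀ (Γ : Type) [Group Γ] (l : K.V → K.V → Γ), K.Flat l → ∃ h, K.IsPot l h

section Cochains

variable {M : Type*} [AddCommGroup M] [DistribMulAction G M] {n : ℕ}

/-- Equivariant cochains. -/
def Eqv (f : Tup n K.V → M) : Prop := ∀ (g : G) x, f (g • x) = g • f x

/-- Equivariant cocycles. -/
def Coc (f : Tup n K.V → M) : Prop := K.Eqv f ∧ ∀ x, K.Clq x → tco f x = 0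

/-- Equivariant coboundaries. -/
def Cob (f : Tup (n + 1) K.V → M) : Prop :=
  ∃ b : Tup n K.V → M, K.Eqv b ∧ ∀ x, K.Clq x → tco b x = f x

/-- `φ` is an equivariant potential of the 1-cochain `f`. -/
def APot (f : Tup 1 K.V → M) (φ : K.V → M) : Prop :=
  (∀ (g : G) a, φ (g • a) = g • φ a) ∧ ∀ a b, K.R a b → f ![a, b] = φ b - φ a

variable (M) in
/-- The equivariant cohomology in degree `k + 1` vanishes. -/
def Van (k : ℕ) : Prop := ∀ f : Tup (k + 1) K.V → M, K.Coc f → K.Cob f

variable {K} {L : Flag G}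

/-- Pulling back a cochain. -/
def Hom.pull (φ : K.Hom L) (f : Tup n L.V → M) : Tup n K.V → M := fun x => f (tmap φ.f x)

theorem Clq.face {x : Tup (n + 1) K.V} (h : K.Clq x) (i : Fin (n + 2)) : K.Clq (tface i x) :=
  fun _ _ => h _ _

theorem Clq.map {x : Tup n K.V} (h : K.Clq x) (φ : K.Hom L) : L.Clq (tmap φ.f x) :=
  fun i j => φ.rel (h i j)

theorem Clq.smul {x : Tup n K.V} (h : K.Clq x) (g : G) : K.Clq (g • x) :=
  fun i j => K.smul g (h i j)

theorem Hom.tmap_smul (φ : K.Hom L) (g : G) (x : Tup n K.V) :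
    tmap φ.f (g • x) = g • tmap φ.f x := funext fun i => φ.smul g (x i)

omit [DistribMulAction G M] in
theorem Hom.tco_pull (φ : K.Hom L) (f : Tup n L.V → M) : tco (φ.pull f) = φ.pull (tco f) := rfl

omit [AddCommGroup M] [DistribMulAction G M] in
theorem Hom.pull_comp {N : Flag G} (φ : L.Hom N) (ψ : K.Hom L) (f : Tup n N.V → M) :
    (φ.comp ψ).pull f = ψ.pull (φ.pull f) := rfl

omit [DistribMulAction G M] in
theorem Hom.pull_sub (φ : K.Hom L) (f g : Tup n L.V → M) :
    φ.pull (f - g) = φ.pull f - φ.pull g := rfl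

omit [DistribMulAction G M] in
theorem Hom.pull_add (φ : K.Hom L) (f g : Tup n L.V → M) :
    φ.pull (f + g) = φ.pull f + φ.pull g := rfl

theorem Eqv.tco {f : Tup n K.V → M} (h : K.Eqv f) : K.Eqv (tco f) := fun g x => by
  rw [smul_cof]
  exact Finset.sum_congr rfl fun i _ => congrArg _ (h g (tface i x))

theorem Eqv.pull {f : Tup n L.V → M} (h : L.Eqv f) (φ : K.Hom L) : K.Eqv (φ.pull f) :=
  fun g x => by rw [Hom.pull, φ.tmap_smul, h]; rfl

theorem Eqv.zero : K.Eqv (0 : Tup n K.V → M) := fun g _ => (smul_zero g).symm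

theorem Eqv.add {f f' : Tup n K.V → M} (h : K.Eqv f) (h' : K.Eqv f') : K.Eqv (f + f') :=
  fun g x => by rw [Pi.add_apply, Pi.add_apply, h, h', smul_add]

theorem Eqv.neg {f : Tup n K.V → M} (h : K.Eqv f) : K.Eqv (-f) :=
  fun g x => by rw [Pi.neg_apply, Pi.neg_apply, h, smul_neg]

theorem Eqv.sub {f f' : Tup n K.V → M} (h : K.Eqv f) (h' : K.Eqv f') : K.Eqv (f - f') :=
  sub_eq_add_neg f f' ▸ h.add h'.neg

theorem Coc.pull {f : Tup n L.V → M} (h : L.Coc f) (φ : K.Hom L) : K.Coc (φ.pull f) :=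
  ⟨h.1.pull φ, fun _ hx => h.2 _ (hx.map φ)⟩

theorem Coc.zero : K.Coc (0 : Tup n K.V → M) := ⟨Eqv.zero, fun _ _ => by rw [tco_zero]; rfl⟩

theorem Coc.add {f f' : Tup n K.V → M} (h : K.Coc f) (h' : K.Coc f') : K.Coc (f + f') :=
  ⟨h.1.add h'.1, fun x hx => by
    rw [tco_add, Pi.add_apply, h.2 x hx, h'.2 x hx, add_zero]⟩

theorem Coc.neg {f : Tup n K.V → M} (h : K.Coc f) : K.Coc (-f) :=
  ⟨h.1.neg, fun x hx => by rw [tco_neg, Pi.neg_apply, h.2 x hx, neg_zero]⟩

theorem Coc.sub {f f' : Tup n K.V → M} (h : K.Coc f) (h' : K.Coc f') : K.Coc (f - f') :=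
  sub_eq_add_neg f f' ▸ h.add h'.neg

theorem Cob.pull {f : Tup (n + 1) L.V → M} (h : L.Cob f) (φ : K.Hom L) : K.Cob (φ.pull f) :=
  let ⟨b, h1, h2⟩ := h
  ⟨φ.pull b, h1.pull φ, fun _ hx => h2 _ (hx.map φ)⟩

theorem Cob.zero : K.Cob (0 : Tup (n + 1) K.V → M) :=
  ⟨0, Eqv.zero, fun _ _ => by rw [tco_zero]⟩

theorem Cob.add {f f' : Tup (n + 1) K.V → M} (h : K.Cob f) (h' : K.Cob f') : K.Cob (f + f') :=
  let ⟨b, h1, h2⟩ := h
  let ⟨b', h3, h4⟩ := h'
  ⟨b + b', h1.add h3, fun x hx => by
    rw [tco_add, Pi.add_apply, h2 x hx, h4 x hx, Pi.add_apply]⟩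

theorem Cob.neg {f : Tup (n + 1) K.V → M} (h : K.Cob f) : K.Cob (-f) :=
  let ⟨b, h1, h2⟩ := h
  ⟨-b, h1.neg, fun x hx => by rw [tco_neg, Pi.neg_apply, h2 x hx, Pi.neg_apply]⟩

theorem Cob.sub {f f' : Tup (n + 1) K.V → M} (h : K.Cob f) (h' : K.Cob f') : K.Cob (f - f') :=
  sub_eq_add_neg f f' ▸ h.add h'.neg

theorem Cob.congr {f f' : Tup (n + 1) K.V → M} (h : K.Cob f) (e : ∀ x, K.Clq x → f x = f' x) :
    K.Cob f' :=
  let ⟨b, h1, h2⟩ := h
  ⟨b, h1, fun x hx => (h2 x hx).trans (e x hx)⟩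

/-- The fibres of a map are connected. -/
def Hom.FibConn (c : K.Hom L) : Prop := ∀ a b, c.f a = c.f b → Relation.ReflTransGen K.R a b

end Cochains

end Flag

/-- The discrete complex on a `G`-set. -/
@[reducible] def disc (G : Type) [Group G] (D : Type) [MulAction G D] : Flag G where
  V := D
  R := Eq
  refl _ := rfl
  symm := Eq.symm
  smul g _ _ h := congrArg (g • ·) h

/-- An equivariant map of discrete complexes. -/
def discMap {D D' : Type} [MulAction G D] [MulAction G D'] (f : D → D')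
    (h : ∀ (g : G) a, f (g • a) = g • f a) : (disc G D).Hom (disc G D') where
  f := f
  smul := h
  rel e := congrArg f e

/-- The free `G`-set on `α`. -/
@[ext] structure Ind (G α : Type) : Type where
  g : G
  a : α

instance {α : Type} : MulAction G (Ind G α) where
  smul h x := ⟨h * x.g, x.a⟩
  one_smul x := Ind.ext (one_mul x.g) rfl
  mul_smul a b x := Ind.ext (mul_assoc a b x.g) rfl

@[simp] theorem Ind.smul_mk {α : Type} (h g : G) (a : α) : h • Ind.mk g a = Ind.mk (h * g) a := rfl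
@[simp] theorem Ind.smul_g {α : Type} (h : G) (x : Ind G α) : (h • x).g = h * x.g := rfl
@[simp] theorem Ind.smul_a {α : Type} (h : G) (x : Ind G α) : (h • x).a = x.a := rfl

/-- Vertices of a double mapping cylinder. -/
inductive DV (L A R : Type) : Type
  | l (x : L)
  | m (x : A)
  | r (x : R)

namespace DV

variable {L A R L' A' R' : Type}

/-- Functoriality. -/
def map (fL : L → L') (fA : A → A') (fR : R → R') : DV L A R → DV L' A' R'
  | l x => l (fL x)
  | m x => m (fA x)
  | r x => r (fR x)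

instance [MulAction G L] [MulAction G A] [MulAction G R] : MulAction G (DV L A R) where
  smul g := map (g • ·) (g • ·) (g • ·)
  one_smul x := by cases x <;> exact congrArg _ (one_smul G _)
  mul_smul g h x := by cases x <;> exact congrArg _ (mul_smul g h _)

variable [MulAction G L] [MulAction G A] [MulAction G R]

@[simp] theorem smul_l (g : G) (x : L) : g • (l x : DV L A R) = l (g • x) := rfl
@[simp] theorem smul_m (g : G) (x : A) : g • (m x : DV L A R) = m (g • x) := rfl
@[simp] theorem smul_r (g : G) (x : R) : g • (r x : DV L A R) = r (g • x) := rfl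

end DV

section Dmc

variable {L A R L' A' R' K : Flag G}

/-- The adjacency relation of the double mapping cylinder. -/
def dmcRel (a : A.Hom L) (c : A.Hom R) : DV L.V A.V R.V → DV L.V A.V R.V → Prop
  | .l x, .l y => L.R x y
  | .l x, .m y => L.R x (a.f y)
  | .l _, .r _ => False
  | .m x, .l y => L.R (a.f x) y
  | .m x, .m y => A.R x y
  | .m x, .r y => R.R (c.f x) y
  | .r _, .l _ => False
  | .r x, .m y => R.R x (c.f y)
  | .r x, .r y => R.R x y

/-- The double mapping cylinder of `L ← A → R`. -/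
@[reducible] def dmc (a : A.Hom L) (c : A.Hom R) : Flag G where
  V := DV L.V A.V R.V
  R := dmcRel a c
  refl x := by cases x <;> exact Flag.refl _ _
  symm {x y} h := by cases x <;> cases y <;> first | exact h | exact Flag.symm _ h
  smul g x y h := by
    cases x <;> cases y <;>
      simp only [DV.smul_l, DV.smul_m, DV.smul_r, dmcRel, Flag.Hom.smul] at h ⊢ <;>
      exact Flag.smul _ g h

/-- The left end. -/
def inL (a : A.Hom L) (c : A.Hom R) : L.Hom (dmc a c) := ⟨.l, fun _ _ => rfl, id⟩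

/-- The middle. -/
def inM (a : A.Hom L) (c : A.Hom R) : A.Hom (dmc a c) := ⟨.m, fun _ _ => rfl, id⟩

/-- The right end. -/
def inR (a : A.Hom L) (c : A.Hom R) : R.Hom (dmc a c) := ⟨.r, fun _ _ => rfl, id⟩

/-- Functoriality of the double mapping cylinder. -/
def dmcMap {a : A.Hom L} {c : A.Hom R} {a' : A'.Hom L'} {c' : A'.Hom R'} (fL : L.Hom L')
    (fA : A.Hom A') (fR : R.Hom R') (ha : ∀ x, a'.f (fA.f x) = fL.f (a.f x))
    (hc : ∀ x, c'.f (fA.f x) = fR.f (c.f x)) : (dmc a c).Hom (dmc a' c') where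
  f := DV.map fL.f fA.f fR.f
  smul g x := by cases x <;> exact congrArg _ (Flag.Hom.smul _ g _)
  rel {x y} h := by
    cases x <;> cases y <;> simp only [DV.map, dmcRel, ha, hc] at h ⊢ <;>
      exact Flag.Hom.rel _ h

/-- A map out of the double mapping cylinder through the pushout. -/
def dmcDesc {a : A.Hom L} {c : A.Hom R} (fL : L.Hom K) (fR : R.Hom K)
    (h : ∀ x, fL.f (a.f x) = fR.f (c.f x)) : (dmc a c).Hom K where
  f
    | .l x => fL.f x
    | .m x => fL.f (a.f x)
    | .r x => fR.f x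
  smul g x := by
    cases x
    · exact fL.smul g _
    · exact (congrArg fL.f (a.smul g _)).trans (fL.smul g _)
    · exact fR.smul g _
  rel {x y} e := by
    cases x <;> cases y
    · exact fL.rel e
    · exact fL.rel e
    · exact e.elim
    · exact fL.rel e
    · exact fL.rel (a.rel e)
    · exact (congrArg (K.R · _) (h _)).mpr (fR.rel e)
    · exact e.elim
    · exact (congrArg (K.R _ ·) (h _)).mpr (fR.rel e)
    · exact fR.rel e

variable {M : Type*} [AddCommGroup M] {n : ℕ}

open Classical in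
/-- Extension by zero of a cochain on the middle part. -/
noncomputable def extM (b : Tup n A.V → M) (x : Tup n (DV L.V A.V R.V)) : M :=
  if h : ∃ y : Tup n A.V, x = tmap .m y then b h.choose else 0

open Classical in
/-- The connecting map of the Mayer–Vietoris sequence on cochains. -/
noncomputable def conn (a : A.Hom L) (c : A.Hom R) (b : Tup n A.V → M) :
    Tup (n + 1) (dmc a c).V → M :=
  fun x => if ∃ i y, x i = .r y then tco (extM b) x else 0

end Dmc

/-- A graph with an action of `G`. -/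
structure Gr (G : Type) [Group G] : Type 1 where
  V : Type
  E : Type
  [actV : MulAction G V]
  [actE : MulAction G E]
  s : E → V
  t : E → V
  s_smul : ∀ (g : G) e, s (g • e) = g • s e
  t_smul : ∀ (g : G) e, t (g • e) = g • t e

attribute [instance] Gr.actV Gr.actE

namespace Gr

variable (Γ : Gr G)

/-- The two ends of the edges. -/
def ends : (disc G (Γ.E ⊕ Γ.E)).Hom (disc G Γ.V) :=
  discMap (Sum.elim Γ.s Γ.t) fun g x => by
    cases x
    exacts [Γ.s_smul g _, Γ.t_smul g _]

/-- The fold map. -/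
def fold : (disc G (Γ.E ⊕ Γ.E)).Hom (disc G Γ.E) :=
  discMap (Sum.elim id id) fun g x => by cases x <;> rfl

/-- The graph, each edge subdivided into four, as a flag complex. -/
@[reducible] def flag : Flag G := dmc Γ.ends Γ.fold

/-- Equivariant graph maps. -/
structure Hom (Γ Γ' : Gr G) : Type where
  v : Γ.V → Γ'.V
  e : Γ.E → Γ'.E
  v_smul : ∀ (g : G) a, v (g • a) = g • v a
  e_smul : ∀ (g : G) a, e (g • a) = g • e a
  hs : ∀ a, Γ'.s (e a) = v (Γ.s a)
  ht : ∀ a, Γ'.t (e a) = v (Γ.t a)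

/-- The simplicial map of a graph map. -/
def Hom.flag {Γ Γ' : Gr G} (φ : Γ.Hom Γ') : Γ.flag.Hom Γ'.flag :=
  dmcMap (discMap φ.v φ.v_smul)
    (discMap (Sum.map φ.e φ.e) fun g x => by cases x <;> exact congrArg _ (φ.e_smul g _))
    (discMap φ.e φ.e_smul) (fun x => by cases x; exacts [φ.hs _, φ.ht _])
    fun x => by cases x <;> rfl

/-- A map to a discrete complex, constant along the edges. -/
def toDisc {D : Type} [MulAction G D] (v : Γ.V → D) (hv : ∀ (g : G) a, v (g • a) = g • v a)
    (h : ∀ e, v (Γ.t e) = v (Γ.s e)) : Γ.flag.Hom (disc G D) :=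
  dmcDesc (discMap v hv) (discMap (fun e => v (Γ.s e)) fun g e => by rw [Γ.s_smul, hv])
    fun x => by cases x; exacts [rfl, h _]

/-- The sum of a 1-cochain along an edge. -/
def hol {M : Type*} [AddCommGroup M] (f : Tup 1 Γ.flag.V → M) (e : Γ.E) : M :=
  f ![.l (Γ.s e), .m (.inl e)] + f ![.m (.inl e), .r e] + f ![.r e, .m (.inr e)] +
    f ![.m (.inr e), .l (Γ.t e)]

/-- The product of labels along an edge. -/
def mhol {P : Type*} [Group P] (l : Γ.flag.V → Γ.flag.V → P) (e : Γ.E) : P :=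
  l (.l (Γ.s e)) (.m (.inl e)) * l (.m (.inl e)) (.r e) * l (.r e) (.m (.inr e)) *
    l (.m (.inr e)) (.l (Γ.t e))

end Gr

section Fox

variable {S Γ M : Type*} [Group Γ] [AddCommGroup M] [DistribMulAction Γ M]

/-- The crossed homomorphism on the free group with the values `c` on the generators. -/
def fox (μ : S → Γ) (c : S → M) (w : FreeGroup S) : M :=
  (P173.ev μ (fun g s => Multiplicative.ofAdd (g • c s)) 1 w).toAdd

theorem fox_ev (μ : S → Γ) (c : S → M) (g : Γ) (w : FreeGroup S) :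
    (P173.ev μ (fun g s => Multiplicative.ofAdd (g • c s)) g w).toAdd = g • fox μ c w := by
  induction w using FreeGroup.induction_on generalizing g with
  | C1 => simp [fox]
  | of s => simp [fox]
  | inv_of s _ => simp [fox, P173.ev_inv, mul_smul]
  | mul x y hx hy =>
    rw [fox, P173.ev_mul, P173.ev_mul, toAdd_mul, toAdd_mul, hx, hy, hx, hy]
    simp [mul_smul]

@[simp] theorem fox_one (μ : S → Γ) (c : S → M) : fox μ c 1 = 0 := by simp [fox]

@[simp] theorem fox_of (μ : S → Γ) (c : S → M) (s : S) : fox μ c (FreeGroup.of s) = c s := by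
  simp [fox]

theorem fox_mul (μ : S → Γ) (c : S → M) (u v : FreeGroup S) :
    fox μ c (u * v) = fox μ c u + FreeGroup.lift μ u • fox μ c v := by
  rw [fox, P173.ev_mul, toAdd_mul, fox_ev, fox_ev, one_smul, one_mul]

theorem fox_inv (μ : S → Γ) (c : S → M) (u : FreeGroup S) :
    fox μ c u⁻¹ = -((FreeGroup.lift μ u)⁻¹ • fox μ c u) := by
  rw [fox, P173.ev_inv, toAdd_inv, fox_ev, one_mul]

end Fox

end Vale.Agent.P246
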