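import Vale.Agent.P246.Flag

/-! Contiguity and the Mayer–Vietoris sequence of a double mapping cylinder. -/

namespace Vale.Agent.P246

variable {G : Type} [Group G] {K L A R L' A' R' : Flag G} {a : A.Hom L} {c : A.Hom R}
  {M : Type*} [AddCommGroup M] [DistribMulAction G M] {n : ℕ}

namespace MVAux

section Prism

variable {X Y : Type} (φ ψ : X → Y)

/-- The prism operator between two maps of vertex sets. -/
noncomputable def pr : ∀ n : ℕ, Tup n X → Ch (Tup (n + 1) Y)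
  | 0, x => cone (φ (x 0)) (sg (tmap ψ x) - sg (tmap φ x))
  | n + 1, x => cone (φ (x 0)) (sg (tmap ψ x) - sg (tmap φ x) - lin (pr n) (tbd (sg x)))

theorem bd_zero (z : Ch (Tup 0 X)) :
    tbd (lin (pr φ ψ 0) z) = push (tmap ψ) z - push (tmap φ) z :=
  LinearMap.congr_fun (ch_ext (φ := tbd ∘ₗ lin (pr φ ψ 0)) (ψ := push (tmap ψ) - push (tmap φ))
    fun x => by
      rw [LinearMap.comp_apply, lin_sg, LinearMap.sub_apply, push_sg, push_sg, pr, tbd_cone_zero,
        map_sub, aug, lin_sg, lin_sg, sub_self, zero_smul, sub_zero]) z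

theorem bd_step (h : ∀ z : Ch (Tup (n + 1) X),
    tbd (lin (pr φ ψ n) (tbd z)) = push (tmap ψ) (tbd z) - push (tmap φ) (tbd z))
    (z : Ch (Tup (n + 1) X)) : tbd (lin (pr φ ψ (n + 1)) z) =
      push (tmap ψ) z - push (tmap φ) z - lin (pr φ ψ n) (tbd z) :=
  LinearMap.congr_fun (ch_ext (φ := tbd ∘ₗ lin (pr φ ψ (n + 1)))
    (ψ := push (tmap ψ) - push (tmap φ) - lin (pr φ ψ n) ∘ₗ tbd) fun x => by
      rw [LinearMap.comp_apply, lin_sg, LinearMap.sub_apply, LinearMap.sub_apply,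
        LinearMap.comp_apply, pr, ← push_sg (tmap ψ), ← push_sg (tmap φ), tbd_cone, map_sub tbd,
        map_sub tbd, h, push_tbd, push_tbd, sub_self, map_zero, sub_zero]) z

theorem bd_succ : ∀ (n : ℕ) (z : Ch (Tup (n + 1) X)), tbd (lin (pr φ ψ (n + 1)) z) =
    push (tmap ψ) z - push (tmap φ) z - lin (pr φ ψ n) (tbd z)
  | 0 => bd_step φ ψ fun _ => bd_zero φ ψ _
  | n + 1 => bd_step φ ψ fun z => by rw [bd_succ n, tbd_tbd, map_zero, sub_zero]

theorem cone_supp {T : Set Y} {v : Y} (hv : v ∈ T) {z : Ch (Tup n Y)}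
    (hz : z ∈ supp {y | ∀ j, y j ∈ T}) : cone v z ∈ supp {y | ∀ j, y j ∈ T} := by
  refine push_mem_supp (fun y hy j => ?_) hz
  refine Fin.cases ?_ (fun j => ?_) j
  exacts [hv, hy j]

theorem pr_supp (T : Set Y) (n : ℕ) : ∀ x : Tup n X, (∀ i, φ (x i) ∈ T ∧ ψ (x i) ∈ T) →
    pr φ ψ n x ∈ supp {y | ∀ j, y j ∈ T} := by
  induction n with
  | zero =>
    exact fun x h => cone_supp (h 0).1
      (sub_mem (sg_mem_supp fun j => (h j).2) (sg_mem_supp fun j => (h j).1))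
  | succ n ih =>
    intro x h
    have h1 : tbd (sg x) ∈ supp {z : Tup n X | ∀ i, φ (z i) ∈ T ∧ ψ (z i) ∈ T} := by
      refine bdf_mem_supp (s := {z : Tup (n + 1) X | ∀ i, φ (z i) ∈ T ∧ ψ (z i) ∈ T})
        (fun z hz i => ?_) (sg_mem_supp h)
      exact fun j => hz _
    exact cone_supp (h 0).1
      (sub_mem (sub_mem (sg_mem_supp fun j => (h j).2) (sg_mem_supp fun j => (h j).1))
        (map_mem_of_supp _ _ (fun z hz => by rw [lin_sg]; exact ih z hz) h1))

theorem pr_nat {u : X → X} {v : Y → Y} (h1 : ∀ a, φ (u a) = v (φ a))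
    (h2 : ∀ a, ψ (u a) = v (ψ a)) : ∀ (n : ℕ) (x : Tup n X),
    pr φ ψ n (tmap u x) = push (tmap v) (pr φ ψ n x) := by
  have e1 : ∀ {n : ℕ} (x : Tup n X), tmap φ (tmap u x) = tmap v (tmap φ x) :=
    fun x => funext fun i => h1 _
  have e2 : ∀ {n : ℕ} (x : Tup n X), tmap ψ (tmap u x) = tmap v (tmap ψ x) :=
    fun x => funext fun i => h2 _
  intro n
  induction n with
  | zero =>
    intro x
    rw [pr, pr, push_cone, map_sub (push (tmap v)), push_sg, push_sg, e1, e2, ← h1]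
    rfl
  | succ n ih =>
    intro x
    rw [pr, pr, push_cone, map_sub (push (tmap v)), map_sub (push (tmap v)), push_sg, push_sg, e1,
      e2, ← h1, ← push_sg (tmap u), ← push_tbd, lin_push, map_lin]
    simp only [ih]
    rfl

end Prism

/-- Strong contiguity. -/
theorem strong (φ ψ : K.V → L.V) (hφ : ∀ (g : G) v, φ (g • v) = g • φ v)
    (hψ : ∀ (g : G) v, ψ (g • v) = g • ψ v) {f : Tup (n + 1) L.V → M} (hf : L.Eqv f) :
    ∃ b : Tup n K.V → M, K.Eqv b ∧ ∀ x : Tup (n + 1) K.V,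
      (∀ y : Tup (n + 2) L.V, (∀ j, ∃ i, y j = φ (x i) ∨ y j = ψ (x i)) → tco f y = 0) →
      tco b x = f (tmap ψ x) - f (tmap φ x) := by
  refine ⟨fun x => lin f (pr φ ψ n x), fun g x => ?_, fun x hx => ?_⟩
  · have := pr_nat φ ψ (hφ g) (hψ g) n x
    show lin f (pr φ ψ n (tmap (g • ·) x)) = _
    rw [this, lin_push, smul_lin]
    exact congrArg (lin · _) (funext (hf g))
  · have h1 := congrArg (lin f) (bd_succ φ ψ n (sg x))
    have h2 := lin_congr (f := tco f) (g := 0) hx (pr_supp φ ψ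
      {v | ∃ i, v = φ (x i) ∨ v = ψ (x i)} (n + 1) x fun i => ⟨⟨i, .inl rfl⟩, ⟨i, .inr rfl⟩⟩)
    rw [lin_tbd, lin_sg, h2, map_sub, map_sub, push_sg, push_sg, lin_sg, lin_sg, map_lin, lin_tbd,
      lin_sg, lin, Finsupp.linearCombination_zero, LinearMap.zero_apply] at h1
    exact (sub_eq_zero.1 h1.symm).symm

open Classical in
/-- Extension by zero along a map. -/
noncomputable def ext {X Y : Type} (ι : X → Y) (b : Tup n X → M) (x : Tup n Y) : M :=
  if h : ∃ y : Tup n X, x = tmap ι y then b h.choose else 0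

theorem ext_map {X Y : Type} {ι : X → Y} (hι : Function.Injective ι) (b : Tup n X → M)
    (y : Tup n X) : ext ι b (tmap ι y) = b y := by
  have h : ∃ z : Tup n X, tmap ι y = tmap ι z := ⟨y, rfl⟩
  rw [ext, dif_pos h]
  exact congrArg b (funext fun i => (hι (congrFun h.choose_spec i)).symm)

theorem ext_eqv (ι : K.Hom L) (hι : Function.Injective ι.f) {b : Tup n K.V → M} (hb : K.Eqv b) :
    L.Eqv (ext ι.f b) := fun g x => by
  by_cases h : ∃ y, x = tmap ι.f y
  · obtain ⟨y, rfl⟩ := h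
    rw [← ι.tmap_smul, ext_map hι, ext_map hι, hb]
  · rw [ext, ext, dif_neg h, dif_neg, smul_zero]
    rintro ⟨y, e⟩
    exact h ⟨g⁻¹ • y, by rw [ι.tmap_smul, ← e, inv_smul_smul]⟩

/-- `ρ` retracts the part of `K` spanned by `S` to `L`. -/
structure Side (ι : L.Hom K) (ρ : K.V → K.V) (S : Set K.V) : Prop where
  inj : Function.Injective ι.f
  smul : ∀ (g : G) v, ρ (g • v) = g • ρ v
  mem : ∀ v ∈ S, ∃ w, ρ v = ι.f w
  rel : ∀ u ∈ S, ∀ v ∈ S, K.R u v → K.R (ρ u) v ∧ K.R (ρ u) (ρ v)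
  full : ∀ w w', K.R (ι.f w) (ι.f w') → L.R w w'

variable {ι : L.Hom K} {ρ : K.V → K.V} {S : Set K.V}

theorem Side.ret (h : Side ι ρ S) {x : Tup n K.V} (hx : K.Clq x) (hS : ∀ i, x i ∈ S) :
    ∃ y, L.Clq y ∧ tmap ρ x = tmap ι.f y := by
  choose y hy using fun i => h.mem _ (hS i)
  refine ⟨y, fun i j => h.full _ _ ?_, funext hy⟩
  rw [← hy, ← hy]
  exact (h.rel _ (hS i) _ (hS j) (hx i j)).2

theorem Side.lift (h : Side ι ρ S) {b : Tup n L.V → M} (hb : L.Eqv b) :
    ∃ B : Tup n K.V → M, K.Eqv B ∧ (∀ x y, tmap ρ x = tmap ι.f y → B x = b y) ∧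
      ∀ x y, tmap ρ x = tmap ι.f y → tco B x = tco b y := by
  have e : ∀ x y, tmap ρ x = tmap ι.f y → ext ι.f b (tmap ρ x) = b y := fun x y e => by
    rw [e, ext_map h.inj]
  refine ⟨fun x => ext ι.f b (tmap ρ x), fun g x => ?_, e, fun x y hy =>
    Finset.sum_congr rfl fun i _ => congrArg _ (e _ _ (congrArg (tface i) hy))⟩
  exact (congrArg _ (funext fun i => h.smul g (x i))).trans (ext_eqv ι h.inj hb g (tmap ρ x))

theorem Side.coc (h : Side ι ρ S) {b : Tup n L.V → M} (hb : L.Coc b) :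
    ∃ B : Tup n K.V → M, K.Eqv B ∧ (∀ x y, tmap ρ x = tmap ι.f y → B x = b y) ∧
      ∀ x, K.Clq x → (∀ i, x i ∈ S) → tco B x = 0 := by
  obtain ⟨B, h1, h2, h3⟩ := h.lift hb.1
  refine ⟨B, h1, h2, fun x hx hS => ?_⟩
  obtain ⟨y, h4, h5⟩ := h.ret hx hS
  rw [h3 x y h5, hb.2 y h4]

theorem Side.cob (h : Side ι ρ S) {f : Tup (n + 1) K.V → M} (hf : K.Coc f)
    (hL : L.Cob (ι.pull f)) :
    ∃ B : Tup n K.V → M, K.Eqv B ∧ ∀ x, K.Clq x → (∀ i, x i ∈ S) → tco B x = f x := by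
  obtain ⟨b, h1, h2⟩ := hL
  obtain ⟨B, h3, -, h4⟩ := h.lift h1
  obtain ⟨B', h5, h6⟩ := strong ρ id h.smul (fun _ _ => rfl) hf.1
  refine ⟨B + B', h3.add h5, fun x hx hS => ?_⟩
  obtain ⟨y, h7, h8⟩ := h.ret hx hS
  rw [tco_add, Pi.add_apply, h4 x y h8, h2 y h7, h6 x fun z hz => hf.2 z fun j k => ?_, h8]
  · exact add_sub_cancel _ _
  · obtain ⟨i, hi | hi⟩ := hz j <;> obtain ⟨i', hi' | hi'⟩ := hz k <;> rw [hi, hi']
    exacts [(h.rel _ (hS i) _ (hS i') (hx i i')).2, (h.rel _ (hS i) _ (hS i') (hx i i')).1,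
      K.symm (h.rel _ (hS i') _ (hS i) (hx i' i)).1, hx i i']

/-- The retraction to the left end. -/
def rL (a : A.Hom L) (c : A.Hom R) : (dmc a c).V → (dmc a c).V
  | .l x => .l x
  | .m x => .l (a.f x)
  | .r x => .r x

/-- The retraction to the right end. -/
def rR (a : A.Hom L) (c : A.Hom R) : (dmc a c).V → (dmc a c).V
  | .l x => .l x
  | .m x => .r (c.f x)
  | .r x => .r x

theorem sideL : Side (inL a c) (rL a c) {v | ∀ y, v ≠ .r y} where
  inj _ _ h := DV.l.inj h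
  smul g v := by
    cases v
    exacts [rfl, congrArg DV.l (a.smul g _), rfl]
  mem v hv := by
    cases v
    exacts [⟨_, rfl⟩, ⟨_, rfl⟩, (hv _ rfl).elim]
  rel u hu v hv h := by
    cases u <;> cases v <;> first
      | exact (hu _ rfl).elim | exact (hv _ rfl).elim | exact ⟨h, h⟩ | exact ⟨a.rel h, a.rel h⟩
  full _ _ h := h

theorem sideR : Side (inR a c) (rR a c) {v | ∀ y, v ≠ .l y} where
  inj _ _ h := DV.r.inj h
  smul g v := by
    cases v
    exacts [rfl, congrArg DV.r (c.smul g _), rfl]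
  mem v hv := by
    cases v
    exacts [(hv _ rfl).elim, ⟨_, rfl⟩, ⟨_, rfl⟩]
  rel u hu v hv h := by
    cases u <;> cases v <;> first
      | exact (hu _ rfl).elim | exact (hv _ rfl).elim | exact ⟨h, h⟩ | exact ⟨c.rel h, c.rel h⟩
  full _ _ h := h

omit [DistribMulAction G M] in
theorem extM_m (b : Tup n A.V → M) (y : Tup n A.V) :
    extM (L := L) (R := R) b (tmap .m y) = b y :=
  ext_map (ι := (DV.m : A.V → DV L.V A.V R.V)) (fun _ _ h => DV.m.inj h) b y

omit [DistribMulAction G M] in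
theorem tco_extM (b : Tup n A.V → M) (y : Tup (n + 1) A.V) :
    tco (extM (L := L) (R := R) b) (tmap .m y) = tco b y :=
  Finset.sum_congr rfl fun i _ => congrArg _ (extM_m b (tface i y))

theorem extM_eqv {b : Tup n A.V → M} (hb : A.Eqv b) : (dmc a c).Eqv (extM b) :=
  ext_eqv (inM a c) (fun _ _ h => DV.m.inj h) hb

theorem all_m {x : Tup n (DV L.V A.V R.V)} (hl : ∀ i y, x i ≠ .l y) (hr : ∀ i y, x i ≠ .r y) :
    ∃ y, x = tmap .m y := by
  have : ∀ i, ∃ y, x i = .m y := fun i => by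
    cases h : x i
    exacts [(hl i _ h).elim, ⟨_, rfl⟩, (hr i _ h).elim]
  choose y hy using this
  exact ⟨y, funext hy⟩

theorem no_l {x : Tup n (dmc a c).V} (hx : (dmc a c).Clq x) (h : ∃ i y, x i = .r y) :
    ∀ i y, x i ≠ .l y := fun j z e => by
  obtain ⟨i, y, h⟩ := h
  have := hx i j
  rw [h, e] at this
  exact this

theorem has_map {X Y Z X' Y' Z' : Type} (fL : X → X') (fA : Y → Y') (fR : Z → Z')
    (x : Tup n (DV X Y Z)) :
    (∃ i y, tmap (DV.map fL fA fR) x i = .r y) ↔ ∃ i y, x i = .r y := by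
  refine exists_congr fun i => ?_
  unfold tmap
  cases x i <;> simp [DV.map]

omit [DistribMulAction G M] in
theorem conn_noR (b : Tup n A.V → M) {x : Tup (n + 1) (dmc a c).V} (h : ∀ i y, x i ≠ .r y) :
    conn a c b x = 0 := if_neg fun ⟨i, y, e⟩ => h i y e

theorem conn_noL {b : Tup n A.V → M} (hb : A.Coc b) {x : Tup (n + 1) (dmc a c).V}
    (hx : (dmc a c).Clq x) (h : ∀ i y, x i ≠ .l y) : conn a c b x = tco (extM b) x := by
  by_cases h' : ∃ i y, x i = .r y
  · exact if_pos h'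
  · obtain ⟨y, rfl⟩ := all_m h fun i y e => h' ⟨i, y, e⟩
    rw [tco_extM, hb.2 y hx]
    exact if_neg h'

omit [DistribMulAction G M] in
theorem conn_congr {b b' : Tup n A.V → M} (h : ∀ y, A.Clq y → b y = b' y)
    {x : Tup (n + 1) (dmc a c).V} (hx : (dmc a c).Clq x) : conn a c b x = conn a c b' x := by
  classical
  refine if_congr Iff.rfl (Finset.sum_congr rfl fun i _ => congrArg _ ?_) rfl
  have hz := hx.face i
  generalize tface i x = z at hz
  by_cases e : ∃ y, z = tmap .m y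
  · obtain ⟨y, rfl⟩ := e
    rw [extM_m, extM_m, h y hz]
  · rw [extM, extM, dif_neg e, dif_neg e]

open Classical in
theorem ite_eqv {B B' : Tup n (dmc a c).V → M} (h : (dmc a c).Eqv B) (h' : (dmc a c).Eqv B') :
    (dmc a c).Eqv fun x => if ∃ i y, x i = .r y then B x else B' x := fun g x => by
  rw [smul_ite, ← h, ← h']
  exact if_congr (has_map _ _ _ x) rfl rfl

/-- Gluing cochains on the two halves. -/
theorem glue {BL BR : Tup n (dmc a c).V → M} (hL : (dmc a c).Eqv BL) (hR : (dmc a c).Eqv BR)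
    {f : Tup (n + 1) (dmc a c).V → M}
    (h1 : ∀ x, (dmc a c).Clq x → (∀ i y, x i ≠ .r y) → tco BL x = f x)
    (h2 : ∀ x, (dmc a c).Clq x → (∀ i y, x i ≠ .l y) → tco BR x = f x) :
    (dmc a c).Cob (f - conn a c ((inM a c).pull (BR - BL))) := by
  classical
  refine ⟨_, ite_eqv hR hL, fun x hx => ?_⟩
  by_cases h : ∃ i y, x i = .r y
  · have hl := no_l hx h
    rw [Pi.sub_apply, ← h2 x hx hl, conn, if_pos h, ← Pi.sub_apply, ← tco_sub]
    refine Finset.sum_congr rfl fun i _ => congrArg _ ?_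
    have hz : ∀ j y, tface i x j ≠ .l y := fun j => hl _
    generalize tface i x = z at hz
    beta_reduce
    by_cases e : ∃ i y, z i = .r y
    · rw [if_pos e, Pi.sub_apply, extM, dif_neg, sub_zero]
      rintro ⟨y, rfl⟩
      obtain ⟨i, y, e⟩ := e
      cases e
    · obtain ⟨y, rfl⟩ := all_m hz fun i y e' => e ⟨i, y, e'⟩
      rw [if_neg e, Pi.sub_apply, extM_m]
      exact (sub_sub_cancel _ _).symm
  · have hr : ∀ i y, x i ≠ .r y := fun i y e => h ⟨i, y, e⟩
    rw [Pi.sub_apply, conn_noR _ hr, sub_zero, ← h1 x hx hr]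
    exact Finset.sum_congr rfl fun i _ => congrArg _ (if_neg fun ⟨_, y, e⟩ => hr _ y e)

end MVAux

theorem contig (φ ψ : K.Hom L) (h : ∀ x y, K.R x y → L.R (φ.f x) (ψ.f y))
    {f : Tup (n + 1) L.V → M} (hf : L.Coc f) : K.Cob (ψ.pull f - φ.pull f) := by
  obtain ⟨b, h1, h2⟩ := MVAux.strong φ.f ψ.f φ.smul ψ.smul hf.1
  refine ⟨b, h1, fun x hx => h2 x fun y hy => hf.2 y fun j k => ?_⟩
  obtain ⟨i, hi | hi⟩ := hy j <;> obtain ⟨i', hi' | hi'⟩ := hy k <;> rw [hi, hi']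
  exacts [φ.rel (hx i i'), h _ _ (hx i i'), L.symm (h _ _ (hx i' i)), ψ.rel (hx i i')]

theorem conn_coc {b : Tup n A.V → M} (hb : A.Coc b) : (dmc a c).Coc (conn a c b) := by
  refine ⟨MVAux.ite_eqv (MVAux.extM_eqv hb.1).tco Flag.Eqv.zero, fun x hx => ?_⟩
  by_cases h : ∃ i y, x i = .r y
  · refine Eq.trans ?_ (congrFun (tco_tco (extM b)) x)
    exact Finset.sum_congr rfl fun i _ => congrArg _
      (MVAux.conn_noL hb (hx.face i) fun j => MVAux.no_l hx h _)
  · exact Finset.sum_eq_zero fun i _ => by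
      rw [MVAux.conn_noR b (x := tface i x) fun j y e => h ⟨_, y, e⟩, smul_zero]

omit [DistribMulAction G M] in
theorem conn_sub (b b' : Tup n A.V → M) : conn a c (b - b') = conn a c b - conn a c b' := by
  have e : extM (L := L) (R := R) (b - b') = extM b - extM b' := by
    funext x
    rw [Pi.sub_apply, extM, extM, extM]
    split_ifs
    exacts [rfl, (sub_self _).symm]
  funext x
  rw [Pi.sub_apply, conn, conn, conn, e, tco_sub]
  split_ifs
  exacts [rfl, (sub_self _).symm]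

omit [DistribMulAction G M] in
theorem conn_pull {a' : A'.Hom L'} {c' : A'.Hom R'} (fL : L.Hom L') (fA : A.Hom A') (fR : R.Hom R')
    (ha : ∀ x, a'.f (fA.f x) = fL.f (a.f x)) (hc : ∀ x, c'.f (fA.f x) = fR.f (c.f x))
    (b : Tup n A'.V → M) :
    (dmcMap fL fA fR ha hc).pull (conn a' c' b) = conn a c (fA.pull b) := by
  classical
  funext x
  refine if_congr (MVAux.has_map _ _ _ x) (Finset.sum_congr rfl fun i _ => congrArg _ ?_) rfl
  rw [← tmap_tface]
  generalize tface i x = z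
  by_cases e : ∃ y, z = tmap .m y
  · obtain ⟨y, rfl⟩ := e
    exact (MVAux.extM_m b (tmap fA.f y)).trans (MVAux.extM_m (fA.pull b) y).symm
  · rw [extM, extM, dif_neg e, dif_neg]
    rintro ⟨y, hy⟩
    refine e (MVAux.all_m (fun j w h => ?_) fun j w h => ?_) <;>
    · have := congrFun hy j
      rw [tmap, h] at this
      cases this

theorem mv_res {f : Tup (n + 1) (dmc a c).V → M} (hf : (dmc a c).Coc f) :
    A.Cob (a.pull ((inL a c).pull f) - c.pull ((inR a c).pull f)) := by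
  refine ((contig ((inR a c).comp c) (inM a c) (fun _ _ h => c.rel h) hf).sub
    (contig ((inL a c).comp a) (inM a c) (fun _ _ h => a.rel h) hf)).congr fun x _ => ?_
  exact sub_sub_sub_cancel_left _ _ _

theorem mv_basic {f : Tup (n + 2) (dmc a c).V → M} (hf : (dmc a c).Coc f)
    (hL : L.Cob ((inL a c).pull f)) (hR : R.Cob ((inR a c).pull f)) :
    ∃ b : Tup (n + 1) A.V → M, A.Coc b ∧ (dmc a c).Cob (f - conn a c b) := by
  obtain ⟨BL, h1, h2⟩ := MVAux.sideL.cob hf hL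
  obtain ⟨BR, h3, h4⟩ := MVAux.sideR.cob hf hR
  refine ⟨_, ⟨(h3.sub h1).pull _, fun y hy => ?_⟩, MVAux.glue h1 h3 h2 h4⟩
  rw [Flag.Hom.tco_pull, tco_sub, Flag.Hom.pull, Pi.sub_apply,
    h2 _ (hy.map _) fun _ _ => DV.noConfusion rfl rfl rfl ∘ heq_of_eq,
    h4 _ (hy.map _) fun _ _ => DV.noConfusion rfl rfl rfl ∘ heq_of_eq, sub_self]

theorem mv_iff {b : Tup (n + 1) A.V → M} (hb : A.Coc b) :
    (dmc a c).Cob (conn a c b) ↔ ∃ (βL : Tup (n + 1) L.V → M) (βR : Tup (n + 1) R.V → M),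
      L.Coc βL ∧ R.Coc βR ∧ A.Cob (b - (a.pull βL - c.pull βR)) := by
  constructor
  · rintro ⟨β, h1, h2⟩
    have h3 : ∀ x, (dmc a c).Clq x → (∀ i y, x i ≠ .r y) → tco β x = 0 := fun x hx h => by
      rw [h2 x hx, MVAux.conn_noR b h]
    have h4 : ∀ x, (dmc a c).Clq x → (∀ i y, x i ≠ .l y) → tco (β - extM b) x = 0 :=
      fun x hx h => by rw [tco_sub, Pi.sub_apply, h2 x hx, MVAux.conn_noL hb hx h, sub_self]
    have h5 := h1.sub (MVAux.extM_eqv hb.1)
    obtain ⟨u, u1, u2⟩ := MVAux.strong _ _ ((inL a c).comp a).smul (inM a c).smul h1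
    obtain ⟨v, v1, v2⟩ := MVAux.strong _ _ ((inR a c).comp c).smul (inM a c).smul h5
    refine ⟨(inL a c).pull β, (inR a c).pull (β - extM b),
      ⟨h1.pull _, fun x hx => h3 _ (hx.map _) fun _ _ e => by cases e⟩,
      ⟨h5.pull _, fun x hx => h4 _ (hx.map _) fun _ _ e => by cases e⟩,
      u - v, u1.sub v1, fun x hx => ?_⟩
    rw [tco_sub, Pi.sub_apply, u2 x fun y hy => h3 y (fun j k => ?_) fun j z e => ?_,
      v2 x fun y hy => h4 y (fun j k => ?_) fun j z e => ?_, Pi.sub_apply β (extM b)]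
    · have e : extM b (tmap (inM a c).f x) = b x := MVAux.extM_m b x
      rw [e]
      exact (fun _ _ _ _ => by abel : ∀ p q r t : M, p - q - (p - r - t) = r - (q - t)) _ _ _ _
    · obtain ⟨i, hi | hi⟩ := hy j <;> obtain ⟨i', hi' | hi'⟩ := hy k <;> rw [hi, hi']
      exacts [c.rel (hx i i'), c.rel (hx i i'), c.rel (hx i i'), hx i i']
    · obtain ⟨i, hi | hi⟩ := hy j <;> cases hi.symm.trans e
    · obtain ⟨i, hi | hi⟩ := hy j <;> obtain ⟨i', hi' | hi'⟩ := hy k <;> rw [hi, hi']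
      exacts [a.rel (hx i i'), a.rel (hx i i'), a.rel (hx i i'), hx i i']
    · obtain ⟨i, hi | hi⟩ := hy j <;> cases hi.symm.trans e
  · rintro ⟨βL, βR, hL, hR, γ, h1, h2⟩
    obtain ⟨BL, l1, l2, l3⟩ := (MVAux.sideL (a := a) (c := c)).coc hL
    obtain ⟨BR, r1, r2, r3⟩ := (MVAux.sideR (a := a) (c := c)).coc hR
    refine (MVAux.glue (f := 0) (l1.add (MVAux.extM_eqv h1).tco).neg r1.neg (fun x hx h => ?_)
      fun x hx h => ?_).neg.congr fun x hx => ?_
    · rw [tco_neg, tco_add, tco_tco, add_zero, Pi.neg_apply, l3 x hx h]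
      exact neg_zero
    · rw [tco_neg, Pi.neg_apply, r3 x hx h]
      exact neg_zero
    · rw [zero_sub, neg_neg]
      refine MVAux.conn_congr (fun y hy => ?_) hx
      have e1 := l2 (tmap .m y) (tmap a.f y) rfl
      have e2 := r2 (tmap .m y) (tmap c.f y) rfl
      have e3 := (MVAux.tco_extM (L := L) (R := R) γ y).trans (h2 y hy)
      show -BR (tmap .m y) - -(BL (tmap .m y) + tco (extM γ) (tmap .m y)) = b y
      rw [e1, e2, e3]
      show _ - -(_ + (b y - (βL (tmap a.f y) - βR (tmap c.f y)))) = _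
      abel

theorem van_dmc (hL : L.Van M (n + 1)) (hR : R.Van M (n + 1))
    (hA : ∀ b : Tup (n + 1) A.V → M, A.Coc b →
      ∃ (βL : Tup (n + 1) L.V → M) (βR : Tup (n + 1) R.V → M),
        L.Coc βL ∧ R.Coc βR ∧ A.Cob (b - (a.pull βL - c.pull βR))) :
    (dmc a c).Van M (n + 1) := fun f hf => by
  obtain ⟨b, hb, h⟩ := mv_basic hf (hL _ (hf.pull _)) (hR _ (hf.pull _))
  simpa using h.add ((mv_iff hb).2 (hA b hb))

theorem van_dmc' (hL : L.Van M (n + 1)) (hR : R.Van M (n + 1)) (hA : A.Van M n) :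
    (dmc a c).Van M (n + 1) :=
  van_dmc hL hR fun b hb => ⟨0, 0, Flag.Coc.zero, Flag.Coc.zero,
    (hA b hb).congr fun x _ => by simp [Flag.Hom.pull]⟩

theorem van_disc (D : Type) [MulAction G D] (k : ℕ) : (disc G D).Van M k := by
  intro f hf
  refine ⟨fun x => f (tcons (x 0) x), fun g x => ?_, fun x hx => ?_⟩
  · exact (congrArg f (tmap_tcons (g • ·) (x 0) x).symm).trans (hf.1 g _)
  · have h1 : ∀ i, tcons (x 0) x i = x 0 := Fin.cases rfl fun i => hx i 0
    have h2 := hf.2 (tcons (x 0) x) fun i j => (h1 i).trans (h1 j).symm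
    rw [tco_tcons, sub_eq_zero] at h2
    rw [h2]
    exact Finset.sum_congr rfl fun i _ =>
      congrArg (fun v => _ • f (tcons v (tface i x))) (hx _ 0)

theorem van_graph (Γ : Gr G) (k : ℕ) : Γ.flag.Van M (k + 1) :=
  van_dmc' (van_disc _ _) (van_disc _ _) (van_disc _ _)

end Vale.Agent.P246
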