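import Vale.Agent.P246.Fat
import Vale.Agent.P246.MV
import Vale.Agent.P246.Deg1

/-! Forests, Cayley graphs and thick circles. -/

namespace Vale.Agent.P246

variable {G : Type} [Group G] {S : Type} [DecidableEq S] {M : Type*} [AddCommGroup M]
  [DistribMulAction G M]

/-- Dropping the last letter of a reduced word. -/
theorem forestAux_last (u : FreeGroup S) (h : u ≠ 1) : ∃ (u' : FreeGroup S) (s : S),
    u'.norm < u.norm ∧ (u = u' * FreeGroup.of s ∨ u' = u * FreeGroup.of s) := by
  have h0 : u.toWord ≠ [] := fun e => h (FreeGroup.toWord_eq_nil_iff.1 e)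
  obtain ⟨l, ⟨s, b⟩, e⟩ := (List.eq_nil_or_concat' u.toWord).resolve_left h0
  have h1 : u = FreeGroup.mk l * FreeGroup.mk [(s, b)] := by
    rw [FreeGroup.mul_mk, ← e, FreeGroup.mk_toWord]
  have h2 : (FreeGroup.mk l).norm < u.norm := by
    refine FreeGroup.norm_mk_le.trans_lt ?_
    rw [FreeGroup.norm, e]
    simp
  refine ⟨FreeGroup.mk l, s, h2, ?_⟩
  cases b
  · right
    have h3 : FreeGroup.mk [(s, false)] = (FreeGroup.of s)⁻¹ := rfl
    rw [h1, h3, inv_mul_cancel_right]
  · exact Or.inl h1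

theorem forestAux_reach (L : ℕ) (κ : Type) (g : G) (i : κ) (u : Ball S L) :
    Relation.ReflTransGen (forest G S L κ).flag.R (.l ⟨g, Ball.one L, i⟩) (.l ⟨g, u, i⟩) := by
  obtain ⟨u, hu⟩ := u
  induction hn : u.norm using Nat.strong_induction_on generalizing u with
  | _ n ih =>
    by_cases h : u = 1
    · subst h
      exact Relation.ReflTransGen.refl
    · obtain ⟨u', s, h1, h2⟩ := forestAux_last u h
      have hu' : u'.norm ≤ L := h1.le.trans hu
      refine (ih _ (hn ▸ h1) u' hu' rfl).trans ?_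
      rcases h2 with h2 | h2
      · subst h2
        exact (forest G S L κ).reach_edge ⟨g, ⟨(u', s), hu', hu⟩, i⟩
      · subst h2
        exact Flag.reach_symm ((forest G S L κ).reach_edge ⟨g, ⟨(u, s), hu, hu'⟩, i⟩)

theorem forest_fibConn (L : ℕ) (κ : Type) : (forestComp (G := G) (S := S) L (id : κ → κ)).FibConn := by
  have key : ∀ x : (forest G S L κ).flag.V, Relation.ReflTransGen (forest G S L κ).flag.R x
      (.l ⟨((forestComp (G := G) (S := S) L (id : κ → κ)).f x).g, Ball.one L,
        ((forestComp (G := G) (S := S) L (id : κ → κ)).f x).a⟩) := by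
    intro x
    rcases reach_left (forest G S L κ).fold_surj x with ⟨y, rfl⟩ | ⟨y, h, e⟩
    · exact Flag.reach_symm (forestAux_reach L κ y.g y.a.2 y.a.1)
    · refine h.trans ?_
      rcases e with rfl | rfl <;> rcases y with y | y <;>
        exact Flag.reach_symm (forestAux_reach L κ y.g y.a.2 _)
  intro a b h
  exact (key a).trans (h ▸ Flag.reach_symm (key b))

theorem forest_van (L : ℕ) (κ : Type) (k : ℕ) : (forest G S L κ).flag.Van M k := by
  cases k with
  | succ k => exact van_graph _ k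
  | zero =>
    intro f hf
    obtain ⟨lab, hlab⟩ : ∃ lab : κ → FreeGroup S → S → Multiplicative M, ∀ i (e : BallE S L),
        lab i e.1.1 e.1.2 = Multiplicative.ofAdd ((forest G S L κ).hol f ⟨1, e, i⟩) :=
      ⟨fun i u s => if h : u.norm ≤ L ∧ (u * FreeGroup.of s).norm ≤ L then
        Multiplicative.ofAdd ((forest G S L κ).hol f ⟨1, ⟨(u, s), h⟩, i⟩) else 1,
        fun i e => dif_pos e.2⟩
    obtain ⟨φ', h, -⟩ := (forest G S L κ).apot hf
      (φ := fun x => x.g • (P173.ev FreeGroup.of (lab x.a.2) 1 x.a.1.1).toAdd)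
      (fun g v => mul_smul g _ _) (fun e => by
        obtain ⟨g, e, i⟩ := e
        have h1 := (forest G S L κ).hol_smul hf.1 g ⟨1, e, i⟩
        rw [Ind.smul_mk, mul_one] at h1
        rw [h1, ← smul_sub]
        congr 1
        dsimp only
        rw [P173.ev_mul, P173.ev_of, toAdd_mul, FreeGroup.lift_of_eq_id, one_mul,
          MonoidHom.id_apply, hlab, toAdd_ofAdd, add_sub_cancel_left])
    exact Flag.cob_iff.2 ⟨φ', h⟩

theorem forest_cov (L : ℕ) (κ : Type) : (forest G S L κ).flag.Cov :=
  (forest G S L κ).cov (cov_ind _) (cov_ind _)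

theorem forestAux_fin [Finite S] (L : ℕ) : Finite (Ball S L) := by
  have := (List.finite_length_le (S × Bool) L).to_subtype
  exact Finite.of_injective
    (fun u : Ball S L => (⟨u.1.toWord, u.2⟩ : {l : List (S × Bool) | l.length ≤ L}))
    fun u v h => Subtype.ext (FreeGroup.toWord_injective (congrArg Subtype.val h))

theorem forestAux_finE [Finite S] (L : ℕ) : Finite (BallE S L) := by
  have := forestAux_fin (S := S) L
  exact Finite.of_injective (fun e : BallE S L => ((⟨e.1.1, e.2.1⟩ : Ball S L), e.1.2))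
    fun u v h => Subtype.ext (Prod.ext (congrArg (fun z => z.1.1) h) (Prod.ext_iff.1 h).2)

theorem forest_cofin [Finite S] (L : ℕ) (κ : Type) [Finite κ] : (forest G S L κ).flag.Cofin := by
  have := forestAux_fin (S := S) L
  have := forestAux_finE (S := S) L
  exact (forest G S L κ).cofin (cofin_ind _) (cofin_ind _)

omit [DecidableEq S] in
theorem cay_cov (μ : S → G) : (cay μ).flag.Cov :=
  (cay μ).cov (cov_disc fun _ _ h => mul_eq_right.1 h) (cov_ind _)

omit [DecidableEq S] in
theorem cay_cofin [Finite S] (μ : S → G) : (cay μ).flag.Cofin :=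
  (cay μ).cofin ⟨{1}, Set.finite_singleton _, fun a => ⟨a⁻¹, inv_mul_cancel a⟩⟩ (cofin_ind _)

omit [DecidableEq S] in
theorem forestAux_cay (μ : S → G) (w : FreeGroup S) (g : G) :
    Relation.ReflTransGen (cay μ).flag.R (.l g) (.l (g * FreeGroup.lift μ w)) := by
  induction w using FreeGroup.induction_on generalizing g with
  | C1 =>
    rw [map_one, mul_one]
  | of s =>
    rw [FreeGroup.lift_apply_of]
    exact (cay μ).reach_edge ⟨g, s⟩
  | inv_of s ih =>
    have h := ih (g * FreeGroup.lift μ (FreeGroup.of s)⁻¹)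
    rw [mul_assoc, ← map_mul, inv_mul_cancel, map_one, mul_one] at h
    exact Flag.reach_symm h
  | mul x y hx hy =>
    rw [map_mul, ← mul_assoc]
    exact (hx g).trans (hy _)

omit [DecidableEq S] in
theorem cay_conn {μ : S → G} (h : Function.Surjective (FreeGroup.lift μ)) : (cay μ).flag.Conn := by
  have k1 : ∀ g : G, Relation.ReflTransGen (cay μ).flag.R (.l g) (.l 1) := fun g => by
    obtain ⟨w, rfl⟩ := h g
    have := forestAux_cay μ w 1
    rw [one_mul] at this
    exact Flag.reach_symm this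
  have key : ∀ x : (cay μ).flag.V, Relation.ReflTransGen (cay μ).flag.R x (.l 1) := by
    intro x
    rcases reach_left (cay μ).fold_surj x with ⟨y, rfl⟩ | ⟨y, h, -⟩
    · exact k1 y
    · exact h.trans (k1 _)
  exact ⟨⟨.l 1⟩, fun a b => (key a).trans (Flag.reach_symm (key b))⟩

namespace Fat

variable {μ : S → G} (A : Fat μ)

theorem cov : A.flag.Cov := cov_dmc (forest_cov _ _) (forest_cov _ _) (forest_cov _ _)

theorem cofin [Finite S] [Finite A.κ] [Finite A.ι] : A.flag.Cofin :=
  cofin_dmc (forest_cofin _ _) (forest_cofin _ _) (forest_cofin _ _)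

theorem comp_surj : Function.Surjective A.comp.f :=
  fun x => ⟨.l (.l ⟨x.g, Ball.one _, x.a⟩), rfl⟩

theorem forestAux_c_surj (h : Function.Surjective A.π) : Function.Surjective A.c.f := by
  have hv : ∀ x : (forest G S A.LB A.κ).V, ∃ y,
      (forestMap (G := G) (L := A.LB) (L' := A.LB) (fun _ => (1 : FreeGroup S)) (fun _ => 1) A.π
        fun _ => by simp).v y = x := by
    rintro ⟨g, u, i⟩
    obtain ⟨j, rfl⟩ := h i
    exact ⟨⟨g, u, j⟩, by simp [forestMap]⟩
  have he : ∀ x : (forest G S A.LB A.κ).E, ∃ y,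
      (forestMap (G := G) (L := A.LB) (L' := A.LB) (fun _ => (1 : FreeGroup S)) (fun _ => 1) A.π
        fun _ => by simp).e y = x := by
    rintro ⟨g, u, i⟩
    obtain ⟨j, rfl⟩ := h i
    exact ⟨⟨g, u, j⟩, by simp [forestMap]⟩
  rintro (x | (x | x) | x)
  · obtain ⟨y, rfl⟩ := hv x
    exact ⟨.l y, rfl⟩
  · obtain ⟨y, rfl⟩ := he x
    exact ⟨.m (.inl y), rfl⟩
  · obtain ⟨y, rfl⟩ := he x
    exact ⟨.m (.inr y), rfl⟩
  · obtain ⟨y, rfl⟩ := he x
    exact ⟨.r y, rfl⟩

theorem fibConn (h : Function.Surjective A.π) : A.comp.FibConn :=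
  fibConn_desc _ _ _ (forest_fibConn _ _) (A.forestAux_c_surj h)

theorem van (k : ℕ) : A.flag.Van M (k + 1) :=
  van_dmc' (forest_van _ _ _) (forest_van _ _ _) (forest_van _ _ _)

end Fat

end Vale.Agent.P246
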