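import Vale.Agent.P246.Real

/-! A finite simplicial complex is a finite CW complex. -/

open Set Topology

namespace Vale.Agent.P246

section
open Metric Filter

theorem geoAux_disc (n : ℕ) : ∃ h : (Fin n → ℝ) ≃ₜ (Fin n → ℝ),
    (∀ z, h z ∈ ball 0 1 ↔ (∀ i, 0 < z i) ∧ ∑ i, z i < 1) ∧
    ∀ z, h z ∈ closedBall 0 1 ↔ (∀ i, 0 ≤ z i) ∧ ∑ i, z i ≤ 1 := by
  let O : Set (Fin n → ℝ) := {z | (∀ i, 0 < z i) ∧ ∑ i, z i < 1}
  have hs : Continuous fun z : Fin n → ℝ => ∑ i, z i := by fun_prop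
  have hO : IsOpen O := by
    refine IsOpen.and ?_ (isOpen_lt hs continuous_const)
    rw [ofPred_forall]
    exact isOpen_iInter_of_finite fun i => isOpen_lt continuous_const (continuous_apply i)
  have hmix : ∀ z z' : Fin n → ℝ, ((∀ i, 0 ≤ z i) ∧ ∑ i, z i ≤ 1) → z' ∈ O → ∀ a b : ℝ, 0 ≤ a →
      0 < b → a + b = 1 → a • z + b • z' ∈ O := fun z z' hz hz' a b ha hb hab => by
    refine ⟨fun i => add_pos_of_nonneg_of_pos (mul_nonneg ha (hz.1 i)) (mul_pos hb (hz'.1 i)), ?_⟩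
    simp only [Pi.add_apply, Pi.smul_apply, smul_eq_mul, Finset.sum_add_distrib, ← Finset.mul_sum]
    nlinarith [mul_le_mul_of_nonneg_left hz.2 ha, mul_lt_mul_of_pos_left hz'.2 hb]
  have hcv : Convex ℝ O := fun z hz z' hz' a b ha hb hab => by
    rcases hb.eq_or_lt with rfl | hb
    · rw [add_zero] at hab
      simpa [hab] using hz
    · exact hmix z z' ⟨fun i => (hz.1 i).le, hz.2.le⟩ hz' a b ha hb hab
  have h0 : (fun _ => 1 / ((n : ℝ) + 1)) ∈ O := by
    refine ⟨fun _ => by positivity, ?_⟩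
    rw [Finset.sum_const, Finset.card_univ, Fintype.card_fin, nsmul_eq_mul, mul_one_div,
      div_lt_one (by positivity)]
    exact lt_add_one _
  have hcl : closure O = {z | (∀ i, 0 ≤ z i) ∧ ∑ i, z i ≤ 1} := by
    refine Subset.antisymm (closure_minimal (fun z hz => ⟨fun i => (hz.1 i).le, hz.2.le⟩) ?_)
      fun z hz => ?_
    · refine IsClosed.and ?_ (isClosed_le hs continuous_const)
      rw [ofPred_forall]
      exact isClosed_iInter fun i => isClosed_le continuous_const (continuous_apply i)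
    · have hc : Continuous fun t : ℝ => (1 - t) • z + t • fun _ : Fin n => 1 / ((n : ℝ) + 1) := by
        fun_prop
      refine mem_closure_of_tendsto (b := 𝓝[>] (0 : ℝ))
        ((hc.tendsto' 0 z (by simp)).mono_left nhdsWithin_le_nhds) ?_
      filter_upwards [Ioo_mem_nhdsGT one_pos] with t ht
      exact hmix z _ hz h0 _ _ (sub_nonneg.2 ht.2.le) ht.1 (sub_add_cancel 1 t)
  have hb : Bornology.IsBounded O := (isBounded_closedBall (x := 0) (r := 1)).subset fun z hz => by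
    rw [mem_closedBall_zero_iff, pi_norm_le_iff_of_nonneg zero_le_one]
    intro i
    rw [Real.norm_of_nonneg (hz.1 i).le]
    exact (Finset.single_le_sum (fun j _ => (hz.1 j).le) (Finset.mem_univ i)).trans hz.2.le
  obtain ⟨h, h1, h2, -⟩ := exists_homeomorph_image_interior_closure_frontier_eq_unitBall hcv
    ⟨_, hO.interior_eq.symm ▸ h0⟩ hb
  rw [hO.interior_eq] at h1
  rw [hcl] at h2
  refine ⟨h, fun z => ?_, fun z => ?_⟩
  · rw [← h1, h.injective.mem_set_image]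
    rfl
  · rw [← h2, h.injective.mem_set_image]
    rfl

theorem geoAux_cell {P : Type} [Fintype P] {𝒦 : Set (Finset P)} [Nonempty (geo 𝒦)] {n : ℕ}
    {t : Finset P} (ht : t.card = n + 1) {s : Finset P} (hs : s ∈ 𝒦) (hts : t ⊆ s) :
    ∃ φ : PartialEquiv (Fin n → ℝ) (geo 𝒦), φ.source = ball 0 1 ∧
      ContinuousOn φ (closedBall 0 1) ∧ ContinuousOn φ.symm φ.target ∧
      φ.target = {y | ∀ a, y.1 a ≠ 0 ↔ a ∈ t} ∧
      ∀ x ∈ sphere (0 : Fin n → ℝ) 1, (∀ a, (φ x).1 a ≠ 0 → a ∈ t) ∧ ∃ a ∈ t, (φ x).1 a = 0 := by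
  classical
  obtain ⟨h, h1, h2⟩ := geoAux_disc n
  let e : Fin (n + 1) → P := fun i => ((t.equivFinOfCardEq ht).symm i).1
  have einj : Function.Injective e :=
    Subtype.val_injective.comp (t.equivFinOfCardEq ht).symm.injective
  have emem : ∀ i, e i ∈ t := fun i => ((t.equivFinOfCardEq ht).symm i).2
  have esurj : ∀ a ∈ t, ∃ i, e i = a := fun a ha =>
    ⟨t.equivFinOfCardEq ht ⟨a, ha⟩, by simp [e]⟩
  let w : (Fin n → ℝ) → Fin (n + 1) → ℝ := fun z => Fin.cons (1 - ∑ i, z i) z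
  let emb : (Fin n → ℝ) → P → ℝ := fun z a => ∑ i, if e i = a then w z i else 0
  have emb_e : ∀ z i, emb z (e i) = w z i := fun z i => by simp [emb, einj.eq_iff]
  have emb_out : ∀ z a, a ∉ t → emb z a = 0 := fun z a ha =>
    Finset.sum_eq_zero fun i _ => if_neg fun h : e i = a => ha (h ▸ emem i)
  have emb_in : ∀ z a, emb z a ≠ 0 → a ∈ t := fun z a ha => by_contra fun h => ha (emb_out z a h)
  have emb_c : Continuous emb := by
    refine continuous_pi fun a => continuous_finsetSum _ fun i _ => ?_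
    split_ifs
    · refine Fin.cases ?_ (fun j => continuous_apply j) i
      change Continuous fun z : Fin n → ℝ => 1 - ∑ i, z i
      fun_prop
    · exact continuous_const
  have emb_mem : ∀ z, ((∀ i, 0 ≤ z i) ∧ ∑ i, z i ≤ 1) → emb z ∈ geo 𝒦 := fun z hz => by
    refine ⟨⟨fun a => Finset.sum_nonneg fun i _ => ?_, ?_⟩, s, hs, fun a ha => hts (emb_in z a ha)⟩
    · split_ifs
      · exact Fin.cases (sub_nonneg.2 hz.2) hz.1 i
      · exact le_rfl
    · simp only [emb]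
      rw [Finset.sum_comm]
      simp [w, Fin.sum_univ_succ]
  have hsum : ∀ y : geo 𝒦, (∀ a, y.1 a ≠ 0 ↔ a ∈ t) → 1 - ∑ i : Fin n, y.1 (e i.succ) = y.1 (e 0) := by
    intro y hy
    have h3 : ∑ i, y.1 (e i) = 1 := by
      rw [← y.2.1.2, ← Finset.sum_image (g := e) (f := y.1) fun i _ j _ h => einj h]
      refine Finset.sum_subset (Finset.subset_univ _) fun a _ ha => by_contra fun h => ha ?_
      obtain ⟨i, hi⟩ := esurj a ((hy a).1 h)
      exact Finset.mem_image.2 ⟨i, Finset.mem_univ i, hi⟩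
    rw [Fin.sum_univ_succ] at h3
    linarith
  let f : (Fin n → ℝ) → geo 𝒦 := fun x =>
    if hx : emb (h.symm x) ∈ geo 𝒦 then ⟨_, hx⟩ else Classical.arbitrary _
  have hf : ∀ x ∈ closedBall (0 : Fin n → ℝ) 1, (f x).1 = emb (h.symm x) := fun x hx => by
    simp only [f]
    rw [dif_pos (emb_mem _ ((h2 _).1 (by rwa [h.apply_symm_apply])))]
  have hin : ∀ y : geo 𝒦, (∀ a, y.1 a ≠ 0 ↔ a ∈ t) → h (fun i => y.1 (e i.succ)) ∈ ball 0 1 := by
    intro y hy
    have h3 : ∀ i, 0 < y.1 (e i) := fun i => (y.2.1.1 _).lt_of_ne' ((hy _).2 (emem i))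
    exact (h1 _).2 ⟨fun i => h3 _, by linarith [hsum y hy, h3 0]⟩
  refine ⟨⟨f, fun y => h fun i => y.1 (e i.succ), ball 0 1, {y | ∀ a, y.1 a ≠ 0 ↔ a ∈ t},
    fun x hx a => ?_, hin, fun x hx => ?_, fun y hy => ?_⟩, rfl, ?_, ?_, rfl, fun x hx => ?_⟩
  · rw [hf x (ball_subset_closedBall hx)]
    refine ⟨emb_in _ a, fun ha => ?_⟩
    obtain ⟨i, rfl⟩ := esurj a ha
    have h3 := (h1 (h.symm x)).1 (by rwa [h.apply_symm_apply])
    rw [emb_e]
    exact ne_of_gt (Fin.cases (sub_pos.2 h3.2) h3.1 i)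
  · simp only [hf x (ball_subset_closedBall hx), emb_e]
    exact h.apply_symm_apply x
  · refine Subtype.ext ?_
    rw [hf _ (ball_subset_closedBall (hin y hy)), h.symm_apply_apply]
    funext a
    by_cases ha : a ∈ t
    · obtain ⟨i, rfl⟩ := esurj a ha
      rw [emb_e]
      exact Fin.cases (hsum y hy) (fun _ => rfl) i
    · rw [emb_out _ a ha]
      exact (by_contra fun h => ha ((hy a).1 h) : y.1 a = 0).symm
  · exact IsInducing.subtypeVal.continuousOn_iff.2
      ((emb_c.comp h.symm.continuous).continuousOn.congr hf)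
  · exact (h.continuous.comp (continuous_pi fun i =>
      (continuous_apply _).comp continuous_subtype_val)).continuousOn
  · change (∀ a, (f x).1 a ≠ 0 → a ∈ t) ∧ ∃ a ∈ t, (f x).1 a = 0
    rw [hf x (sphere_subset_closedBall hx)]
    refine ⟨emb_in _, by_contra fun hne => ?_⟩
    have h3 := (h2 (h.symm x)).1 (by rw [h.apply_symm_apply]; exact sphere_subset_closedBall hx)
    have h4 : ∀ i, w (h.symm x) i ≠ 0 := fun i hi => hne ⟨e i, emem i, (emb_e _ i).trans hi⟩
    have h5 := (h1 (h.symm x)).2 ⟨fun i => (h3.1 i).lt_of_ne' (h4 i.succ),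
      h3.2.lt_of_ne fun e => h4 0 (sub_eq_zero.2 e.symm)⟩
    rw [h.apply_symm_apply] at h5
    exact (mem_ball.1 h5).ne (mem_sphere.1 hx)

end

theorem geo_cw {P : Type} [Fintype P] (𝒦 : Set (Finset P)) [Nonempty (geo 𝒦)] :
    ∃ _ : CWComplex (univ : Set (geo 𝒦)), RelCWComplex.Finite (univ : Set (geo 𝒦)) := by
  classical
  let cell : ℕ → Type := fun n => {t : Finset P // t.card = n + 1 ∧ ∃ s ∈ 𝒦, t ⊆ s}
  choose φ h1 h2 h3 h4 h5 using fun n (j : cell n) =>
    geoAux_cell (𝒦 := 𝒦) j.2.1 j.2.2.choose_spec.1 j.2.2.choose_spec.2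
  have him : ∀ n j, φ n j '' Metric.ball 0 1 = {y | ∀ a, y.1 a ≠ 0 ↔ a ∈ j.1} := fun n j => by
    rw [← h1, PartialEquiv.image_source_eq_target, h4]
  have hall : ∀ y : geo 𝒦, ∃ m, ∃ j : cell m, j.1 = Finset.univ.filter (fun a => y.1 a ≠ 0) ∧
      y ∈ φ m j '' Metric.closedBall 0 1 := by
    intro y
    have hne : (Finset.univ.filter fun a => y.1 a ≠ 0).Nonempty := by
      obtain ⟨a, -, ha⟩ := Finset.exists_ne_zero_of_sum_ne_zero (y.2.1.2.trans_ne one_ne_zero)
      exact ⟨a, Finset.mem_filter.2 ⟨Finset.mem_univ a, ha⟩⟩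
    obtain ⟨s, hs, hy⟩ := y.2.2
    refine ⟨_, ⟨_, (Nat.succ_pred_eq_of_pos hne.card_pos).symm, s, hs,
      fun a ha => hy a (Finset.mem_filter.1 ha).2⟩, rfl,
      image_mono Metric.ball_subset_closedBall ?_⟩
    rw [him]
    intro a
    simp
  refine ⟨_, CWComplex.finite_mkFinite univ cell φ ?_ (fun n => inferInstance) h1 h2 h3 ?_ ?_ ?_⟩
  · filter_upwards [Filter.eventually_ge_atTop (Fintype.card P)] with n hn
    exact ⟨fun j => by have := j.1.card_le_univ; have := j.2.1; omega⟩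
  · rintro ⟨n, j⟩ - ⟨n', j'⟩ - hne
    refine disjoint_left.2 fun y hy hy' => hne ?_
    simp only [him] at hy hy'
    have e : j.1 = j'.1 := Finset.ext fun a => (hy a).symm.trans (hy' a)
    obtain rfl : n = n' := by have := j.2.1; have := j'.2.1; rw [e] at *; omega
    rw [Subtype.ext e]
  · intro n j x hx
    obtain ⟨m, j', e, hy⟩ := hall (φ n j x)
    obtain ⟨h6, a, ha, h7⟩ := h5 n j x hx
    have h8 : j'.1 ⊂ j.1 := by
      rw [e]
      exact ⟨fun b hb => h6 b (Finset.mem_filter.1 hb).2,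
        fun h => (Finset.mem_filter.1 (h ha)).2 h7⟩
    have h9 := Finset.card_lt_card h8
    rw [j.2.1, j'.2.1] at h9
    exact mem_iUnion₂.2 ⟨m, by omega, mem_iUnion.2 ⟨j', hy⟩⟩
  · refine eq_univ_of_forall fun y => ?_
    obtain ⟨m, j, -, hy⟩ := hall y
    exact mem_iUnion₂.2 ⟨m, j, hy⟩

end Vale.Agent.P246
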