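import Vale.Agent.P246.Fat

/-! The group, its character and the spherical diagram. -/

namespace Vale.Agent.P246

/-- The generator `x`. -/
def gx : FreeGroup Bool := FreeGroup.of true

/-- The generator `t`. -/
def gt : FreeGroup Bool := FreeGroup.of false

/-- The element `t⁻¹ x³ t`. -/
def gp : FreeGroup Bool := gt⁻¹ * gx ^ 3 * gt

/-- The two relators. -/
def rels : Bool → FreeGroup Bool
  | true => gx ^ 6
  | false => gx ^ 4 * gp * (gx ^ 4)⁻¹ * gp

/-- The group. -/
abbrev GG : Type := PresentedGroup (Set.range rels)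

/-- The generators of the group. -/
def mu : Bool → GG := PresentedGroup.of

theorem lift_mu (w : FreeGroup Bool) : FreeGroup.lift mu w = PresentedGroup.mk _ w :=
  DFunLike.congr_fun (FreeGroup.ext_hom (FreeGroup.lift mu) (PresentedGroup.mk _)
    fun _ => FreeGroup.lift_apply_of) w

theorem mu_rel (b : Bool) : FreeGroup.lift mu (rels b) = 1 := by
  rw [lift_mu]
  exact PresentedGroup.one_of_mem ⟨b, rfl⟩

theorem mu_surj : Function.Surjective (FreeGroup.lift mu) := fun g => by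
  obtain ⟨w, rfl⟩ := PresentedGroup.mk_surjective _ g
  exact ⟨w, lift_mu w⟩

theorem mu_ker (w : FreeGroup Bool) (h : FreeGroup.lift mu w = 1) :
    w ∈ Subgroup.normalClosure (Set.range rels) := by
  rw [lift_mu] at h
  exact PresentedGroup.mk_eq_one_iff.1 h

theorem mu_pow : mu true ^ 6 = 1 := by
  simpa [rels, gx] using mu_rel true

theorem exists_psi : ∃ ψ : GG →* ℂˣ, ψ (mu true) ≠ 1 ∧
    ∀ [DistribMulAction GG ℂ], (∀ (g : GG) (z : ℂ), g • z = ψ g * z) →
      ∀ m : ℂ, ∃ η : Bool → ℂ, fox mu η (rels true) = 0 ∧ fox mu η (rels false) = m := by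
  have hζ := Complex.isPrimitiveRoot_exp 6 (by norm_num)
  generalize Complex.exp _ = ζ at hζ
  have h0 : ζ ≠ 0 := hζ.ne_zero (by norm_num)
  have h6 : Units.mk0 ζ h0 ^ 6 = 1 := Units.ext hζ.pow_eq_one
  have hr : ∀ r ∈ Set.range rels, FreeGroup.lift (fun b => cond b (Units.mk0 ζ h0) 1) r = 1 := by
    rintro _ ⟨_ | _, rfl⟩
    · simp only [rels, gp, gx, gt, map_mul, map_inv, map_pow, FreeGroup.lift_apply_of, cond_true,
        cond_false, inv_one, one_mul, mul_one, mul_inv_cancel_comm]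
      rw [← pow_add, h6]
    · simp only [rels, gx, map_pow, FreeGroup.lift_apply_of, cond_true, h6]
  have e1 : PresentedGroup.toGroup hr (mu true) = Units.mk0 ζ h0 := PresentedGroup.toGroup.of hr
  have e2 : PresentedGroup.toGroup hr (mu false) = 1 := PresentedGroup.toGroup.of hr
  refine ⟨PresentedGroup.toGroup hr, fun h => hζ.ne_one (by norm_num) ?_, fun hs m => ?_⟩
  · exact congrArg Units.val (e1.symm.trans h)
  have h1 : ζ + 1 ≠ 0 := fun h => hζ.pow_ne_one_of_pos_of_lt (l := 2) (by norm_num) (by norm_num)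
    (by linear_combination (ζ - 1) * h)
  have h3 : ζ ^ 3 - 1 ≠ 0 :=
    sub_ne_zero.2 (hζ.pow_ne_one_of_pos_of_lt (by norm_num) (by norm_num))
  obtain ⟨e, he⟩ : ∃ e, ζ ^ 3 * (ζ + 1) * (ζ ^ 3 - 1) * e = m :=
    ⟨_, mul_div_cancel₀ m (mul_ne_zero (mul_ne_zero (pow_ne_zero 3 h0) h1) h3)⟩
  have hx : ∀ k : ℕ, fox mu (fun b => cond b 0 e) (gx ^ k) = 0 := fun k => by
    induction k with
    | zero => simp
    | succ k ih => rw [pow_succ, fox_mul, ih, gx, fox_of]; simp
  refine ⟨fun b => cond b 0 e, hx 6, ?_⟩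
  simp only [rels, gp, fox_mul, fox_inv, hx, gt, fox_of, hs, map_mul, map_inv, map_pow]
  simp only [gx, FreeGroup.lift_apply_of, e1, e2, cond_false, inv_one, one_mul, mul_one,
    mul_inv_cancel_comm, Units.val_pow_eq_pow_val, Units.val_mk0, Units.val_one]
  linear_combination he

theorem grpAux_grp {H : Type*} [Group H] (x t : H)
    (h1 : x ^ 4 * (t⁻¹ * x ^ 3 * t) * (x ^ 4)⁻¹ * (t⁻¹ * x ^ 3 * t) = 1)
    (h2 : Commute (x ^ 6) (t⁻¹ * x ^ 6 * t)) : x ^ 6 = 1 := by
  have k : ∀ n : ℕ, (t⁻¹ * x ^ 3 * t) ^ n = t⁻¹ * x ^ (3 * n) * t := fun n => by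
    simpa [pow_mul] using conj_pow (a := t⁻¹) (b := x ^ 3) (i := n)
  have k' : ∀ n : ℕ, (t⁻¹ * x ^ 3 * t) ^ n = 1 → x ^ (3 * n) = 1 := fun n h => by
    rw [k, mul_eq_one_iff_eq_inv, mul_eq_left] at h
    exact h
  rw [← k 2] at h2
  generalize t⁻¹ * x ^ 3 * t = p at *
  have e1 : SemiconjBy (x ^ 4) p p⁻¹ := by
    rw [SemiconjBy, ← mul_inv_eq_iff_eq_mul, eq_inv_iff_mul_eq_one, h1]
  have e2 : SemiconjBy (x ^ 4) p⁻¹ p := by simpa using e1.inv_right
  have e3 : SemiconjBy ((x ^ 6) ^ 2) p p⁻¹ := by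
    have := (e1.mul_left e2).mul_left e1
    rwa [← pow_add, ← pow_add, show 4 + 4 + 4 = 6 * 2 from rfl, pow_mul] at this
  have e4 : p ^ 2 = p⁻¹ ^ 2 :=
    mul_right_cancel ((h2.pow_left 2).eq.symm.trans (e3.pow_right 2).eq)
  have e5 : (x ^ 6) ^ 2 = 1 := by
    rw [← pow_mul]
    refine k' 4 ?_
    rw [show 4 = 2 + 2 from rfl, pow_add, mul_eq_one_iff_eq_inv, ← inv_pow, ← e4]
  refine k' 2 ?_
  have e6 := e3.eq
  rw [e5, one_mul, mul_one] at e6
  rw [sq, mul_eq_one_iff_eq_inv, ← e6]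

/-- A conjugate of a relator together with its class. -/
noncomputable def grpAux_phi (z : FreeGroup Bool × Bool × Bool) :
    FreeGroup Bool × Multiplicative (MonoidAlgebra ℤ GG) :=
  (z.1 * (if z.2.2 then rels z.2.1 else (rels z.2.1)⁻¹) * z.1⁻¹, Multiplicative.ofAdd
    (if z.2.1 then MonoidAlgebra.single (FreeGroup.lift mu z.1) (if z.2.2 then 1 else -1) else 0))

theorem grpAux_inv (z : FreeGroup Bool × Bool × Bool) :
    grpAux_phi (z.1, z.2.1, !z.2.2) = (grpAux_phi z)⁻¹ := by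
  obtain ⟨f, _ | _, _ | _⟩ := z <;>
    simp [grpAux_phi, mul_assoc, ← ofAdd_neg, MonoidAlgebra.single_neg]

/-- The products of conjugates of relators together with their classes. -/
noncomputable def grpAux_R : Subgroup (FreeGroup Bool × Multiplicative (MonoidAlgebra ℤ GG)) where
  carrier := {k | ∃ l : List (FreeGroup Bool × Bool × Bool), (l.map grpAux_phi).prod = k}
  one_mem' := ⟨[], rfl⟩
  mul_mem' := by
    rintro _ _ ⟨l, rfl⟩ ⟨l', rfl⟩
    exact ⟨l ++ l', by simp⟩
  inv_mem' := by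
    rintro _ ⟨l, rfl⟩
    refine ⟨(l.map fun z => (z.1, z.2.1, !z.2.2)).reverse, ?_⟩
    rw [List.prod_inv_reverse, List.map_reverse, List.map_map, List.map_map]
    exact congrArg (fun f => (l.map f).reverse.prod) (funext grpAux_inv)

theorem grpAux_mem (z : FreeGroup Bool × Bool × Bool) : grpAux_phi z ∈ grpAux_R :=
  ⟨[z], by simp⟩

instance grpAux_normal : (grpAux_R.comap (MonoidHom.inl _ _)).Normal := by
  refine ⟨fun γ ⟨l, hl⟩ f => ⟨l.map fun z => (f * z.1, z.2), ?_⟩⟩
  let c := (MulAut.conj f).toMonoidHom.prodMap (AddMonoidHom.toMultiplicative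
    (AddMonoidHom.mulLeft (MonoidAlgebra.single (FreeGroup.lift mu f) (1 : ℤ))))
  have e : ∀ z : FreeGroup Bool × Bool × Bool, grpAux_phi (f * z.1, z.2) = c (grpAux_phi z) := by
    rintro ⟨g, _ | _, b⟩ <;> simp [c, grpAux_phi, mul_assoc, MonoidAlgebra.single_mul_single]
  rw [List.map_map, show (grpAux_phi ∘ fun z => (f * z.1, z.2)) = c ∘ grpAux_phi from funext e,
    ← List.map_map, ← map_list_prod, hl]
  simp [c]

theorem grpAux_six : gx ^ 6 ∈ grpAux_R.comap (MonoidHom.inl _ _) := by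
  rw [← QuotientGroup.eq_one_iff, QuotientGroup.mk_pow]
  refine grpAux_grp _ (gt : _ ⧸ grpAux_R.comap (MonoidHom.inl _ _)) ?_ ?_
  · refine (QuotientGroup.eq_one_iff (rels false)).2 ?_
    simpa [grpAux_phi] using grpAux_mem (1, false, true)
  · have a := grpAux_mem (1, true, true)
    have b := grpAux_mem (gt⁻¹, true, true)
    refine commutatorElement_eq_one_iff_commute.1 ((QuotientGroup.eq_one_iff
      (gx ^ 6 * (gt⁻¹ * gx ^ 6 * gt) * (gx ^ 6)⁻¹ * (gt⁻¹ * gx ^ 6 * gt)⁻¹)).2 ?_)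
    have := mul_mem (mul_mem (mul_mem a b) (inv_mem a)) (inv_mem b)
    simpa [grpAux_phi, rels] using this

/-- The trivial word is a product of conjugates of the relators in which the first relator occurs
algebraically once. -/
theorem exists_list : ∃ l : List (FreeGroup Bool × Bool × Bool),
    (l.map fun z => z.1 * (if z.2.2 then rels z.2.1 else (rels z.2.1)⁻¹) * z.1⁻¹).prod = 1 ∧
    (l.map fun z => if z.2.1 then
      (MonoidAlgebra.single (FreeGroup.lift mu z.1) (if z.2.2 then 1 else -1) : MonoidAlgebra ℤ GG)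
      else 0).sum = 1 := by
  obtain ⟨l, hl⟩ := mul_mem (inv_mem (Subgroup.mem_comap.1 grpAux_six)) (grpAux_mem (1, true, true))
  refine ⟨l, ?_, ?_⟩
  · have := congrArg (MonoidHom.fst _ _) hl
    rw [map_list_prod, List.map_map] at this
    refine this.trans ?_
    simp [grpAux_phi, rels]
  · have := congrArg (fun k => (MonoidHom.snd _ _ k).toAdd) hl
    simp only [map_list_prod, toAdd_list_sum, List.map_map] at this
    refine this.trans ?_
    simp [grpAux_phi, MonoidAlgebra.one_def]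

end Vale.Agent.P246
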