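import Vale.Agent.P246.Chain

/-! From vanishing of equivariant cohomology to vanishing of singular homology. -/

open CategoryTheory

namespace Vale.Agent.P246

theorem homLinkAux_coind (G E : Type) [Group G] [TopologicalSpace E] [MulAction G E]
    [ContinuousConstSMul G E] (k : ℕ)
    (h : ∀ (M : Type) [AddCommGroup M] [DistribMulAction G M], SVan G E M k) {A : Type}
    [AddCommGroup A] (f : C(Sx (k + 1), E) → A) (hf : cobd f = 0) :
    ∃ b : C(Sx k, E) → A, cobd b = f := by
  let _ : DistribMulAction G (G → A) :=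
    { smul := fun a φ g => φ (g * a)
      one_smul := fun φ => funext fun g => congrArg φ (mul_one g)
      mul_smul := fun a b φ => funext fun g => congrArg φ (mul_assoc g a b).symm
      smul_zero := fun _ => rfl
      smul_add := fun _ _ _ => rfl }
  have e : ∀ {n : ℕ} (b : C(Sx n, E) → G → A) (σ : C(Sx (n + 1), E)) (g : G),
      cobd b σ g = cobd (fun τ => b τ g) σ := fun b σ g => by
    simp only [cobd, Finset.sum_apply]
    rfl
  obtain ⟨b, -, hb⟩ := h (G → A) (fun σ g => f (g • σ))
    (fun a σ => funext fun g => congrArg f (mul_smul g a σ).symm)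
    (funext fun σ => funext fun g => by
      rw [e]
      exact congrFun hf (g • σ))
  refine ⟨fun τ => b τ 1, funext fun σ => ?_⟩
  rw [← e, hb]
  exact congrArg f (one_smul G σ)

open Limits AlgebraicTopology Simplicial Opposite in
/-- The chain of a singular simplex in the singular chain complex of Mathlib. -/
noncomputable def homLinkAux_ch {E : Type} [TopologicalSpace E] {n : ℕ} (σ : C(Sx n, E)) :
    ModuleCat.of ℤ ℤ ⟶
      ((TopCat.toSSet.obj (TopCat.of E)).chainComplex (ModuleCat.of ℤ ℤ)).X n :=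
  (TopCat.toSSet.obj (TopCat.of E)).ιChainComplex
    ((TopCat.toSSetObjEquiv (TopCat.of E) (op ⦋n⦌)).symm σ)

theorem homLinkAux_d {E : Type} [TopologicalSpace E] {n : ℕ} (σ : C(Sx (n + 1), E))
    {T : ModuleCat.{0} ℤ}
    (B : ((TopCat.toSSet.obj (TopCat.of E)).chainComplex (ModuleCat.of ℤ ℤ)).X n ⟶ T) :
    homLinkAux_ch σ ≫
      ((TopCat.toSSet.obj (TopCat.of E)).chainComplex (ModuleCat.of ℤ ℤ)).d (n + 1) n ≫ B =
      cobd (fun τ => homLinkAux_ch τ ≫ B) σ := by
  rw [← Category.assoc, homLinkAux_ch, SSet.ιChainComplex_d, Preadditive.sum_comp]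
  simp only [Preadditive.zsmul_comp]
  rfl

open Limits AlgebraicTopology Simplicial Opposite in
theorem isZero_of_svan (G E : Type) [Group G] [TopologicalSpace E] [MulAction G E]
    [ContinuousConstSMul G E] (k : ℕ)
    (h : ∀ (M : Type) [AddCommGroup M] [DistribMulAction G M], SVan G E M k) :
    Limits.IsZero (((AlgebraicTopology.singularHomologyFunctor (ModuleCat.{0} ℤ) (k + 1)).obj
      (ModuleCat.of ℤ ℤ)).obj (TopCat.of E)) := by
  let K := (TopCat.toSSet.obj (TopCat.of E)).chainComplex (ModuleCat.of ℤ ℤ)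
  change IsZero (K.homology (k + 1))
  obtain ⟨b, hb⟩ := homLinkAux_coind G E k h
    (fun σ => homLinkAux_ch σ ≫ K.pOpcycles (k + 1)) (funext fun σ => by
      rw [← homLinkAux_d, HomologicalComplex.d_pOpcycles, comp_zero]
      rfl)
  let c := Cofan.mk (K.opcycles (k + 1)) fun x =>
    b (TopCat.toSSetObjEquiv (TopCat.of E) (op ⦋k⦌) x)
  let B : K.X k ⟶ K.opcycles (k + 1) :=
    ((TopCat.toSSet.obj (TopCat.of E)).isColimitChainComplexXCofan _ k).desc c
  have h1 : ∀ τ, homLinkAux_ch τ ≫ B = b τ := fun τ => by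
    have := ((TopCat.toSSet.obj (TopCat.of E)).isColimitChainComplexXCofan _ k).fac c
      ⟨(TopCat.toSSetObjEquiv (TopCat.of E) (op ⦋k⦌)).symm τ⟩
    simp only [c, Cofan.mk_ι_app, Equiv.apply_symm_apply] at this
    exact this
  have h2 : K.d (k + 1) k ≫ B = K.pOpcycles (k + 1) := by
    refine SSet.chainComplex_hom_ext fun x => ?_
    have := homLinkAux_d (TopCat.toSSetObjEquiv (TopCat.of E) (op ⦋k + 1⦌) x) B
    simp only [h1] at this
    rw [show (fun τ => b τ) = b from rfl, hb] at this
    simpa only [homLinkAux_ch, Equiv.symm_apply_apply] using this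
  have h3 : K.homologyπ (k + 1) ≫ K.homologyι (k + 1) = 0 := by
    rw [HomologicalComplex.homology_π_ι, ← h2, HomologicalComplex.iCycles_d_assoc, zero_comp]
  rw [IsZero.iff_id_eq_zero, ← cancel_epi (K.homologyπ (k + 1)),
    ← cancel_mono (K.homologyι (k + 1))]
  simpa using h3

end Vale.Agent.P246
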