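import Vale.Agent.P246.Chain

/-! Pulling back a regular covering along a homotopy equivalence. -/

universe u

open ContinuousMap

namespace Vale.Agent.P246

section Aux

open Topology Filter

theorem pullAux_lift {G E X : Type*} [Group G] [TopologicalSpace X] [TopologicalSpace E]
    [MulAction G E] {p : E → X} (hp : IsQuotientCoveringMap p G) {k : C(X, X)}
    (A : (ContinuousMap.id X).Homotopy k) :
    ∃ H : C(unitInterval × E, E), (∀ z, H (0, z) = z) ∧ (∀ z, p (H (1, z)) = k (p z)) ∧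
      ∀ (g : G) s z, H (s, g • z) = g • H (s, z) := by
  have := hp.toContinuousConstSMul
  have cov := hp.isCoveringMap
  let B : C(unitInterval × E, X) :=
    A.toContinuousMap.comp ((ContinuousMap.id _).prodMap ⟨p, cov.continuous⟩)
  have hB : ∀ a, B (0, a) = p (ContinuousMap.id E a) := fun a => A.apply_zero (p a)
  have hl : ∀ s z, p (cov.liftHomotopy B (.id E) hB (s, z)) = A (s, p z) := fun s z =>
    congr_fun (cov.liftHomotopy_lifts B (.id E) hB) (s, z)
  have h0 : ∀ z, cov.liftHomotopy B (.id E) hB (0, z) = z := cov.liftHomotopy_zero B (.id E) hB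
  generalize cov.liftHomotopy B (.id E) hB = H at hl h0
  refine ⟨H, h0, fun z => (hl 1 z).trans (A.apply_one _), fun g s z => ?_⟩
  refine congr_fun (cov.eq_of_comp_eq (g₁ := fun s => H (s, g • z)) (g₂ := fun s => g • H (s, z))
    (by fun_prop) (by fun_prop) (funext fun s => ?_) 0 ?_) s
  · simp only [Function.comp_apply, hp.map_smul, hl]
  · simp only [h0]

theorem pullAux_open {X E : Type} {Y : Type u} [TopologicalSpace X] [TopologicalSpace E]
    [TopologicalSpace Y] {f : Y → X} {p : E → X} (hf : Continuous f) (hp : IsOpenMap p) :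
    IsOpenMap fun z : {z : Y × E // f z.1 = p z.2} => z.1.1 := by
  refine IsOpenMap.of_nhds_le fun z W hW => ?_
  obtain ⟨T, hT, hTW⟩ := (mem_nhds_induced _ _ _).1 (mem_map.1 hW)
  obtain ⟨U, hU, V, hV, hUV⟩ := mem_nhds_prod_iff.1 hT
  have h1 : p '' V ∈ 𝓝 (f z.1.1) := z.2 ▸ hp.image_mem_nhds hV
  filter_upwards [hU, hf.continuousAt h1] with y hy hy'
  obtain ⟨x, hx, hxy⟩ := hy'
  exact hTW (a := ⟨(y, x), hxy.symm⟩) (hUV (Set.mk_mem_prod hy hx))

theorem pullAux_cover {G X E : Type} {Y : Type u} [Group G] [TopologicalSpace X]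
    [TopologicalSpace E] [TopologicalSpace Y] [MulAction G E] {p : E → X}
    (hp : IsQuotientCoveringMap p G) (f : C(Y, X)) :
    ∃ (F : Type u) (_ : TopologicalSpace F) (_ : MulAction G F) (q : F → Y) (r : C(F, E)),
      IsQuotientCoveringMap q G ∧ (∀ (g : G) z, r (g • z) = g • r z) ∧ (∀ z, p (r z) = f (q z)) ∧
      ∀ (a : C(E, Y)) (b : C(E, E)), (∀ x, f (a x) = p (b x)) → (∀ (g : G) x, a (g • x) = a x) →
        (∀ (g : G) x, b (g • x) = g • b x) →
        ∃ v : C(E, F), (∀ x, q (v x) = a x) ∧ ∀ (g : G) x, v (g • x) = g • v x := by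
  have := hp.toContinuousConstSMul
  let act : MulAction G {z : Y × E // f z.1 = p z.2} :=
    { smul := fun g z => ⟨(z.1.1, g • z.1.2), z.2.trans (hp.map_smul g).symm⟩
      one_smul := fun z => Subtype.ext (Prod.ext rfl (one_smul G z.1.2))
      mul_smul := fun g h z => Subtype.ext (Prod.ext rfl (mul_smul g h z.1.2)) }
  have hs : ∀ (g : G) (z : {z : Y × E // f z.1 = p z.2}), (g • z).1 = (z.1.1, g • z.1.2) :=
    fun _ _ => rfl
  refine ⟨{z : Y × E // f z.1 = p z.2}, inferInstance, act, fun z => z.1.1,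
    ⟨fun z => z.1.2, by fun_prop⟩, ?_, fun _ _ => rfl, fun z => z.2.symm, fun a b h ha hb =>
    ⟨⟨fun x => ⟨(a x, b x), h x⟩, by fun_prop⟩, fun _ => rfl, fun g x =>
      Subtype.ext (Prod.ext (ha g x) (hb g x))⟩⟩
  refine
    { toIsQuotientMap := (pullAux_open f.continuous hp.isOpenQuotientMap.isOpenMap).isQuotientMap
        (by fun_prop) fun y => ?_
      continuous_const_smul := fun g => Continuous.subtype_mk (by fun_prop) _
      apply_eq_iff_mem_orbit := fun {z₁ z₂} => ⟨fun h => ?_, ?_⟩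
      disjoint := fun z => ?_ }
  · obtain ⟨x, hx⟩ := hp.surjective (f y)
    exact ⟨⟨(y, x), hx.symm⟩, rfl⟩
  · obtain ⟨g, hg⟩ := hp.apply_eq_iff_mem_orbit.1 (z₁.2.symm.trans ((congrArg f h).trans z₂.2))
    exact ⟨g, Subtype.ext (Prod.ext h.symm hg)⟩
  · rintro ⟨g, rfl⟩
    rfl
  · obtain ⟨U, hU, hg⟩ := hp.disjoint z.1.2
    have hc : Continuous fun w : {z : Y × E // f z.1 = p z.2} => w.1.2 := by fun_prop
    refine ⟨_, hc.continuousAt hU, fun g => ?_⟩
    rintro ⟨_, ⟨w, hw, rfl⟩, hw'⟩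
    exact hg g ⟨_, ⟨w.1.2, hw, rfl⟩, hw'⟩

end Aux

theorem exists_pull {G X E : Type} {Y : Type u} [Group G] [TopologicalSpace X] [TopologicalSpace E]
    [TopologicalSpace Y] [MulAction G E] {p : E → X} (hp : IsQuotientCoveringMap p G)
    (e : X ≃ₕ Y) :
    ∃ (F : Type u) (_ : TopologicalSpace F) (_ : MulAction G F) (_ : ContinuousConstSMul G F)
      (q : F → Y) (u : C(F, E)) (v : C(E, F)) (H : C(unitInterval × F, F)),
      IsQuotientCoveringMap q G ∧ (∀ (g : G) z, u (g • z) = g • u z) ∧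
      (∀ (g : G) z, v (g • z) = g • v z) ∧ (∀ (g : G) s z, H (s, g • z) = g • H (s, z)) ∧
      (∀ z, H (0, z) = z) ∧ ∀ z, H (1, z) = v (u z) := by
  have := hp.toContinuousConstSMul
  obtain ⟨F, _, _, q, r, hq, hr, hpr, hv⟩ := pullAux_cover hp e.invFun
  have := hq.toContinuousConstSMul
  have := hq.isCancelSMul
  obtain ⟨A, -, hA1, hA⟩ := pullAux_lift hp e.left_inv.some.symm
  obtain ⟨H, hH0, hH1, hH⟩ := pullAux_lift hq e.right_inv.some.symm
  obtain ⟨v, hqv, hv⟩ := hv (e.toFun.comp ⟨p, hp.continuous⟩) ⟨fun x => A (1, x), by fun_prop⟩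
    (fun x => (hA1 x).symm) (fun g x => congrArg e.toFun (hp.map_smul g)) fun g x => hA g 1 x
  have hk : ∀ z, q (H (1, z)) = q (v (r z)) := fun z => by
    rw [hH1, hqv]
    exact congrArg e.toFun (hpr z).symm
  choose ζ hζ using fun z => hq.apply_eq_iff_mem_orbit.1 (hk z)
  replace hζ : ∀ z, ζ z • v (r z) = H (1, z) := hζ
  have hc : Continuous fun z => ζ z • r z := by
    refine continuous_iff_continuousAt.2 fun z0 => ?_
    have ho : IsOpen {z | H (1, z) = ζ z0 • v (r z)} :=
      hq.isCoveringMap.isLocalHomeomorph.isLocallyInjective.isOpen_eqLocus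
        (g₁ := fun z => H (1, z)) (g₂ := fun z => ζ z0 • v (r z)) (by fun_prop) (by fun_prop)
        (funext fun z => (hk z).trans (hq.map_smul _).symm)
    have h1 : ContinuousAt (fun z => ζ z0 • r z) z0 := by fun_prop
    refine h1.congr ?_
    filter_upwards [ho.mem_nhds (hζ z0).symm] with z hz
    rw [IsCancelSMul.right_cancel _ _ _ ((hζ z).trans hz)]
  refine ⟨F, inferInstance, inferInstance, inferInstance, q, ⟨_, hc⟩, v, H, hq, fun g z => ?_, hv,
    hH, hH0, fun z => ((hv _ _).trans (hζ z)).symm⟩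
  have h1 : (ζ (g • z) * g) • v (r z) = (g * ζ z) • v (r z) := by
    rw [mul_smul, mul_smul, hζ, ← hH, ← hζ, hr, hv]
  show ζ (g • z) • r (g • z) = g • ζ z • r z
  rw [hr, ← mul_smul, ← mul_smul, IsCancelSMul.right_cancel _ _ _ h1]

theorem simply_of_dom {E F : Type*} [TopologicalSpace E] [TopologicalSpace F]
    [SimplyConnectedSpace E] (u : C(F, E)) (v : C(E, F)) (H : C(unitInterval × F, F))
    (h0 : ∀ z, H (0, z) = z) (h1 : ∀ z, H (1, z) = v (u z)) : SimplyConnectedSpace F := by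
  let K : (ContinuousMap.id F).Homotopy (v.comp u) := ⟨H, h0, h1⟩
  have hj : ∀ z, Joined z (v (u z)) := fun z => ⟨K.evalAt z⟩
  have iso : CategoryTheory.Iso ((FundamentalGroupoid.map u).comp (FundamentalGroupoid.map v))
      (CategoryTheory.Functor.id (FundamentalGroupoid F)) := by
    simpa only [FundamentalGroupoid.map_id, FundamentalGroupoid.map_comp]
      using (CategoryTheory.asIso (FundamentalGroupoidFunctor.homotopicMapsNatIso K)).symm
  have hf : (FundamentalGroupoid.map u).Faithful := CategoryTheory.Functor.Faithful.of_comp_iso iso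
  refine simply_connected_iff_paths_homotopic.2 ⟨⟨⟨v (Classical.arbitrary E)⟩, fun x y => ?_⟩,
    fun x y => ⟨fun a b => ?_⟩⟩
  · exact ((hj x).trans ⟨(PathConnectedSpace.somePath (u x) (u y)).map v.continuous⟩).trans
      (hj y).symm
  · exact (FundamentalGroupoid.map u).map_injective (X := ⟨x⟩) (Y := ⟨y⟩)
      (@Subsingleton.elim (Path.Homotopic.Quotient (u x) (u y)) _ _ _)

end Vale.Agent.P246
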