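import Vale.Agent.P246.Real

/-! The realization covers a finite simplicial complex. -/

namespace Vale.Agent.P246

open Filter Topology Flag.Real

section

variable {G : Type} [Group G] {K : Flag G}

/-- The orbit of a vertex. -/
def rcAux_mk (q : K.V) : MulAction.orbitRel.Quotient G K.V := Quotient.mk'' q

theorem rcAux_mk_eq {q r : K.V} : rcAux_mk q = rcAux_mk r ↔ ∃ g : G, g • r = q :=
  Quotient.eq''

theorem rcAux_mk_smul (g : G) (q : K.V) : rcAux_mk (g • q) = rcAux_mk q :=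
  rcAux_mk_eq.2 ⟨g, rfl⟩

open Classical in
/-- Summation along the orbits. -/
noncomputable def rcAux_pr (e : K.V → ℝ) (a : MulAction.orbitRel.Quotient G K.V) : ℝ :=
  ∑ᶠ q, if rcAux_mk q = a then e q else 0

theorem rcAux_pr_mk (hc : K.Cov) {e : K.V → ℝ} {q₀ q : K.V} (he : ∀ r, e r ≠ 0 → K.R q₀ r)
    (hq : K.R q₀ q) : rcAux_pr e (rcAux_mk q) = e q := by
  unfold rcAux_pr
  rw [finsum_eq_single _ q, if_pos rfl]
  intro r hr
  split_ifs with h
  · by_contra h0
    obtain ⟨g, rfl⟩ := rcAux_mk_eq.1 h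
    exact hr (by rw [hc g q₀ q hq (he _ h0), one_smul])
  · rfl

theorem rcAux_pr_ne {e : K.V → ℝ} {a : MulAction.orbitRel.Quotient G K.V}
    (h : rcAux_pr e a ≠ 0) : ∃ q, rcAux_mk q = a ∧ e q ≠ 0 := by
  by_contra hn
  push Not at hn
  refine h (finsum_eq_zero_of_forall_eq_zero fun q => ?_)
  split_ifs with h1
  · exact hn q h1
  · rfl

theorem rcAux_sum [Fintype (MulAction.orbitRel.Quotient G K.V)] {e : K.V → ℝ}
    (he : (Function.support e).Finite) : ∑ a, rcAux_pr e a = ∑ᶠ q, e q := by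
  classical
  unfold rcAux_pr
  rw [sum_finsum_comm]
  · exact finsum_congr fun q => by simp
  · exact fun a _ => he.subset fun q hq h => hq (by simp [h])

theorem rcAux_smul (g : G) (e : K.Real) : rcAux_pr (g • e).1 = rcAux_pr e.1 := by
  classical
  funext a
  unfold rcAux_pr
  refine Eq.trans (finsum_congr fun q => ?_) (finsum_comp_equiv (MulAction.toPerm g⁻¹))
  rw [MulAction.toPerm_apply, rcAux_mk_smul, smul_val]

open Classical in
theorem rcAux_val (hc : K.Cov) {q₀ : K.V} {e : K.Real} (he : e ∈ star q₀) (r : K.V) :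
    e.1 r = if K.R q₀ r then rcAux_pr e.1 (rcAux_mk r) else 0 := by
  split_ifs with h
  · exact (rcAux_pr_mk hc (star_subset_cstar q₀ he) h).symm
  · by_contra h0
    exact h (star_subset_cstar q₀ he r h0)

theorem rcAux_inj (hc : K.Cov) {q₀ : K.V} {e e' : K.Real} (he : e ∈ star q₀) (he' : e' ∈ star q₀)
    (h : rcAux_pr e.1 = rcAux_pr e'.1) : e = e' :=
  Flag.Real.ext fun r => by rw [rcAux_val hc he, rcAux_val hc he', h]

theorem rcAux_move {q₀ : K.V} {e : K.Real} (h : rcAux_pr e.1 (rcAux_mk q₀) ≠ 0) :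
    ∃ g : G, g • e ∈ star q₀ := by
  obtain ⟨q, h1, h2⟩ := rcAux_pr_ne h
  obtain ⟨g, rfl⟩ := rcAux_mk_eq.1 h1.symm
  exact ⟨g, fun h3 => h2 ((smul_val_smul g e q).symm.trans h3)⟩

theorem rcAux_cont (hc : K.Cov) (a : MulAction.orbitRel.Quotient G K.V) :
    Continuous fun e : K.Real => rcAux_pr e.1 a := by
  refine continuous_iff_continuousAt.2 fun x => ?_
  obtain ⟨q₀, hq⟩ := exists_ne_zero x
  have hU : star q₀ ∈ 𝓝 x := (isOpen_star q₀).mem_nhds hq
  by_cases h : ∃ r, K.R q₀ r ∧ rcAux_mk r = a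
  · obtain ⟨r, hr, rfl⟩ := h
    refine (continuous_coord r).continuousAt.congr ?_
    filter_upwards [hU] with e he
    exact (rcAux_pr_mk hc (star_subset_cstar q₀ he) hr).symm
  · refine (continuousAt_const (y := (0 : ℝ))).congr ?_
    filter_upwards [hU] with e he
    by_contra h0
    obtain ⟨q, h1, h2⟩ := rcAux_pr_ne (Ne.symm h0)
    exact h ⟨q, star_subset_cstar q₀ he q h2, h1⟩

end

theorem exists_cover {G : Type} [Group G] (K : Flag G) (hc : K.Cov) (hf : K.Cofin) :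
    ∃ (P : Type) (_ : Fintype P) (𝒦 : Set (Finset P)) (p : K.Real → geo 𝒦),
      IsQuotientCoveringMap p G := by
  classical
  obtain ⟨s, hs, hs'⟩ := hf
  have hfin : Finite (MulAction.orbitRel.Quotient G K.V) := by
    have := hs.to_subtype
    refine Finite.of_surjective (fun q : s => rcAux_mk q.1) fun a => ?_
    obtain ⟨q, rfl⟩ := Quotient.exists_rep a
    obtain ⟨g, hg⟩ := hs' q
    exact ⟨⟨_, hg⟩, rcAux_mk_smul g q⟩
  let := Fintype.ofFinite (MulAction.orbitRel.Quotient G K.V)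
  let 𝒦 : Set (Finset (MulAction.orbitRel.Quotient G K.V)) :=
    {t | ∃ c : Finset K.V, (∀ a ∈ c, ∀ b ∈ c, K.R a b) ∧ ∀ a ∈ t, ∃ q ∈ c, rcAux_mk q = a}
  let p : K.Real → geo 𝒦 := fun e => ⟨rcAux_pr e.1,
    ⟨fun a => finsum_nonneg fun q => by split_ifs; exacts [e.2.1 q, le_rfl],
      (rcAux_sum e.2.2.1).trans e.2.2.2.1⟩,
    e.2.2.1.toFinset.image rcAux_mk,
    ⟨e.2.2.1.toFinset, fun a ha b hb =>
      e.2.2.2.2 a b (e.2.2.1.mem_toFinset.1 ha) (e.2.2.1.mem_toFinset.1 hb),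
      fun a ha => Finset.mem_image.1 ha⟩, fun a ha => by
      obtain ⟨q, h1, h2⟩ := rcAux_pr_ne ha
      exact Finset.mem_image.2 ⟨q, e.2.2.1.mem_toFinset.2 h2, h1⟩⟩
  have hp : ∀ e, (p e).1 = rcAux_pr e.1 := fun _ => rfl
  have hsm : ∀ (g : G) e, p (g • e) = p e := fun g e => Subtype.ext (rcAux_smul g e)
  have hcont : Continuous p := (continuous_pi (rcAux_cont hc)).subtype_mk _
  have hsurj : Function.Surjective p := by
    rintro ⟨y, hy, t, ⟨c, hc1, hc2⟩, ht⟩
    let e : K.V → ℝ := fun q => if q ∈ c then y (rcAux_mk q) else 0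
    have he : ∀ q, e q ≠ 0 → q ∈ c := fun q hq => by_contra fun h => hq (if_neg h)
    have hfe : (Function.support e).Finite := c.finite_toSet.subset he
    have key : ∀ q ∈ c, rcAux_pr e (rcAux_mk q) = y (rcAux_mk q) := fun q hq =>
      (rcAux_pr_mk hc (fun r hr => hc1 q hq r (he r hr)) (K.refl q)).trans (if_pos hq)
    have hpr : rcAux_pr e = y := by
      funext a
      by_cases h : ∃ q ∈ c, rcAux_mk q = a
      · obtain ⟨q, hq, rfl⟩ := h
        exact key q hq
      · have h1 : y a = 0 := by_contra fun h0 => h (hc2 a (ht a h0))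
        rw [h1]
        by_contra h0
        obtain ⟨q, h2, h3⟩ := rcAux_pr_ne h0
        exact h ⟨q, he q h3, h2⟩
    refine ⟨⟨e, fun q => ?_, hfe, ?_, fun q r hq hr => hc1 q (he q hq) r (he r hr)⟩,
      Subtype.ext hpr⟩
    · simp only [e]
      split_ifs
      exacts [hy.1 _, le_rfl]
    · rw [← rcAux_sum hfe, hpr]
      exact hy.2
  have hopen : IsOpenMap p := by
    refine IsOpenMap.of_sections fun x => ?_
    obtain ⟨q₀, hq⟩ := exists_ne_zero x
    have h1 : ∀ y : geo 𝒦, ∃ e, p e = y ∧ (y.1 (rcAux_mk q₀) ≠ 0 → e ∈ star q₀) := by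
      intro y
      obtain ⟨e, rfl⟩ := hsurj y
      by_cases h : (p e).1 (rcAux_mk q₀) = 0
      · exact ⟨e, rfl, fun h' => absurd h h'⟩
      · obtain ⟨g, hg⟩ := rcAux_move h
        exact ⟨g • e, hsm g e, fun _ => hg⟩
    choose σ hσ hσ' using h1
    have h2 : (p x).1 (rcAux_mk q₀) ≠ 0 := by
      rw [hp, rcAux_pr_mk hc (star_subset_cstar q₀ hq) (K.refl q₀)]
      exact hq
    have h3 : ∀ a, Continuous fun y : geo 𝒦 => y.1 a := fun a =>
      (continuous_apply a).comp continuous_subtype_val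
    refine ⟨σ, ?_, rcAux_inj hc (hσ' _ h2) hq (congrArg Subtype.val (hσ (p x))), hσ⟩
    refine IsInducing.subtypeVal.continuousAt_iff.2 (continuousAt_pi.2 fun r => ?_)
    have h4 : Continuous fun y : geo 𝒦 => if K.R q₀ r then y.1 (rcAux_mk r) else 0 := by
      split_ifs
      exacts [h3 _, continuous_const]
    refine h4.continuousAt.congr ?_
    filter_upwards [(isOpen_ne_fun (h3 (rcAux_mk q₀)) continuous_const).mem_nhds h2] with y hy
    have h5 := rcAux_val hc (hσ' y hy) r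
    rw [← hp, hσ] at h5
    exact h5.symm
  refine ⟨_, this, 𝒦, p,
    { toIsQuotientMap := hopen.isQuotientMap hcont hsurj
      toContinuousConstSMul := inferInstance
      apply_eq_iff_mem_orbit := fun {e₁ e₂} => ⟨fun h => ?_, ?_⟩
      disjoint := fun e => ?_ }⟩
  · obtain ⟨q, hq⟩ := exists_ne_zero e₁
    have h1 : rcAux_pr e₁.1 = rcAux_pr e₂.1 := congrArg Subtype.val h
    obtain ⟨g, hg⟩ := rcAux_move (q₀ := q) (e := e₂) (by
      rw [← h1, rcAux_pr_mk hc (star_subset_cstar q hq) (K.refl q)]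
      exact hq)
    exact ⟨g, rcAux_inj hc hg hq ((rcAux_smul g e₂).trans h1.symm)⟩
  · rintro ⟨g, rfl⟩
    exact hsm g e₂
  · obtain ⟨q, hq⟩ := exists_ne_zero e
    refine ⟨star q, (isOpen_star q).mem_nhds hq, ?_⟩
    rintro g ⟨_, ⟨x, hx, rfl⟩, hx'⟩
    exact hc g q q (K.refl q)
      (star_subset_cstar q hx' _ fun h => hx ((smul_val_smul g x q).symm.trans h))

end Vale.Agent.P246
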