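import Vale.Agent.P246.Real

/-! Simple connectivity of the realization. -/

namespace Vale.Agent.P246

open Set

/-- A group valued evaluation of paths detecting null-homotopic loops. -/
theorem realSimply_ev (X : Type) [TopologicalSpace X] [PathConnectedSpace X] :
    ∃ (Γ : Type) (_ : Group Γ) (ev : ∀ {x y : X}, Path x y → Γ),
      (∀ {x y z : X} (p : Path x y) (q : Path y z), ev (p.trans q) = ev p * ev q) ∧
      (∀ {x y : X} (p q : Path x y), p.Homotopic q → ev p = ev q) ∧
      (∀ {x : X} (p : Path x x), ev p = 1 → p.Homotopic (Path.refl x)) := by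
  obtain ⟨x₀⟩ : Nonempty X := inferInstance
  let b : ∀ x : X, Path.Homotopic.Quotient x₀ x := fun x =>
    Path.Homotopic.Quotient.mk (PathConnectedSpace.somePath x₀ x)
  refine ⟨(FundamentalGroup X x₀)ᵐᵒᵖ, inferInstance, fun {x y} p => MulOpposite.op
    (FundamentalGroup.fromPath (((b x).trans (Path.Homotopic.Quotient.mk p)).trans (b y).symm)),
    fun {x y z} p q => ?_, fun {x y} p q h => ?_, fun {x} p h => ?_⟩
  · rw [← MulOpposite.op_mul, FundamentalGroup.mul_def]
    refine congrArg MulOpposite.op ?_
    change ((b x).trans (Path.Homotopic.Quotient.mk (p.trans q))).trans (b z).symm =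
      (((b x).trans (Path.Homotopic.Quotient.mk p)).trans (b y).symm).trans
        (((b y).trans (Path.Homotopic.Quotient.mk q)).trans (b z).symm)
    rw [Path.Homotopic.Quotient.mk_trans]
    simp only [Path.Homotopic.Quotient.trans_assoc]
    rw [← Path.Homotopic.Quotient.trans_assoc (b y).symm (b y),
      Path.Homotopic.Quotient.symm_trans, Path.Homotopic.Quotient.refl_trans]
  · simp only [Path.Homotopic.Quotient.eq.2 h]
  · have h1 : ((b x).trans (Path.Homotopic.Quotient.mk p)).trans (b x).symm =
        Path.Homotopic.Quotient.refl x₀ := MulOpposite.op_injective h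
    have h2 := congrArg (fun w => ((b x).symm.trans w).trans (b x)) h1
    simp only [Path.Homotopic.Quotient.trans_assoc, Path.Homotopic.Quotient.symm_trans,
      Path.Homotopic.Quotient.trans_refl] at h2
    rw [← Path.Homotopic.Quotient.trans_assoc, Path.Homotopic.Quotient.symm_trans,
      Path.Homotopic.Quotient.refl_trans] at h2
    exact Path.Homotopic.Quotient.eq.1 h2

/-- Local potentials give global potentials along paths. -/
theorem realSimply_glob {X Γ ι : Type*} [TopologicalSpace X] [Group Γ]
    (ev : ∀ {x y : X}, Path x y → Γ)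
    (h1 : ∀ {x y z : X} (p : Path x y) (q : Path y z), ev (p.trans q) = ev p * ev q)
    (h2 : ∀ {x y : X} (p q : Path x y), p.Homotopic q → ev p = ev q)
    (U : ι → Set X) (hU : ∀ i, IsOpen (U i)) (hc : ∀ x, ∃ i, x ∈ U i) (κ : X → Γ)
    (hκ : ∀ i {x y : X} (p : Path x y), (∀ t, p t ∈ U i) → ev p = (κ x)⁻¹ * κ y)
    {x y : X} (γ : Path x y) : ev γ = (κ x)⁻¹ * κ y := by
  obtain ⟨t, t0, tm, ⟨n, tn⟩, ht⟩ := exists_monotone_Icc_subset_open_cover_unitInterval
    (c := fun i => γ ⁻¹' U i) (fun i => (hU i).preimage γ.continuous) fun s _ =>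
      mem_iUnion.2 (hc (γ s))
  have key : ∀ m, ev (γ.subpath 0 (t m)) = (κ (γ 0))⁻¹ * κ (γ (t m)) := by
    intro m
    induction m with
    | zero =>
      obtain ⟨i, hi⟩ := hc (γ 0)
      rw [t0]
      refine hκ i _ fun s => ?_
      rw [Path.subpath_self]
      exact hi
    | succ m ih =>
      obtain ⟨i, hi⟩ := ht m
      rw [← h2 _ _ ⟨Path.Homotopy.subpathTransSubpath γ 0 (t m) (t (m + 1))⟩, h1, ih,
        hκ i (γ.subpath (t m) (t (m + 1))) fun s => ?_]
      · group
      · have : γ.subpath (t m) (t (m + 1)) s ∈ range (γ.subpath (t m) (t (m + 1))) :=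
          mem_range_self s
        rw [Path.range_subpath_of_le _ _ _ (tm m.le_succ)] at this
        obtain ⟨u, hu, e⟩ := this
        rw [← e]
        exact hi hu
  have cast : ∀ {x y x' y' : X} (p : Path x y) (hx : x' = x) (hy : y' = y),
      ev (p.cast hx hy) = ev p := by
    intro x y x' y' p hx hy
    subst hx hy
    rfl
  have := key n
  rw [tn n le_rfl, Path.subpath_zero_one, cast, γ.source, γ.target] at this
  exact this

namespace Flag.Real

variable {G : Type} [Group G] {K : Flag G}

theorem realSimply_toward_mem {q r : K.V} {e : K.Real} {h : e ∈ cstar q} (he : e ∈ cstar r)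
    (hq : K.R r q) (s : unitInterval) : toward q e h s ∈ cstar r := fun a ha => by
  rcases toward_ne_zero ha with ha | rfl
  · exact he a ha
  · exact hq

theorem realSimply_vtx_mem {q r : K.V} (h : K.R q r) : vtx r ∈ cstar q := fun a ha => by
  obtain rfl : a = r := by_contra fun e => ha (vtx_of_ne e)
  exact h

/-- The segment from a point of the closed star to the vertex, as a path. -/
noncomputable def realSimply_seg (q : K.V) (e : K.Real) (h : e ∈ cstar q) : Path e (vtx q) where
  toFun s := toward q e h s
  continuous_toFun := continuous_toward q continuous_const (fun _ => h) continuous_id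
  source' := toward_zero q e h
  target' := toward_one q e h

theorem realSimply_seg_mem {q r : K.V} {e : K.Real} {h : e ∈ cstar q} (he : e ∈ cstar r)
    (hq : K.R r q) (s : unitInterval) : realSimply_seg q e h s ∈ cstar r :=
  realSimply_toward_mem (h := h) he hq s

theorem realSimply_contr (q : K.V) : ContractibleSpace (cstar q : Set K.Real) := by
  rw [contractible_iff_id_nullhomotopic]
  refine ⟨⟨vtx q, realSimply_vtx_mem (K.refl q)⟩, ⟨⟨⟨fun z => ⟨toward q z.2.1 z.2.2 z.1,
    realSimply_toward_mem z.2.2 (K.refl q) z.1⟩, ?_⟩, fun z => ?_, fun z => ?_⟩⟩⟩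
  · exact (continuous_toward q (continuous_subtype_val.comp continuous_snd) (fun z => z.2.2)
      continuous_fst).subtype_mk _
  · exact Subtype.ext (toward_zero q z.1 z.2)
  · exact Subtype.ext (toward_one q z.1 z.2)

/-- Two paths inside a closed star with the same ends are homotopic. -/
theorem realSimply_hom (q : K.V) {x y : K.Real} (p p' : Path x y) (hp : ∀ t, p t ∈ cstar q)
    (hp' : ∀ t, p' t ∈ cstar q) : p.Homotopic p' := by
  haveI := realSimply_contr q
  have hx : x ∈ cstar q := p.source ▸ hp 0
  have hy : y ∈ cstar q := p.target ▸ hp 1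
  let f : ∀ p : Path x y, (∀ t, p t ∈ cstar q) →
      Path (⟨x, hx⟩ : (cstar q : Set K.Real)) ⟨y, hy⟩ := fun p hp =>
    { toFun := fun t => ⟨p t, hp t⟩
      continuous_toFun := p.continuous.subtype_mk _
      source' := Subtype.ext p.source
      target' := Subtype.ext p.target }
  exact (SimplyConnectedSpace.paths_homotopic (f p hp) (f p' hp')).map
    ⟨Subtype.val, continuous_subtype_val⟩

theorem realSimply_trans_mem {X : Type*} [TopologicalSpace X] {s : Set X} {x y z : X}
    {p : Path x y} {q : Path y z} (hp : ∀ t, p t ∈ s) (hq : ∀ t, q t ∈ s) (t : unitInterval) :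
    p.trans q t ∈ s := by
  rw [Path.trans_apply]
  split_ifs
  · exact hp _
  · exact hq _

theorem realSimply_conn (hc : K.Conn) : PathConnectedSpace K.Real := by
  obtain ⟨⟨q₀⟩, hc⟩ := hc
  have h1 : ∀ a b, Joined (vtx a : K.Real) (vtx b) := fun a b => by
    induction hc a b with
    | refl => exact Joined.refl _
    | tail _ h ih => exact ih.trans ⟨realSimply_seg _ _ (realSimply_vtx_mem (K.symm h))⟩
  refine ⟨⟨vtx q₀⟩, fun x y => ?_⟩
  obtain ⟨a, ha⟩ := exists_ne_zero x
  obtain ⟨b, hb⟩ := exists_ne_zero y
  exact Joined.trans ⟨realSimply_seg a x (star_subset_cstar a ha)⟩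
    ((h1 a b).trans (Joined.symm ⟨realSimply_seg b y (star_subset_cstar b hb)⟩))

end Flag.Real

open Flag.Real in
theorem simply_real {G : Type} [Group G] (K : Flag G) (hc : K.Conn) (hp : K.Pot) :
    SimplyConnectedSpace K.Real := by
  classical
  haveI := realSimply_conn hc
  obtain ⟨Γ, _, ev, h1, h2, h3⟩ := realSimply_ev K.Real
  refine simply_connected_iff_loops_nullhomotopic.2 ⟨inferInstance, fun x γ => h3 γ ?_⟩
  have A : ∀ (q : K.V) {e e' : K.Real} (p : Path e e') (hp : ∀ t, p t ∈ cstar q)
      (h : e ∈ cstar q) (h' : e' ∈ cstar q),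
      ev p * ev (realSimply_seg q e' h') = ev (realSimply_seg q e h) := by
    intro q e e' p hp h h'
    rw [← h1]
    exact h2 _ _ (realSimply_hom q _ _
      (realSimply_trans_mem hp fun s => realSimply_seg_mem h' (K.refl q) s)
      fun s => realSimply_seg_mem h (K.refl q) s)
  obtain ⟨h, hh⟩ := hp Γ (fun a b => if k : K.R a b then
      ev (realSimply_seg b (vtx a) (realSimply_vtx_mem (K.symm k))) else 1) (by
    intro a b c hab hbc hac
    simp only [dif_pos hab, dif_pos hbc, dif_pos hac]
    exact A c _ (fun s => realSimply_seg_mem (realSimply_vtx_mem (K.symm hac)) (K.symm hbc) s)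
      _ _)
  have B : ∀ (e : K.Real) (q r : K.V) (hq : e ∈ star q) (hr : e ∈ star r),
      h q * (ev (realSimply_seg q e (star_subset_cstar q hq)))⁻¹ =
        h r * (ev (realSimply_seg r e (star_subset_cstar r hr)))⁻¹ := by
    intro e q r hq hr
    have k : K.R q r := e.2.2.2.2 q r hq hr
    have e1 := hh q r k
    simp only [dif_pos k] at e1
    rw [← A r (realSimply_seg q e (star_subset_cstar q hq))
      (fun s => realSimply_seg_mem (star_subset_cstar r hr) (K.symm k) s)
      (star_subset_cstar r hr) (realSimply_vtx_mem (K.symm k)), e1]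
    group
  choose v hv using fun e : K.Real => exists_ne_zero e
  rw [realSimply_glob ev h1 h2 star isOpen_star (fun e => ⟨v e, hv e⟩)
    (fun e => h (v e) * (ev (realSimply_seg (v e) e (star_subset_cstar _ (hv e))))⁻¹) ?_ γ,
    inv_mul_cancel]
  intro q e e' p hp
  have he : e ∈ star q := p.source ▸ hp 0
  have he' : e' ∈ star q := p.target ▸ hp 1
  rw [B e (v e) q (hv e) he, B e' (v e') q (hv e') he',
    ← A q p (fun t => star_subset_cstar q (hp t)) (star_subset_cstar q he)
      (star_subset_cstar q he')]
  group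

end Vale.Agent.P246
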