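import Vale.Agent.P246.Dom
import Vale.Agent.P246.GeoCW
import Vale.Agent.P246.RealCover
import Vale.Agent.P246.RealSimply
import Vale.Agent.P246.HomLink
import Vale.Agent.P246.Comb
import Vale.Agent.P246.Grp
import Vale.Agent.P246.AlgOf
import Vale.Agent.P246.Pull
import Vale.Agent.P246.Coord
import Vale.Agent.P173.CxOfCW

/-! Assembly. -/

universe u

open Set Topology ContinuousMap

namespace Vale.Agent.P246

theorem main : ∃ (X : Type) (_ : TopologicalSpace X) (_ : T2Space X)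
    (_ : CWComplex (univ : Set X)), RelCWComplex.Finite (univ : Set X) ∧ ConnectedSpace X ∧ D2 X ∧
    ∀ (Y : Type u) [TopologicalSpace Y] [T2Space Y] [CWComplex (univ : Set Y)],
      (∀ n, 2 < n → IsEmpty (RelCWComplex.cell (univ : Set Y) n)) → IsEmpty (X ≃ₕ Y) := by
  obtain ⟨l, h1, h2⟩ := exists_list
  obtain ⟨D⟩ := alg_of_list mu_rel l h1 h2
  let K := D.Q3 mu_rel
  have hcov : K.Cov := D.cov mu_rel
  obtain ⟨P, _, 𝒦, p, hp⟩ := exists_cover K hcov (D.cofin mu_rel)
  have hs := simply_real K (D.conn3 mu_rel mu_surj) (D.pot mu_rel mu_surj mu_ker)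
  have hc : ConnectedSpace (geo 𝒦) := hp.surjective.connectedSpace hp.continuous
  obtain ⟨_, hfin⟩ := geo_cw 𝒦
  have hv : ∀ (M : Type) [AddCommGroup M] [DistribMulAction GG M] (k : ℕ),
      SVan GG K.Real M (k + 2) := fun M _ _ k => svan_of_van K hcov M _ (D.van_high mu_rel M k)
  refine ⟨geo 𝒦, inferInstance, inferInstance, inferInstance, hfin, hc,
    ⟨K.Real, inferInstance, GG, inferInstance, inferInstance, inferInstance, p, hp, hs,
      fun i hi => ?_, fun M _ _ _ => ?_⟩, fun Y _ _ _ hdim => ⟨fun e => ?_⟩⟩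
  · obtain ⟨k, rfl⟩ : ∃ k, i = k + 2 + 1 := ⟨i - 3, by omega⟩
    exact isZero_of_svan GG K.Real (k + 2) fun M _ _ => hv M k
  · let _ : DistribMulAction GG M := DistribMulAction.compHom M (MonoidAlgebra.of ℤ GG)
    exact hv M 0
  · obtain ⟨ψ, h3, h4⟩ := exists_psi
    let _ : DistribMulAction GG ℂ := DistribMulAction.compHom ℂ ψ
    obtain ⟨F, _, _, _, q, u, v, H, hq, hu, hv', hH, h0, h1⟩ := exists_pull hp e
    have := simply_of_dom u v H h0 h1
    have : Nonempty Y := ⟨q (Classical.arbitrary F)⟩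
    obtain ⟨C⟩ := P173.exists_cx Y hdim
    exact h3 (psi_eq_one C hq ψ (fun _ _ => rfl) (svan_of_dom u v hu hv' H hH h0 h1
      (svan_of_van K hcov ℂ 1 (D.van_two mu_rel ℂ (h4 fun _ _ => rfl)))) (by norm_num) mu_pow)

end Vale.Agent.P246
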