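import Vale.Agent.P246.Sq
import Vale.Agent.P173.CxWord

/-! A singular 1-cocycle on the 1-skeleton is determined by its values on the edges. -/

universe u w

namespace Vale.Agent.P246

open P173 Set Topology Filter

section Aux

variable {Y : Type u} [TopologicalSpace Y] (C : Cx.{u, w} Y) {P : Type*} [AddCommGroup P]
  {b : C(Sx 1, Y) → P}

/-- The segment of a curve between two parameters. -/
noncomputable def pathRelAux_seg (Φ : C(ℝ, Y)) (x : ℝ) : C(ℝ, C(unitInterval, Y)) :=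
  ContinuousMap.curry ⟨fun p : ℝ × unitInterval => Φ (x + p.2 * (p.1 - x)), by fun_prop⟩

theorem pathRelAux_seg_apply (Φ : C(ℝ, Y)) (x t : ℝ) (s : unitInterval) :
    pathRelAux_seg Φ x t s = Φ (x + s * (t - x)) := rfl

theorem pathRelAux_mem {K : Set ℝ} (hK : Convex ℝ K) {x t : ℝ} (hx : x ∈ K) (ht : t ∈ K)
    (s : unitInterval) : x + s * (t - x) ∈ K :=
  hK.add_smul_sub_mem hx ht s.2

/-- A curve on the unit interval, extended to the line. -/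
noncomputable def pathRelAux_ext (γ : C(unitInterval, Y)) : C(ℝ, Y) :=
  γ.comp ⟨projIcc 0 1 zero_le_one, continuous_projIcc⟩

theorem pathRelAux_ext_coe (γ : C(unitInterval, Y)) (t : unitInterval) :
    pathRelAux_ext γ t = γ t := by
  simp [pathRelAux_ext]

theorem pathRelAux_lc (hb : ∀ τ : C(Sx 2, Y), (∀ t, τ t ∈ C.S1) → cobd b τ = 0) {O : Set Y}
    (hO : IsClosed (C.S1 \ O)) {ψ : Y → C(unitInterval, Y)}
    (hc : ∀ y ∈ C.S1 ∩ O, ContinuousWithinAt ψ C.S1 y) (h1 : ∀ y ∈ O, ψ y 1 = y)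
    (hS : ∀ y ∈ O, ∀ s, ψ y s ∈ C.S1)
    (h0 : ∀ y ∈ C.S1 ∩ O, ∀ᶠ y' in 𝓝[C.S1] y, ψ y' 0 = ψ y 0)
    (γ : C(unitInterval, Y)) (hγ : ∀ t, γ t ∈ C.S1) :
    LC (γ ⁻¹' O) fun t : unitInterval =>
      b (pth (pathRelAux_seg (pathRelAux_ext γ) 0 t)) - b (pth (ψ (γ t))) := by
  intro t0 ht0
  set Γ := pathRelAux_ext γ with hΓ
  have hΓS : ∀ z, Γ z ∈ C.S1 := fun z => hγ _
  have hΓ0 : Γ t0 ∈ O := by rw [hΓ, pathRelAux_ext_coe]; exact ht0
  have e1 : ∀ᶠ z in 𝓝 (t0 : ℝ), Γ z ∈ O :=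
    (C.cxw_open Γ.continuous hΓS hO).mem_nhds hΓ0
  have e2 : ∀ᶠ z in 𝓝 (t0 : ℝ), ψ (Γ z) 0 = ψ (Γ t0) 0 :=
    C.lc_comp (ψ := fun y => ψ y 0) Γ.continuous hΓS h0 t0 hΓ0
  obtain ⟨ε, hε, hball⟩ := Metric.eventually_nhds_iff_ball.1 (e1.and e2)
  have e3 : ∀ᶠ t : unitInterval in 𝓝 t0, (t : ℝ) ∈ Metric.ball (t0 : ℝ) ε :=
    continuous_subtype_val.continuousAt.eventually (Metric.ball_mem_nhds _ hε)
  filter_upwards [e3] with t ht
  let δ := pathRelAux_seg Γ t0 t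
  have hδ : ∀ s, δ s ∈ O ∧ ψ (δ s) 0 = ψ (Γ t0) 0 := fun s =>
    hball _ (pathRelAux_mem (convex_ball _ _) (Metric.mem_ball_self hε) ht s)
  have hcont : Continuous fun s => ψ (δ s) := continuousOn_univ.1 fun s _ =>
    ContinuousWithinAt.comp (g := ψ) (f := δ) (t := C.S1) (hc (δ s) ⟨hΓS _, (hδ s).1⟩)
      δ.continuous.continuousWithinAt fun s _ => hΓS _
  have d0 : δ 0 = γ t0 := by
    rw [← pathRelAux_ext_coe γ]
    exact (pathRelAux_seg_apply Γ _ _ _).trans (congrArg Γ (by simp))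
  have d1 : δ 1 = γ t := by
    rw [← pathRelAux_ext_coe γ]
    exact (pathRelAux_seg_apply Γ _ _ _).trans (congrArg Γ (by simp))
  have q := pth_square hb (ContinuousMap.uncurry ⟨fun s => ψ (δ s), hcont⟩)
    (fun z => hS _ (hδ z.1).1 z.2) (γb := .const _ (ψ (Γ t0) 0)) (γr := ψ (γ t))
    (γl := ψ (γ t0)) (γt := δ) (fun s => (hδ s).2.symm) (fun s => by rw [← d1]; rfl)
    (fun s => by rw [← d0]; rfl) fun s => (h1 _ (hδ s).1).symm
  rw [pth_const hb (hS _ hΓ0 0) (γ := .const _ (ψ (Γ t0) 0)) fun _ => rfl, zero_add] at q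
  have l := pth_line hb Γ convex_univ (fun z _ => hΓS z) (x := 0) (y := t0) (z := t) trivial trivial
    trivial (γ₁ := pathRelAux_seg Γ 0 t0) (γ₂ := δ) (γ₃ := pathRelAux_seg Γ 0 t) (fun _ => rfl)
    (fun _ => rfl) fun _ => rfl
  show b (pth (pathRelAux_seg Γ 0 t)) - b (pth (ψ (γ t))) =
    b (pth (pathRelAux_seg Γ 0 t0)) - b (pth (ψ (γ t0)))
  rw [← l, q]
  abel

open Classical in
/-- A path along its edge from the vertex chosen by `c` to a point of the 1-skeleton. -/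
noncomputable def pathRelAux_psi (c : ℝ → ℝ) (y : Y) : C(unitInterval, Y) :=
  if h : ∃ p : C.Ed × ℝ, |p.2| < 1 ∧ y = C.ed p.1 p.2 then
    pathRelAux_seg (C.ed h.choose.1) (c h.choose.2) h.choose.2
  else .const _ y

theorem pathRelAux_psi_ed (c : ℝ → ℝ) (e : C.Ed) {t : ℝ} (ht : |t| < 1) :
    pathRelAux_psi C c (C.ed e t) = pathRelAux_seg (C.ed e) (c t) t := by
  have h : ∃ p : C.Ed × ℝ, |p.2| < 1 ∧ C.ed e t = C.ed p.1 p.2 := ⟨(e, t), ht, rfl⟩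
  obtain ⟨h1, h2⟩ := C.ed_inj _ _ _ _ ht h.choose_spec.1 h.choose_spec.2
  rw [pathRelAux_psi, dif_pos h, ← h1, ← h2]

theorem pathRelAux_psi_vx (c : ℝ → ℝ) (a : C.V) :
    pathRelAux_psi C c (C.vx a) = .const _ (C.vx a) := by
  rw [pathRelAux_psi, dif_neg]
  rintro ⟨p, h1, h2⟩
  exact C.vx_ne_ed _ _ _ h1 h2

theorem pathRelAux_one (c : ℝ → ℝ) {y : Y} (hy : y ∈ C.S1) : pathRelAux_psi C c y 1 = y := by
  rcases hy with ⟨a, rfl⟩ | ⟨e, t, ht, rfl⟩
  · rw [pathRelAux_psi_vx]; rfl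
  · rw [pathRelAux_psi_ed C c e ht, pathRelAux_seg_apply]
    simp

theorem pathRelAux_S1 {c : ℝ → ℝ} (hc : ∀ t, c t ∈ Icc (-1 : ℝ) 1) {y : Y} (hy : y ∈ C.S1)
    (s : unitInterval) : pathRelAux_psi C c y s ∈ C.S1 := by
  rcases hy with ⟨a, rfl⟩ | ⟨e, t, ht, rfl⟩
  · rw [pathRelAux_psi_vx]; exact Or.inl ⟨a, rfl⟩
  · rw [pathRelAux_psi_ed C c e ht, pathRelAux_seg_apply]
    exact C.ed_mem_S1 e (pathRelAux_mem (convex_Icc _ _) (hc t)
      ⟨(abs_lt.1 ht).1.le, (abs_lt.1 ht).2.le⟩ s)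

/-- The nearest end of the edge. -/
noncomputable def pathRelAux_c (t : ℝ) : ℝ := if t < 0 then -1 else 1

theorem pathRelAux_neg (e : C.Ed) {t : ℝ} (h1 : -1 ≤ t) (h2 : t < 0) :
    pathRelAux_psi C pathRelAux_c (C.ed e t) = pathRelAux_seg (C.ed e) (-1) t := by
  rcases h1.eq_or_lt with rfl | h1
  · rw [C.ed_src, pathRelAux_psi_vx]
    ext s
    rw [pathRelAux_seg_apply, sub_self, mul_zero, add_zero, C.ed_src]
    rfl
  · rw [pathRelAux_psi_ed C _ e (abs_lt.2 ⟨h1, by linarith⟩), pathRelAux_c, if_pos h2]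

theorem pathRelAux_pos (e : C.Ed) {t : ℝ} (h1 : 0 ≤ t) (h2 : t ≤ 1) :
    pathRelAux_psi C pathRelAux_c (C.ed e t) = pathRelAux_seg (C.ed e) 1 t := by
  rcases h2.eq_or_lt with rfl | h2
  · rw [C.ed_tgt, pathRelAux_psi_vx]
    ext s
    rw [pathRelAux_seg_apply, sub_self, mul_zero, add_zero, C.ed_tgt]
    rfl
  · rw [pathRelAux_psi_ed C _ e (abs_lt.2 ⟨by linarith, h2⟩), pathRelAux_c, if_neg (not_lt.2 h1)]

theorem pathRelAux_key (hb : ∀ τ : C(Sx 2, Y), (∀ t, τ t ∈ C.S1) → cobd b τ = 0) {O : Set Y}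
    (hO : IsClosed (C.S1 \ O)) (hOS : O ⊆ C.S1) {c : ℝ → ℝ} (hc : ∀ t, c t ∈ Icc (-1 : ℝ) 1)
    (h : ∀ e, ∀ t ∈ Icc (-1 : ℝ) 1, C.ed e t ∈ O → ∃ x, ∀ᶠ s in 𝓝[Icc (-1 : ℝ) 1] t,
      pathRelAux_psi C c (C.ed e s) = pathRelAux_seg (C.ed e) x s)
    (γ : C(unitInterval, Y)) (hγ : ∀ t, γ t ∈ C.S1) :
    LC (γ ⁻¹' O) fun t : unitInterval =>
      b (pth (pathRelAux_seg (pathRelAux_ext γ) 0 t)) - b (pth (pathRelAux_psi C c (γ t))) := by
  refine pathRelAux_lc C hb hO (C.cw1 hO _ fun e t ht hm => ?_)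
    (fun y hy => pathRelAux_one C c (hOS hy)) (fun y hy => pathRelAux_S1 C hc (hOS hy))
    (C.lc1 hO (fun y => pathRelAux_psi C c y 0) fun e t ht hm => ?_) γ hγ
  · obtain ⟨x, hx⟩ := h e t ht hm
    exact (pathRelAux_seg (C.ed e) x).continuous.continuousWithinAt.congr_of_eventuallyEq hx
      (hx.self_of_nhdsWithin ht)
  · obtain ⟨x, hx⟩ := h e t ht hm
    filter_upwards [hx] with s hs
    rw [hs, hx.self_of_nhdsWithin ht, pathRelAux_seg_apply, pathRelAux_seg_apply]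
    simp

end Aux

theorem rel_of_cocycle {Y : Type u} [TopologicalSpace Y] (C : Cx.{u, w} Y) {P : Type*}
    [AddCommGroup P] {b : C(Sx 1, Y) → P}
    (hb : ∀ τ : C(Sx 2, Y), (∀ t, τ t ∈ C.S1) → cobd b τ = 0) (f : C.Fa) :
    FreeGroup.lift (fun e => Multiplicative.ofAdd (b (pth (C.epath e)))) (C.rel f) =
      Multiplicative.ofAdd (b (pth (C.loop f))) := by
  have hγ := C.loop_mem_S1 f
  have hs := pathRelAux_key C hb C.isClosed_S1_diff_Us
    (fun y hy => C.Us_union_Uo ▸ Or.inl hy) (c := pathRelAux_c)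
    (fun t => by unfold pathRelAux_c; split_ifs <;> norm_num)
    (fun e t ht hm => by
      rcases lt_or_gt_of_ne ((C.ed_mem_Us_iff e ht).1 hm) with h | h
      · exact ⟨-1, (cxw_neg h).mono fun s hs => pathRelAux_neg C e hs.1 hs.2⟩
      · exact ⟨1, (cxw_pos h).mono fun s hs => pathRelAux_pos C e hs.1 hs.2⟩) _ hγ
  have ho := pathRelAux_key C hb C.isClosed_S1_diff_Uo
    (fun y hy => C.Us_union_Uo ▸ Or.inr hy) (c := fun _ => -1) (fun t => by norm_num)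
    (fun e t ht hm => ⟨-1, (cxw_abs ((C.ed_mem_Uo_iff e ht).1 hm)).mono fun s hs =>
      pathRelAux_psi_ed C _ e hs⟩) _ hγ
  set φ := FreeGroup.lift (fun e => Multiplicative.ofAdd (b (pth (C.epath e)))) with hφ
  have hrel : ∀ y ∈ C.Uo, ∀ A : P,
      Multiplicative.ofAdd (A - b (pth (pathRelAux_psi C pathRelAux_c y))) * (φ (C.lam y))⁻¹ =
        Multiplicative.ofAdd (A - b (pth (pathRelAux_psi C (fun _ => -1) y))) := by
    rintro _ ⟨e, t, ht, rfl⟩ A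
    obtain ⟨h1, h2⟩ := abs_lt.1 ht
    rw [pathRelAux_psi_ed C (fun _ => -1) e ht]
    rcases lt_or_ge t 0 with h | h
    · rw [pathRelAux_neg C e h1.le h, C.lam_ed_neg e h1.le h, map_one, inv_one, mul_one]
    · have l := pth_line hb (C.ed e) (convex_Icc (-1) 1) (fun z hz => C.ed_mem_S1 e hz) (x := -1)
        (y := 1) (z := t) (by norm_num) (by norm_num) ⟨h1.le, h2.le⟩ (γ₁ := C.epath e)
        (γ₂ := pathRelAux_seg (C.ed e) 1 t) (γ₃ := pathRelAux_seg (C.ed e) (-1) t)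
        (fun s => congrArg (C.ed e) (by ring)) (fun _ => rfl) fun _ => rfl
      rw [pathRelAux_pos C e h h2.le, C.lam_ed_pos e h h2, hφ, FreeGroup.lift_apply_of, ← l,
        ← ofAdd_neg, ← ofAdd_add]
      congr 1
      abel
  have hD : C.Dev1 φ (C.loop f) fun t : unitInterval => Multiplicative.ofAdd
      (b (pth (pathRelAux_seg (pathRelAux_ext (C.loop f)) 0 t)) -
        b (pth (pathRelAux_psi C pathRelAux_c (C.loop f t)))) := by
    refine ⟨cxw_map hs Multiplicative.ofAdd, fun t ht => ?_⟩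
    filter_upwards [ho t ht, (C.cxw_open (C.loop f).continuous hγ
      C.isClosed_S1_diff_Uo).mem_nhds ht] with s h1 h2
    rw [hrel _ h2, hrel _ ht, h1]
  rw [← C.rel_spec φ f hD, ← ofAdd_neg, ← ofAdd_add, C.cxw_loop0, C.cxw_loop1]
  have a0 : b (pth (pathRelAux_seg (pathRelAux_ext (C.loop f)) 0 (0 : unitInterval))) = 0 :=
    pth_const hb (hγ 0) fun s => by
      rw [pathRelAux_seg_apply, ← pathRelAux_ext_coe]
      simp
  have a1 : pathRelAux_seg (pathRelAux_ext (C.loop f)) 0 (1 : unitInterval) = C.loop f := by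
    ext s
    rw [pathRelAux_seg_apply, ← pathRelAux_ext_coe]
    simp
  rw [a0, a1]
  congr 1
  abel

end Vale.Agent.P246
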