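import Vale.Agent.P246.Forest

/-! Periods of 1-cocycles on thick circles. -/

namespace Vale.Agent.P246

section Aux

variable {G : Type} [Group G] {L A R L' A' R' : Flag G} {M : Type*} [AddCommGroup M]

/-- The gluing defect of two potentials. -/
def perAux_df (a : A.Hom L) (c : A.Hom R) (f : Tup 1 (dmc a c).V → M) (φL : L.V → M)
    (φR : R.V → M) (x : A.V) : M :=
  φL (a.f x) + f ![.l (a.f x), .m x] - (φR (c.f x) + f ![.r (c.f x), .m x])

variable {a : A.Hom L} {c : A.Hom R}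

theorem perAux_map {a' : A'.Hom L'} {c' : A'.Hom R'} (fL : L.Hom L') (fA : A.Hom A')
    (fR : R.Hom R') (ha : ∀ x, a'.f (fA.f x) = fL.f (a.f x))
    (hc : ∀ x, c'.f (fA.f x) = fR.f (c.f x)) (f : Tup 1 (dmc a' c').V → M) (φL : L'.V → M)
    (φR : R'.V → M) (x : A.V) :
    perAux_df a c ((dmcMap fL fA fR ha hc).pull f) (fun y => φL (fL.f y)) (fun y => φR (fR.f y)) x =
      perAux_df a' c' f φL φR (fA.f x) := by
  rw [perAux_df, perAux_df, Flag.Hom.pull_pair, Flag.Hom.pull_pair, ha, hc]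
  rfl

theorem perAux_ext_m (b : Tup 0 A.V → M) (x : A.V) :
    extM (L := L) (R := R) b (fun _ => .m x) = b fun _ => x := by
  have h : ∃ y : Tup 0 A.V, (fun _ => .m x : Tup 0 (DV L.V A.V R.V)) = tmap .m y :=
    ⟨fun _ => x, rfl⟩
  rw [extM, dif_pos h]
  exact congrArg b (funext fun i => (DV.m.inj (congrFun h.choose_spec i)).symm)

theorem perAux_ext_r (b : Tup 0 A.V → M) (x : R.V) :
    extM (L := L) (R := R) b (fun _ => .r x) = 0 :=
  dif_neg fun ⟨_, h⟩ => DV.noConfusion rfl rfl rfl (heq_of_eq (congrFun h 0))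

theorem perAux_conn_l (b : Tup 0 A.V → M) (x : L.V) (y : A.V) :
    conn a c b ![.l x, .m y] = 0 :=
  if_neg fun ⟨i, _, e⟩ => by
    fin_cases i
    · cases e
    · cases e

theorem perAux_conn_r (b : Tup 0 A.V → M) (x : R.V) (y : A.V) :
    conn a c b ![.r x, .m y] = b fun _ => y :=
  (if_pos ⟨0, x, rfl⟩).trans ((tco_zero_eq _ _).trans
    ((congrArg₂ _ (perAux_ext_m b y) (perAux_ext_r b x)).trans (sub_zero _)))

variable [DistribMulAction G M]

theorem perAux_smul {f : Tup 1 (dmc a c).V → M} (hf : (dmc a c).Eqv f) {φL : L.V → M}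
    {φR : R.V → M} (hL : ∀ (g : G) x, φL (g • x) = g • φL x)
    (hR : ∀ (g : G) x, φR (g • x) = g • φR x) (g : G) (x : A.V) :
    perAux_df a c f φL φR (g • x) = g • perAux_df a c f φL φR x := by
  rw [perAux_df, perAux_df, a.smul, c.smul, hL, hR, smul_sub, smul_add, smul_add, ← hf.pair,
    ← hf.pair]
  rfl

variable {S : Type} [DecidableEq S]

theorem perAux_cay {μ : S → G} {f : Tup 1 (cay μ).flag.V → M} (hf : (cay μ).flag.Coc f)
    {η : S → M} (h : ∀ s, (cay μ).hol f ⟨1, s⟩ = η s) (n : ℕ) (κ : Type) :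
    ∃ φ, (forest G S n κ).flag.APot ((forestCay μ n κ).flag.pull f) φ ∧
      ∀ v, φ (.l v) = v.g • fox μ η v.a.1.1 := by
  refine (forest G S n κ).apot (hf.pull _) (fun g v => mul_smul g _ _) fun e => ?_
  have h1 := (cay μ).hol_smul hf.1 (e.g * FreeGroup.lift μ e.a.1.1.1) ⟨1, e.a.1.1.2⟩
  rw [h, Ind.smul_mk, mul_one] at h1
  rw [Gr.Hom.hol_pull]
  refine h1.trans ?_
  show _ = e.g • fox μ η (e.a.1.1.1 * FreeGroup.of e.a.1.1.2) - e.g • fox μ η e.a.1.1.1
  rw [fox_mul, fox_of, smul_add, add_sub_cancel_left, mul_smul]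

end Aux

namespace Fat

variable {G : Type} [Group G] {S : Type} [DecidableEq S] {M : Type*} [AddCommGroup M]
  [DistribMulAction G M] {μ : S → G} {A B : Fat μ}

theorem perAux_eq {f : Tup 1 A.flag.V → M} (hf : A.flag.Coc f)
    {φT : (forest G S A.LT A.κ).flag.V → M} {φB : (forest G S A.LB A.κ).flag.V → M}
    (hT : Flag.APot _ ((inL A.a A.c).pull f) φT) (hB : Flag.APot _ ((inR A.a A.c).pull f) φB)
    (x : (forest G S A.LB A.ι).flag.V) : perAux_df A.a A.c f φT φB x =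
      ((forestComp A.LB id).f x).g •
        perAux_df A.a A.c f φT φB (A.base ((forestComp A.LB id).f x).a) := by
  rw [← perAux_smul hf.1 hT.1 hB.1]
  refine defect_eq hf hT hB (forest_fibConn _ _ _ _ ?_)
  rw [Flag.Hom.smul]
  exact Ind.ext (mul_one _).symm rfl

theorem perAux_comp (x : (forest G S A.LB A.ι).flag.V) : (forestComp A.LT id).f (A.a.f x) =
    ⟨((forestComp A.LB id).f x).g, A.π ((forestComp A.LB id).f x).a⟩ := by
  rcases x with x | (x | x) | x <;> exact Ind.ext (mul_one _) rfl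

theorem exists_per {f : Tup 1 A.flag.V → M} (hf : A.flag.Coc f) : ∃ m, A.HasPer f m := by
  obtain ⟨φT, hT⟩ := Flag.cob_iff.1 (forest_van A.LT A.κ 0 _ (hf.pull (inL A.a A.c)))
  obtain ⟨φB, hB⟩ := Flag.cob_iff.1 (forest_van A.LB A.κ 0 _ (hf.pull (inR A.a A.c)))
  exact ⟨_, φT, φB, hT, hB, fun _ => rfl⟩

theorem HasPer.cob {f : Tup 1 A.flag.V → M} (hf : A.flag.Coc f) {m : A.ι → M} (h : A.HasPer f m)
    (hm : ∀ j j', A.π j = A.π j' → m j = m j') : A.flag.Cob f := by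
  classical
  obtain ⟨φT, φB, hT, hB, h⟩ := h
  obtain ⟨n, hn⟩ : ∃ n : A.κ → M, ∀ j, n (A.π j) = m j :=
    ⟨fun i => if e : ∃ j, A.π j = i then m e.choose else 0, fun j => by
      have e : ∃ j', A.π j' = A.π j := ⟨j, rfl⟩
      exact (dif_pos e).trans (hm _ _ e.choose_spec)⟩
  have hT' : Flag.APot _ ((inL A.a A.c).pull f) fun x =>
      φT x - ((forestComp A.LT id).f x).g • n ((forestComp A.LT id).f x).a :=
    ⟨fun g x => by
        beta_reduce
        rw [hT.1, Flag.Hom.smul, Ind.smul_g, Ind.smul_a, mul_smul, smul_sub],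
      fun x y hr => by
        have e : (forestComp A.LT id).f x = (forestComp A.LT id).f y := (forestComp _ _).rel hr
        beta_reduce
        rw [hT.2 x y hr, e, sub_sub_sub_cancel_right]⟩
  obtain ⟨φ, h1, -⟩ := apot_dmc hf hT' hB fun x => by
    have h2 := perAux_eq hf hT hB x
    rw [← show _ = perAux_df A.a A.c f φT φB _ from h _, ← hn, perAux_df] at h2
    rw [perAux_comp, ← h2]
    abel
  exact Flag.cob_iff.2 ⟨φ, h1⟩

theorem HasPer.unique {f : Tup 1 A.flag.V → M} {m m' : A.ι → M} (h : A.HasPer f m)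
    (h' : A.HasPer f m') {j j' : A.ι} (e : A.π j = A.π j') : m j - m j' = m' j - m' j' := by
  obtain ⟨φT, φB, hT, hB, h⟩ := h
  obtain ⟨ψT, ψB, gT, gB, h'⟩ := h'
  have h1 := hT.sub_eq gT (forest_fibConn _ _ (A.a.f (A.base j)) (A.a.f (A.base j'))
    (Ind.ext rfl e))
  have h2 := hB.sub_eq gB (forest_fibConn _ _ (A.c.f (A.base j)) (A.c.f (A.base j'))
    (Ind.ext rfl e))
  rw [h, h, h', h', sub_eq_iff_eq_add.1 h1, sub_eq_iff_eq_add.1 h2]
  abel

theorem per_of_cob {f : Tup 1 A.flag.V → M} (h : A.flag.Cob f) : A.HasPer f 0 := by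
  obtain ⟨φ, h⟩ := Flag.cob_iff.1 h
  refine ⟨_, _, h.pull (inL A.a A.c), h.pull (inR A.a A.c), fun j => ?_⟩
  rw [h.2 (.l _) (.m _) ((forest G S A.LT A.κ).flag.refl _),
    h.2 (.r _) (.m _) ((forest G S A.LB A.κ).flag.refl _)]
  exact (sub_eq_zero.2 ((add_sub_cancel _ _).trans (add_sub_cancel _ _).symm)).symm

theorem HasPer.sub {f f' : Tup 1 A.flag.V → M} {m m' : A.ι → M} (h : A.HasPer f m)
    (h' : A.HasPer f' m') : A.HasPer (f - f') (m - m') := by
  obtain ⟨φT, φB, hT, hB, h⟩ := h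
  obtain ⟨ψT, ψB, gT, gB, h'⟩ := h'
  refine ⟨φT - ψT, φB - ψB, ⟨fun g x => ?_, fun x y hr => ?_⟩, ⟨fun g x => ?_, fun x y hr => ?_⟩,
    fun j => ?_⟩
  · rw [Pi.sub_apply, Pi.sub_apply, hT.1, gT.1, smul_sub]
  · rw [Flag.Hom.pull_sub, Pi.sub_apply, Pi.sub_apply, Pi.sub_apply, hT.2 x y hr, gT.2 x y hr,
      sub_sub_sub_comm]
  · rw [Pi.sub_apply, Pi.sub_apply, hB.1, gB.1, smul_sub]
  · rw [Flag.Hom.pull_sub, Pi.sub_apply, Pi.sub_apply, Pi.sub_apply, hB.2 x y hr, gB.2 x y hr,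
      sub_sub_sub_comm]
  · simp only [Pi.sub_apply, h, h']
    abel

theorem HasPer.pull {f : Tup 1 B.flag.V → M} (hf : B.flag.Coc f) {m : B.ι → M} (h : B.HasPer f m)
    (Φ : A.Hom B) : A.HasPer (Φ.flag.pull f)
      fun j => (FreeGroup.lift μ (Φ.g (A.π j)))⁻¹ • m (Φ.jm j) := by
  obtain ⟨φT, φB, hT, hB, h⟩ := h
  refine ⟨_, _,
    hT.pull (forestMap Φ.k (fun i => (FreeGroup.lift μ (Φ.g i))⁻¹) Φ.km Φ.hT).flag,
    hB.pull (forestMap Φ.g (fun i => (FreeGroup.lift μ (Φ.g i))⁻¹) Φ.km Φ.hB).flag, fun j => ?_⟩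
  refine Eq.trans ?_ ((perAux_map _ _ _ _ _ f φT φB (A.base j)).trans (perAux_eq hf hT hB _)).symm
  beta_reduce
  rw [h, ← one_mul (FreeGroup.lift μ (Φ.g (A.π j)))⁻¹]
  rfl

theorem exists_coc (A : Fat μ) (m : A.ι → M) :
    ∃ f : Tup 1 A.flag.V → M, A.flag.Coc f ∧ A.HasPer f m := by
  refine ⟨conn A.a A.c fun x : Tup 0 _ =>
    -(((forestComp A.LB id).f (x 0)).g • m ((forestComp A.LB id).f (x 0)).a),
    conn_coc ⟨fun g x => ?_, fun x hx => ?_⟩, 0, 0, ⟨fun g _ => (smul_zero g).symm, fun x y _ => ?_⟩,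
    ⟨fun g _ => (smul_zero g).symm, fun x y _ => ?_⟩, fun j => ?_⟩
  · beta_reduce
    rw [Pi.smul_apply, Flag.Hom.smul, Ind.smul_g, Ind.smul_a, mul_smul, smul_neg]
  · have e : (forestComp A.LB id).f (x 1) = (forestComp A.LB id).f (x 0) :=
      (forestComp _ _).rel (hx 1 0)
    rw [tco_zero_eq, e, sub_self]
  · exact (if_neg fun ⟨_, _, e⟩ => by cases e).trans (sub_self _).symm
  · refine (if_pos ⟨0, x, rfl⟩).trans ((tco_zero_eq _ _).trans ?_)
    exact congrArg₂ _ (perAux_ext_r _ y) (perAux_ext_r _ x)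
  · rw [perAux_conn_l, perAux_conn_r]
    show m j = 0 + 0 - (0 + -((1 : G) • m j))
    simp

theorem per_toCay (A : Fat μ) {f : Tup 1 (cay μ).flag.V → M} (hf : (cay μ).flag.Coc f)
    {η : S → M} (h : ∀ s, (cay μ).hol f ⟨1, s⟩ = η s) :
    A.HasPer (A.toCay.pull f) fun j => fox μ η (A.y j) := by
  obtain ⟨φT, hT, eT⟩ := perAux_cay hf h A.LT A.κ
  obtain ⟨φB, hB, eB⟩ := perAux_cay hf h A.LB A.κ
  refine ⟨φT, φB, hT, hB, fun j => ?_⟩
  have h1 : φT (A.a.f (A.base j)) = ((1 : G) * 1) • fox μ η (A.y j * 1) := eT _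
  have h2 : φB (A.c.f (A.base j)) = ((1 : G) * 1) • fox μ η (1 * 1) := eB _
  have h3 : A.toCay.f (.l (A.a.f (A.base j))) = A.toCay.f (.m (A.base j)) := rfl
  have h4 : A.toCay.f (.r (A.c.f (A.base j))) = A.toCay.f (.m (A.base j)) :=
    congrArg DV.l (show (1 : G) * 1 * FreeGroup.lift μ (1 * 1) =
      1 * 1 * FreeGroup.lift μ (A.y j * 1) by simp [A.hy])
  rw [h1, h2, Flag.Hom.pull_pair, Flag.Hom.pull_pair, h3, h4, hf.self]
  simp

end Fat

end Vale.Agent.P246
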