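import Vale.Agent.P246.Flag

/-! The geometric realization of a flag complex. -/

open Set

namespace Vale.Agent.P246

variable {G : Type} [Group G]

/-- The geometric realization, with the topology of pointwise convergence. -/
def Flag.Real (K : Flag G) : Type :=
  {e : K.V → ℝ // (∀ q, 0 ≤ e q) ∧ (Function.support e).Finite ∧ ∑ᶠ q, e q = 1 ∧
    ∀ q r, e q ≠ 0 → e r ≠ 0 → K.R q r}

namespace Flag.Real

variable {K : Flag G}

instance : TopologicalSpace K.Real := instTopologicalSpaceSubtype

theorem ext {e e' : K.Real} (h : ∀ q, e.1 q = e'.1 q) : e = e' := Subtype.ext (funext h)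

theorem continuous_coord (q : K.V) : Continuous fun e : K.Real => e.1 q :=
  (continuous_apply q).comp continuous_subtype_val

theorem continuous_iff {B : Type*} [TopologicalSpace B] {f : B → K.Real} :
    Continuous f ↔ ∀ q, Continuous fun b => (f b).1 q :=
  ⟨fun h q => (continuous_coord q).comp h, fun h => (continuous_pi h).subtype_mk _⟩

instance : MulAction G K.Real where
  smul g e := ⟨fun q => e.1 (g⁻¹ • q), fun _ => e.2.1 _,
    e.2.2.1.preimage (MulAction.injective g⁻¹).injOn,
    (finsum_comp_equiv (MulAction.toPerm g⁻¹)).trans e.2.2.2.1, fun q r hq hr => by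
      simpa using K.smul g (e.2.2.2.2 _ _ hq hr)⟩
  one_smul e := ext fun q => congrArg e.1 (by rw [inv_one, one_smul])
  mul_smul g h e := ext fun q => congrArg e.1 (by rw [mul_inv_rev, mul_smul])

theorem smul_val (g : G) (e : K.Real) (q : K.V) : (g • e).1 q = e.1 (g⁻¹ • q) := rfl

theorem smul_val_smul (g : G) (e : K.Real) (q : K.V) : (g • e).1 (g • q) = e.1 q := by
  rw [smul_val, inv_smul_smul]

instance : ContinuousConstSMul G K.Real :=
  ⟨fun _ => continuous_iff.2 fun _ => continuous_coord _⟩

theorem exists_ne_zero (e : K.Real) : ∃ q, e.1 q ≠ 0 := by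
  by_contra h
  push Not at h
  have := e.2.2.2.1
  simp [h] at this

/-- The open star of a vertex. -/
def star (q : K.V) : Set K.Real := {e | e.1 q ≠ 0}

theorem isOpen_star (q : K.V) : IsOpen (star q) :=
  isOpen_ne_fun (continuous_coord q) continuous_const

open Classical in
/-- The affine simplex spanned by a clique. -/
noncomputable def aff {n : ℕ} (x : Tup n K.V) (hx : K.Clq x) : C(Sx n, K.Real) where
  toFun t := ⟨fun q => ∑ i with x i = q, t i, fun _ => Finset.sum_nonneg fun i _ => t.2.1 i,
    (finite_range x).subset fun q hq => by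
      obtain ⟨i, hi, -⟩ := Finset.exists_ne_zero_of_sum_ne_zero hq
      exact ⟨i, (Finset.mem_filter.1 hi).2⟩, by
    rw [finsum_eq_sum_of_support_subset (s := Finset.univ.image x) _ fun q hq => by
      obtain ⟨i, hi, -⟩ := Finset.exists_ne_zero_of_sum_ne_zero hq
      exact Finset.mem_coe.2 (Finset.mem_image.2 ⟨i, Finset.mem_univ i, (Finset.mem_filter.1 hi).2⟩)]
    rw [Finset.sum_fiberwise_of_maps_to fun i _ => Finset.mem_image_of_mem x (Finset.mem_univ i)]
    exact t.2.2, fun q r hq hr => by
    obtain ⟨i, hi, -⟩ := Finset.exists_ne_zero_of_sum_ne_zero hq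
    obtain ⟨j, hj, -⟩ := Finset.exists_ne_zero_of_sum_ne_zero hr
    exact (Finset.mem_filter.1 hi).2 ▸ (Finset.mem_filter.1 hj).2 ▸ hx i j⟩
  continuous_toFun := continuous_iff.2 fun q =>
    continuous_finsetSum (f := fun i (t : Sx n) => t i) {i | x i = q} fun i _ =>
      (continuous_apply i).comp continuous_subtype_val

open Classical in
theorem aff_val {n : ℕ} (x : Tup n K.V) (hx : K.Clq x) (t : Sx n) (q : K.V) :
    (aff x hx t).1 q = ∑ i with x i = q, t i := rfl

theorem mem_range_of_aff {n : ℕ} {x : Tup n K.V} {hx : K.Clq x} {t : Sx n} {q : K.V}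
    (h : (aff x hx t).1 q ≠ 0) : ∃ i, x i = q := by
  rw [aff_val] at h
  obtain ⟨i, hi, -⟩ := Finset.exists_ne_zero_of_sum_ne_zero h
  exact ⟨i, by simpa using hi⟩

open Classical in
/-- The point of a vertex. -/
noncomputable def vtx (q : K.V) : K.Real :=
  ⟨Pi.single q 1, fun r => by rw [Pi.single_apply]; split_ifs <;> norm_num,
    (finite_singleton q).subset Pi.support_single_subset,
    (finsum_eq_single _ q fun _ h => Pi.single_eq_of_ne h _).trans (Pi.single_eq_same _ _),
    fun a b ha hb => by
      obtain rfl : a = q := by_contra fun h => ha (Pi.single_eq_of_ne h _)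
      obtain rfl : b = a := by_contra fun h => hb (Pi.single_eq_of_ne h _)
      exact K.refl _⟩

theorem vtx_self (q : K.V) : (vtx q).1 q = 1 := by simp [vtx]

theorem vtx_of_ne {q r : K.V} (h : r ≠ q) : (vtx q).1 r = 0 := by simp [vtx, h]

theorem smul_vtx (g : G) (q : K.V) : g • vtx q = vtx (g • q) := ext fun r => by
  rw [smul_val]
  by_cases h : r = g • q
  · rw [h, inv_smul_smul, vtx_self, vtx_self]
  · rw [vtx_of_ne h, vtx_of_ne fun e => h (by rw [← e, smul_inv_smul])]

/-- The closed star of a vertex. -/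
def cstar (q : K.V) : Set K.Real := {e | ∀ r, e.1 r ≠ 0 → K.R q r}

theorem star_subset_cstar (q : K.V) : star q ⊆ cstar q := fun e he r hr => e.2.2.2.2 q r he hr

theorem ne_zero_of_mix {a b s : ℝ} (h : (1 - s) * a + s * b ≠ 0) : a ≠ 0 ∨ b ≠ 0 := by
  by_contra h1
  push Not at h1
  simp [h1.1, h1.2] at h

/-- The segment from a point of the closed star to the vertex. -/
noncomputable def toward (q : K.V) (e : K.Real) (h : e ∈ cstar q) (s : unitInterval) : K.Real :=
  ⟨fun r => (1 - s) * e.1 r + s * (vtx q).1 r,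
    fun r => add_nonneg (mul_nonneg (sub_nonneg.2 s.2.2) (e.2.1 r)) (mul_nonneg s.2.1 ((vtx q).2.1 r)),
    (e.2.2.1.union (vtx q).2.2.1).subset fun _ hr => ne_zero_of_mix hr, by
    rw [finsum_add_distrib (e.2.2.1.subset fun r hr => right_ne_zero_of_mul hr)
      ((vtx q).2.2.1.subset fun r hr => right_ne_zero_of_mul hr), ← mul_finsum, ← mul_finsum,
      e.2.2.2.1, (vtx q).2.2.2.1]
    ring, fun a b ha hb => by
    have k : ∀ r, (vtx q).1 r ≠ 0 → r = q := fun r hr => by_contra fun e => hr (vtx_of_ne e)
    rcases ne_zero_of_mix ha with ha | ha <;> rcases ne_zero_of_mix hb with hb | hb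
    · exact e.2.2.2.2 a b ha hb
    · exact k b hb ▸ K.symm (h a ha)
    · exact k a ha ▸ h b hb
    · exact k a ha ▸ k b hb ▸ K.refl _⟩

theorem toward_val (q : K.V) (e : K.Real) (h : e ∈ cstar q) (s : unitInterval) (r : K.V) :
    (toward q e h s).1 r = (1 - s) * e.1 r + s * (vtx q).1 r := rfl

theorem toward_zero (q : K.V) (e : K.Real) (h : e ∈ cstar q) : toward q e h 0 = e :=
  ext fun r => by simp [toward_val]

theorem toward_one (q : K.V) (e : K.Real) (h : e ∈ cstar q) : toward q e h 1 = vtx q :=
  ext fun r => by simp [toward_val]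

theorem toward_ne_zero {q : K.V} {e : K.Real} {h : e ∈ cstar q} {s : unitInterval} {r : K.V}
    (hr : (toward q e h s).1 r ≠ 0) : e.1 r ≠ 0 ∨ r = q :=
  (ne_zero_of_mix hr).imp id fun h => by_contra fun e => h (vtx_of_ne e)

theorem continuous_toward {B : Type*} [TopologicalSpace B] (q : K.V) {f : B → K.Real}
    (hf : Continuous f) (h : ∀ b, f b ∈ cstar q) {s : B → unitInterval} (hs : Continuous s) :
    Continuous fun b => toward q (f b) (h b) (s b) :=
  continuous_iff.2 fun r => by
    have := continuous_iff.1 hf r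
    simp only [toward_val]
    fun_prop

theorem smul_toward (g : G) (q : K.V) (e : K.Real) (h : e ∈ cstar q) (h' : g • e ∈ cstar (g • q))
    (s : unitInterval) : g • toward q e h s = toward (g • q) (g • e) h' s := ext fun r => by
  rw [smul_val, toward_val, toward_val, ← smul_vtx]
  rfl

end Flag.Real

/-- The realization of a finite simplicial complex generated by the faces `𝒦`. -/
def geo {P : Type} [Fintype P] (𝒦 : Set (Finset P)) : Set (P → ℝ) :=
  {y | y ∈ stdSimplex ℝ P ∧ ∃ s ∈ 𝒦, ∀ a, y a ≠ 0 → a ∈ s}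

end Vale.Agent.P246
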