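import Vale.Agent.P246.Chain

/-! Barycentric subdivision of singular chains. -/

open Set

namespace Vale.Agent.P246

section

variable {A B : Type*}

/-- Subdivision of chains of tuples. -/
noncomputable def sdT (b : ∀ n, Tup n A → A) : ∀ n, Ch (Tup n A) →ₗ[ℤ] Ch (Tup n A)
  | 0 => LinearMap.id
  | n + 1 => lin fun x => cone (b _ x) (sdT b n (tbd (sg x)))

/-- The homotopy between subdivision and the identity. -/
noncomputable def sdH (b : ∀ n, Tup n A → A) : ∀ n, Ch (Tup n A) →ₗ[ℤ] Ch (Tup (n + 1) A)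
  | 0 => 0
  | n + 1 => lin fun x => cone (b _ x) (sg x - sdT b (n + 1) (sg x) - sdH b n (tbd (sg x)))

variable (b : ∀ n, Tup n A → A)

theorem sdT_sg (n : ℕ) (x : Tup (n + 1) A) :
    sdT b (n + 1) (sg x) = cone (b _ x) (sdT b n (tbd (sg x))) := lin_sg _ x

theorem sdH_sg (n : ℕ) (x : Tup (n + 1) A) : sdH b (n + 1) (sg x) =
    cone (b _ x) (sg x - sdT b (n + 1) (sg x) - sdH b n (tbd (sg x))) := lin_sg _ x

theorem sdT_tbd (n : ℕ) (c : Ch (Tup (n + 1) A)) : tbd (sdT b (n + 1) c) = sdT b n (tbd c) := by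
  induction n with
  | zero =>
    refine LinearMap.congr_fun (ch_ext (φ := tbd ∘ₗ sdT b 1) (ψ := sdT b 0 ∘ₗ tbd) fun x => ?_) c
    simp only [LinearMap.comp_apply]
    rw [sdT_sg, tbd_cone_zero, sdT, LinearMap.id_apply, aug_tbd, zero_smul, sub_zero]
  | succ n ih =>
    refine LinearMap.congr_fun (ch_ext (φ := tbd ∘ₗ sdT b (n + 2)) (ψ := sdT b (n + 1) ∘ₗ tbd)
      fun x => ?_) c
    simp only [LinearMap.comp_apply]
    rw [sdT_sg, tbd_cone, ih, tbd_tbd, map_zero, map_zero, sub_zero]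

theorem sdH_tbd (n : ℕ) (c : Ch (Tup (n + 1) A)) :
    tbd (sdH b (n + 1) c) + sdH b n (tbd c) = c - sdT b (n + 1) c := by
  induction n with
  | zero =>
    refine LinearMap.congr_fun (ch_ext (φ := tbd ∘ₗ sdH b 1 + sdH b 0 ∘ₗ tbd)
      (ψ := LinearMap.id - sdT b 1) fun x => ?_) c
    simp only [LinearMap.comp_apply, LinearMap.add_apply, LinearMap.sub_apply, LinearMap.id_apply]
    rw [sdH_sg, tbd_cone, map_sub tbd, map_sub tbd, sdT_tbd]
    simp [sdT, sdH]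
  | succ n ih =>
    refine LinearMap.congr_fun (ch_ext (φ := tbd ∘ₗ sdH b (n + 2) + sdH b (n + 1) ∘ₗ tbd)
      (ψ := LinearMap.id - sdT b (n + 2)) fun x => ?_) c
    simp only [LinearMap.comp_apply, LinearMap.add_apply, LinearMap.sub_apply, LinearMap.id_apply]
    have h := ih (tbd (sg x))
    rw [tbd_tbd, map_zero, add_zero] at h
    rw [sdH_sg, tbd_cone, map_sub tbd, map_sub tbd, sdT_tbd, h, sub_self, map_zero, sub_zero,
      sub_add_cancel]

variable {b} {b' : ∀ n, Tup n B → B} {u : A → B}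

theorem sdT_push (h : ∀ n x, u (b n x) = b' n (tmap u x)) (n : ℕ) (c : Ch (Tup n A)) :
    push (tmap u) (sdT b n c) = sdT b' n (push (tmap u) c) := by
  induction n with
  | zero => rfl
  | succ n ih =>
    refine LinearMap.congr_fun (ch_ext (φ := push (tmap u) ∘ₗ sdT b (n + 1))
      (ψ := sdT b' (n + 1) ∘ₗ push (tmap u)) fun x => ?_) c
    simp only [LinearMap.comp_apply]
    rw [sdT_sg, push_cone, ih, push_tbd, push_sg, sdT_sg, h]

theorem sdH_push (h : ∀ n x, u (b n x) = b' n (tmap u x)) (n : ℕ) (c : Ch (Tup n A)) :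
    push (tmap u) (sdH b n c) = sdH b' n (push (tmap u) c) := by
  induction n with
  | zero => exact map_zero _
  | succ n ih =>
    refine LinearMap.congr_fun (ch_ext (φ := push (tmap u) ∘ₗ sdH b (n + 1))
      (ψ := sdH b' (n + 1) ∘ₗ push (tmap u)) fun x => ?_) c
    simp only [LinearMap.comp_apply]
    rw [sdH_sg, push_cone, map_sub (push (tmap u)), map_sub (push (tmap u)), ih, sdT_push h,
      push_tbd, push_sg, sdH_sg, h]

end

variable {n m k : ℕ}

/-- The affine simplex with the given vertices. -/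
noncomputable def sdA (x : Tup n (Sx m)) : C(Sx n, Sx m) :=
  ⟨fun t => ⟨∑ i, t i • (x i).1, (convex_stdSimplex ℝ _).sum_mem (fun i _ => t.2.1 i) t.2.2
    fun i _ => (x i).2⟩, Continuous.subtype_mk (continuous_finsetSum _ fun i _ =>
      ((continuous_apply i).comp continuous_subtype_val).smul continuous_const) _⟩

theorem sdA_val (x : Tup n (Sx m)) (t : Sx n) : (sdA x t).1 = ∑ i, t i • (x i).1 := rfl

theorem sdA_face (i : Fin (n + 2)) (x : Tup (n + 1) (Sx m)) :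
    sdA (tface i x) = face i (sdA x) := by
  refine ContinuousMap.ext fun s => Subtype.ext ?_
  simp only [sdA_val, face, ContinuousMap.comp_apply, ContinuousMap.coe_mk, stdSimplex.map_coe,
    FunOnFinite.linearMap_apply_apply, Finset.sum_smul, tface]
  rw [← Finset.sum_fiberwise Finset.univ i.succAbove fun j => s j • (x (i.succAbove j)).1]
  refine Finset.sum_congr rfl fun j _ => Finset.sum_congr rfl fun k hk => ?_
  rw [(Finset.mem_filter.1 hk).2]

theorem sdA_comp (y : Tup m (Sx k)) (x : Tup n (Sx m)) :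
    (sdA y).comp (sdA x) = sdA (tmap (sdA y) x) := by
  refine ContinuousMap.ext fun s => Subtype.ext ?_
  change ∑ i, (∑ j, s j • (x j).1) i • (y i).1 = ∑ j, s j • ∑ i, (x j).1 i • (y i).1
  simp only [Finset.sum_apply, Finset.sum_smul, Finset.smul_sum, Pi.smul_apply, smul_assoc]
  exact Finset.sum_comm

theorem sdA_vertex (x : Tup n (Sx m)) (i : Fin (n + 1)) : sdA x (stdSimplex.vertex i) = x i := by
  refine Subtype.ext ?_
  simp [sdA_val, Pi.single_apply]

theorem sdA_id : sdA (stdSimplex.vertex : Tup n (Sx n)) = ContinuousMap.id _ := by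
  refine ContinuousMap.ext fun s => Subtype.ext ?_
  change ∑ i, s.1 i • Pi.single i (1 : ℝ) = s.1
  exact (pi_eq_sum_univ' s.1).symm

theorem sdA_dist (x : Tup n (Sx m)) (t : Sx n) (p : Sx m) :
    dist (sdA x t) p ≤ ∑ i, t i * dist (x i) p := by
  have h : (sdA x t).1 - p.1 = ∑ i, t i • ((x i).1 - p.1) := by
    simp only [smul_sub, Finset.sum_sub_distrib, ← Finset.sum_smul, sdA_val]
    rw [show ∑ i, t i = 1 from t.2.2, one_smul]
  rw [Subtype.dist_eq, dist_eq_norm, h]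
  refine norm_sum_le_of_le _ fun i _ => ?_
  rw [norm_smul, Real.norm_of_nonneg (show 0 ≤ t i from t.2.1 i), Subtype.dist_eq, dist_eq_norm]

theorem sdA_dist_le {x : Tup n (Sx m)} (t : Sx n) {p : Sx m} {r : ℝ} (h : ∀ i, dist (x i) p ≤ r) :
    dist (sdA x t) p ≤ r := by
  refine (sdA_dist x t p).trans ((Finset.sum_le_sum fun i _ =>
    mul_le_mul_of_nonneg_left (h i) (t.2.1 i)).trans_eq ?_)
  rw [← Finset.sum_mul, t.2.2, one_mul]

/-- The barycentre. -/
noncomputable def sdB (m n : ℕ) (x : Tup n (Sx m)) : Sx m := sdA x stdSimplex.barycenter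

theorem sdB_dist {x : Tup n (Sx m)} {d : ℝ} (h : ∀ i j, dist (x i) (x j) ≤ d) (t : Sx n) :
    dist (sdA x t) (sdB m n x) ≤ n / (n + 1) * d := by
  refine sdA_dist_le t fun j => ?_
  rw [dist_comm]
  refine (sdA_dist x _ _).trans ?_
  rw [Fin.sum_univ_succAbove _ j, dist_self, mul_zero, zero_add]
  refine (Finset.sum_le_sum fun i _ => mul_le_mul_of_nonneg_left (h _ j)
    ((stdSimplex.barycenter : Sx n).2.1 _)).trans_eq ?_
  simp [stdSimplex.barycenter, div_eq_mul_inv, mul_assoc]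

theorem sdT_mesh {d : ℝ} (x : Tup n (Sx m)) (h : ∀ i j, dist (x i) (x j) ≤ d) :
    sdT (sdB m) n (sg x) ∈ supp {y | (∀ i, y i ∈ range (sdA x)) ∧
      ∀ i j, dist (y i) (y j) ≤ n / (n + 1) * d} := by
  induction n with
  | zero =>
    refine sg_mem_supp ⟨fun i => ⟨_, sdA_vertex x i⟩, fun i j => ?_⟩
    rw [Fin.eq_zero i, Fin.eq_zero j]
    simp
  | succ n ih =>
    have d0 : 0 ≤ d := dist_nonneg.trans (h 0 0)
    have h1 : (n : ℝ) / (n + 1) * d ≤ (n + 1 : ℕ) / ((n + 1 : ℕ) + 1) * d := by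
      refine mul_le_mul_of_nonneg_right ?_ d0
      rw [div_le_div_iff₀ (by positivity) (by positivity)]
      push_cast
      nlinarith
    rw [sdT_sg]
    refine push_mem_supp (s := {y : Tup n (Sx m) | (∀ i, y i ∈ range (sdA x)) ∧
      ∀ i j, dist (y i) (y j) ≤ n / (n + 1) * d}) (fun y hy => ?_)
      (map_mem_of_supp _ _ ?_ (bdf_mem_supp (s := {x}) (t := range fun i => tface i x)
        (fun _ hz i => ⟨i, by rw [hz]⟩) (sg_mem_supp rfl)))
    · refine ⟨fun i => Fin.cases ⟨_, rfl⟩ hy.1 i, fun i j => ?_⟩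
      have h2 : ∀ i, dist (y i) (sdB m _ x) ≤ (n + 1 : ℕ) / ((n + 1 : ℕ) + 1) * d := fun i => by
        obtain ⟨t, ht⟩ := hy.1 i
        exact ht ▸ sdB_dist h t
      refine Fin.cases (Fin.cases ?_ (fun j => ?_) j) (fun i => Fin.cases (h2 i) (fun j => ?_) j) i
      · rw [dist_self]
        positivity
      · exact (dist_comm _ _).trans_le (h2 j)
      · exact (hy.2 i j).trans h1
    · rintro _ ⟨i, rfl⟩
      refine Finsupp.supported_mono (fun y hy => ?_) (ih (tface i x) fun _ _ => h _ _)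
      refine ⟨fun j => ?_, hy.2⟩
      obtain ⟨t, ht⟩ := hy.1 j
      rw [sdA_face] at ht
      exact ⟨_, ht⟩

variable {Z : Type*} [TopologicalSpace Z]

/-- The singular chain of a chain of affine simplices. -/
noncomputable abbrev sdP (σ : C(Sx m, Z)) : Ch (Tup n (Sx m)) →ₗ[ℤ] Ch C(Sx n, Z) :=
  push fun x => σ.comp (sdA x)

theorem sdP_vert (σ : C(Sx n, Z)) : sdP σ (sg stdSimplex.vertex) = sg σ := by
  rw [push_sg, sdA_id, ContinuousMap.comp_id]

theorem sdP_tbd (σ : C(Sx m, Z)) (c : Ch (Tup (n + 1) (Sx m))) :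
    sbd (sdP σ c) = sdP σ (tbd c) :=
  (push_bdf (d := tface) (d' := face) (fun i x => by rw [sdA_face]; rfl) c).symm

theorem sdP_nat (F : ∀ m, Ch (Tup n (Sx m)) →ₗ[ℤ] Ch (Tup k (Sx m)))
    (hF : ∀ (x : Tup n (Sx m)) c, push (tmap (sdA x)) (F n c) = F m (push (tmap (sdA x)) c))
    (σ : C(Sx m, Z)) (c : Ch (Tup n (Sx m))) :
    lin (fun τ : C(Sx n, Z) => sdP τ (F n (sg stdSimplex.vertex))) (sdP σ c) = sdP σ (F m c) := by
  rw [lin_push]
  refine LinearMap.congr_fun (ch_ext (ψ := sdP σ ∘ₗ F m) fun x => ?_) c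
  have h := hF x (sg stdSimplex.vertex)
  rw [push_sg, show tmap (sdA x) stdSimplex.vertex = x from funext (sdA_vertex x)] at h
  rw [lin_sg, LinearMap.comp_apply, ← h, push_push]
  simp only [← sdA_comp]
  rfl

theorem exists_sd (Z : Type*) [TopologicalSpace Z] :
    ∃ (S : ∀ n, Ch C(Sx n, Z) →ₗ[ℤ] Ch C(Sx n, Z))
      (T : ∀ n, Ch C(Sx n, Z) →ₗ[ℤ] Ch C(Sx (n + 1), Z)),
      (∀ n c, sbd (S (n + 1) c) = S n (sbd c)) ∧
      (∀ c, sbd (T 0 c) = c - S 0 c) ∧
      (∀ n c, sbd (T (n + 1) c) + T n (sbd c) = c - S (n + 1) c) ∧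
      (∀ (u : C(Z, Z)) n c, S n (push u.comp c) = push u.comp (S n c)) ∧
      (∀ (u : C(Z, Z)) n c, T n (push u.comp c) = push u.comp (T n c)) ∧
      (∀ n (σ : C(Sx n, Z)), S n (sg σ) ∈ supp {τ : C(Sx n, Z) | range τ ⊆ range σ}) ∧
      (∀ n (σ : C(Sx n, Z)), T n (sg σ) ∈ supp {τ : C(Sx (n + 1), Z) | range τ ⊆ range σ}) ∧
      ∀ 𝒰 : Set (Set Z), (∀ U ∈ 𝒰, IsOpen U) → (∀ z, ∃ U ∈ 𝒰, z ∈ U) →
        ∀ n (σ : C(Sx n, Z)), ∃ m : ℕ, (S n ^ m) (sg σ) ∈ supp {τ | Sm 𝒰 τ} := by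
  obtain ⟨S, hS⟩ : ∃ S : ∀ n, Ch C(Sx n, Z) →ₗ[ℤ] Ch C(Sx n, Z), S = fun n =>
    lin fun τ => sdP τ (sdT (sdB n) n (sg stdSimplex.vertex)) := ⟨_, rfl⟩
  obtain ⟨T, hT⟩ : ∃ T : ∀ n, Ch C(Sx n, Z) →ₗ[ℤ] Ch C(Sx (n + 1), Z), T = fun n =>
    lin fun τ => sdP τ (sdH (sdB n) n (sg stdSimplex.vertex)) := ⟨_, rfl⟩
  have hb : ∀ {n m : ℕ} (x : Tup n (Sx m)) k (y : Tup k (Sx n)),
      sdA x (sdB n k y) = sdB m k (tmap (sdA x) y) := fun x k y =>
    ContinuousMap.congr_fun (sdA_comp x y) _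
  have e1 : ∀ {n m : ℕ} (σ : C(Sx m, Z)) (c : Ch (Tup n (Sx m))),
      S n (sdP σ c) = sdP σ (sdT (sdB m) n c) := fun {n m} σ c => by
    rw [hS]
    exact sdP_nat (fun m => sdT (sdB m) n) (fun x => sdT_push (hb x) n) σ c
  have e2 : ∀ {n m : ℕ} (σ : C(Sx m, Z)) (c : Ch (Tup n (Sx m))),
      T n (sdP σ c) = sdP σ (sdH (sdB m) n c) := fun {n m} σ c => by
    rw [hT]
    exact sdP_nat (fun m => sdH (sdB m) n) (fun x => sdH_push (hb x) n) σ c
  have e3 : ∀ {n m : ℕ} (σ : C(Sx m, Z)) (c : Ch (Tup n (Sx m))),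
      sdP σ c ∈ supp {τ : C(Sx n, Z) | range τ ⊆ range σ} := fun σ c =>
    push_mem_supp (s := univ) (fun x _ => by rintro _ ⟨t, rfl⟩; exact ⟨_, rfl⟩)
      (by simp [Finsupp.supported_univ])
  have e4 : ∀ {n m : ℕ} (u : C(Z, Z)) (σ : C(Sx m, Z)) (c : Ch (Tup n (Sx m))),
      push u.comp (sdP σ c) = sdP (u.comp σ) c := fun u σ c => push_push _ _ c
  refine ⟨S, T, fun n c => ?_, fun c => ?_, fun n c => ?_, fun u n c => ?_, fun u n c => ?_,
    fun n σ => ?_, fun n σ => ?_, fun 𝒰 hU hc n σ => ?_⟩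
  · refine LinearMap.congr_fun (ch_ext (φ := sbd ∘ₗ S (n + 1)) (ψ := S n ∘ₗ sbd) fun σ => ?_) c
    simp only [LinearMap.comp_apply]
    rw [← sdP_vert, e1, sdP_tbd, sdP_tbd, e1, sdT_tbd]
  · refine LinearMap.congr_fun (ch_ext (φ := sbd ∘ₗ T 0) (ψ := LinearMap.id - S 0) fun σ => ?_) c
    simp only [LinearMap.comp_apply, LinearMap.sub_apply, LinearMap.id_apply]
    rw [← sdP_vert, e1, e2, sdT, sdH, LinearMap.zero_apply, map_zero, map_zero, LinearMap.id_apply,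
      sub_self]
  · refine LinearMap.congr_fun (ch_ext (φ := sbd ∘ₗ T (n + 1) + T n ∘ₗ sbd)
      (ψ := LinearMap.id - S (n + 1)) fun σ => ?_) c
    simp only [LinearMap.comp_apply, LinearMap.add_apply, LinearMap.sub_apply, LinearMap.id_apply]
    rw [← sdP_vert, e1, e2, sdP_tbd, sdP_tbd, e2, ← map_add, sdH_tbd, map_sub]
  · refine LinearMap.congr_fun (ch_ext (φ := S n ∘ₗ push u.comp) (ψ := push u.comp ∘ₗ S n)
      fun σ => ?_) c
    simp only [LinearMap.comp_apply]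
    rw [← sdP_vert, e4, e1, e1, e4]
  · refine LinearMap.congr_fun (ch_ext (φ := T n ∘ₗ push u.comp) (ψ := push u.comp ∘ₗ T n)
      fun σ => ?_) c
    simp only [LinearMap.comp_apply]
    rw [← sdP_vert, e4, e2, e2, e4]
  · rw [← sdP_vert, e1]
    exact e3 σ _
  · rw [← sdP_vert, e2]
    exact e3 σ _
  obtain ⟨δ, hδ, h1⟩ := lebesgue_number_lemma_of_metric (c := fun U : 𝒰 => σ ⁻¹' U.1)
    isCompact_univ (fun U => (hU _ U.2).preimage σ.continuous) fun t _ => by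
      obtain ⟨U, h1, h2⟩ := hc (σ t)
      exact mem_iUnion.2 ⟨⟨U, h1⟩, h2⟩
  obtain ⟨D, hD⟩ := Metric.isBounded_iff.1 (isCompact_univ (X := Sx n)).isBounded
  have h2 : ∀ k : ℕ, ∃ c ∈ supp {y : Tup n (Sx n) | ∀ i j,
      dist (y i) (y j) ≤ ((n : ℝ) / (n + 1)) ^ k * D}, (S n ^ k) (sg σ) = sdP σ c := by
    intro k
    induction k with
    | zero => exact ⟨_, sg_mem_supp fun i j => by simpa using hD trivial trivial, (sdP_vert σ).symm⟩
    | succ k ih =>
      obtain ⟨c, h2, h3⟩ := ih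
      refine ⟨sdT (sdB n) n c, map_mem_of_supp _ _ (fun x hx => Finsupp.supported_mono
        (fun y hy i j => ?_) (sdT_mesh x hx)) h2, ?_⟩
      · rw [pow_succ', mul_assoc]
        exact hy.2 i j
      · rw [pow_succ', Module.End.mul_apply, h3, e1]
  have h3 := (tendsto_pow_atTop_nhds_zero_of_lt_one (r := (n : ℝ) / (n + 1)) (by positivity)
    (by rw [div_lt_one (by positivity)]; linarith)).mul_const D
  rw [zero_mul] at h3
  obtain ⟨k, hk⟩ := (h3.eventually_lt_const hδ).exists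
  obtain ⟨c, h4, h5⟩ := h2 k
  refine ⟨k, h5 ▸ push_mem_supp (fun y hy => ?_) h4⟩
  obtain ⟨U, h6⟩ := h1 (y 0) trivial
  exact ⟨U.1, U.2, fun t => h6 ((sdA_dist_le t fun i => hy i 0).trans_lt hk)⟩

end Vale.Agent.P246
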