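import Vale.Agent.P246.Chain

/-! Singular 1-cochains that are cocycles on a subset, evaluated on paths. -/

namespace Vale.Agent.P246

variable {Y P : Type*} [TopologicalSpace Y] [AddCommGroup P] {U : Set Y} {b : C(Sx 1, Y) → P}

theorem sqAux_face (i : Fin 3) (s : Sx 1) (j : Fin 3) :
    (stdSimplex.map i.succAbove s : Sx 2) j =
      if i.succAbove 0 = j then s 0 else if i.succAbove 1 = j then s 1 else 0 := by
  simp only [stdSimplex.map_coe, FunOnFinite.linearMap_apply_apply, Finset.sum_filter,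
    Fin.sum_univ_two]
  fin_cases i <;> fin_cases j <;> simp [Fin.succAbove]

theorem sqAux_tri {W : Type*} [AddCommGroup W] [Module ℝ W] [TopologicalSpace W]
    [ContinuousAdd W] [ContinuousSMul ℝ W]
    (hb : ∀ τ : C(Sx 2, Y), (∀ t, τ t ∈ U) → cobd b τ = 0) (Φ : C(W, Y))
    {K : Set W} (hK : Convex ℝ K) (hΦ : ∀ z ∈ K, Φ z ∈ U) {x y z : W} (hx : x ∈ K) (hy : y ∈ K)
    (hz : z ∈ K) {γ₁ γ₂ γ₃ : C(unitInterval, Y)} (h1 : ∀ s, γ₁ s = Φ (x + (s : ℝ) • (y - x)))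
    (h2 : ∀ s, γ₂ s = Φ (y + (s : ℝ) • (z - y))) (h3 : ∀ s, γ₃ s = Φ (x + (s : ℝ) • (z - x))) :
    b (pth γ₁) + b (pth γ₂) = b (pth γ₃) := by
  have hc : ∀ i, Continuous fun t : Sx 2 => t i := fun i =>
    (continuous_apply i).comp continuous_subtype_val
  let τ : C(Sx 2, Y) := Φ.comp ⟨fun t => t 0 • x + t 1 • y + t 2 • z,
    (((hc 0).smul continuous_const).add ((hc 1).smul continuous_const)).add
      ((hc 2).smul continuous_const)⟩
  have h := hb τ fun t => hΦ _ (by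
    have := hK.sum_mem (t := Finset.univ) (w := t) (z := ![x, y, z]) (fun i _ => t.2.1 i) t.2.2
      fun i _ => by fin_cases i <;> assumption
    simpa [Fin.sum_univ_three] using this)
  have e : ∀ s : Sx 1, s 0 = 1 - s 1 := fun s => eq_sub_of_add_eq (stdSimplex.add_eq_one s)
  have v : ∀ s : Sx 1, (stdSimplexHomeomorphUnitInterval s : ℝ) = s 1 := fun _ => rfl
  have k : ∀ (i : Fin 3) (s : Sx 1), face i τ s =
      Φ ((stdSimplex.map i.succAbove s : Sx 2) 0 • x + (stdSimplex.map i.succAbove s : Sx 2) 1 • y +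
        (stdSimplex.map i.succAbove s : Sx 2) 2 • z) := fun _ _ => rfl
  have f0 : face 0 τ = pth γ₂ := ContinuousMap.ext fun s => by
    refine (k 0 s).trans ((congrArg Φ ?_).trans (h2 _).symm)
    rw [sqAux_face, sqAux_face, sqAux_face, e s]
    simp [Fin.succAbove, v]
    module
  have f1 : face 1 τ = pth γ₃ := ContinuousMap.ext fun s => by
    refine (k 1 s).trans ((congrArg Φ ?_).trans (h3 _).symm)
    rw [sqAux_face, sqAux_face, sqAux_face, e s]
    simp [Fin.succAbove, v]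
    module
  have f2 : face 2 τ = pth γ₁ := ContinuousMap.ext fun s => by
    refine (k 2 s).trans ((congrArg Φ ?_).trans (h1 _).symm)
    rw [sqAux_face, sqAux_face, sqAux_face, e s]
    simp [Fin.succAbove, v]
    module
  rw [cobd_eq, cof_three, f0, f1, f2] at h
  rw [← sub_eq_zero, ← h]
  abel

theorem pth_const (hb : ∀ τ : C(Sx 2, Y), (∀ t, τ t ∈ U) → cobd b τ = 0) {y : Y} (hy : y ∈ U)
    {γ : C(unitInterval, Y)} (h : ∀ s, γ s = y) : b (pth γ) = 0 :=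
  add_eq_left.1 (sqAux_tri (W := ℝ) hb (.const _ y) convex_univ (fun _ _ => hy) (x := 0) (y := 0)
    (z := 0) trivial trivial trivial h h h)

/-- The four sides of a square. -/
theorem pth_square (hb : ∀ τ : C(Sx 2, Y), (∀ t, τ t ∈ U) → cobd b τ = 0)
    (Φ : C(unitInterval × unitInterval, Y)) (hΦ : ∀ z, Φ z ∈ U)
    {γb γr γl γt : C(unitInterval, Y)} (h1 : ∀ s, γb s = Φ (s, 0)) (h2 : ∀ s, γr s = Φ (1, s))
    (h3 : ∀ s, γl s = Φ (0, s)) (h4 : ∀ s, γt s = Φ (s, 1)) :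
    b (pth γb) + b (pth γr) = b (pth γl) + b (pth γt) := by
  let Ψ : C(ℝ × ℝ, Y) := Φ.comp ⟨fun z => (Set.projIcc 0 1 zero_le_one z.1,
    Set.projIcc 0 1 zero_le_one z.2), by fun_prop⟩
  let δ : C(unitInterval, Y) := Φ.comp ⟨fun s => (s, s), by fun_prop⟩
  have a1 := sqAux_tri hb Ψ convex_univ (fun _ _ => hΦ _) (x := (0, 0)) (y := (1, 0)) (z := (1, 1))
    trivial trivial trivial (γ₁ := γb) (γ₂ := γr) (γ₃ := δ) (fun s => by simp [h1, Ψ])
    (fun s => by simp [h2, Ψ]) fun s => by simp [δ, Ψ]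
  have a2 := sqAux_tri hb Ψ convex_univ (fun _ _ => hΦ _) (x := (0, 0)) (y := (0, 1)) (z := (1, 1))
    trivial trivial trivial (γ₁ := γl) (γ₂ := γt) (γ₃ := δ) (fun s => by simp [h3, Ψ])
    (fun s => by simp [h4, Ψ]) fun s => by simp [δ, Ψ]
  rw [a1, a2]

/-- Three segments of a curve. -/
theorem pth_line (hb : ∀ τ : C(Sx 2, Y), (∀ t, τ t ∈ U) → cobd b τ = 0) (Φ : C(ℝ, Y))
    {K : Set ℝ} (hK : Convex ℝ K) (hΦ : ∀ z ∈ K, Φ z ∈ U) {x y z : ℝ} (hx : x ∈ K) (hy : y ∈ K)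
    (hz : z ∈ K) {γ₁ γ₂ γ₃ : C(unitInterval, Y)} (h1 : ∀ s, γ₁ s = Φ (x + s * (y - x)))
    (h2 : ∀ s, γ₂ s = Φ (y + s * (z - y))) (h3 : ∀ s, γ₃ s = Φ (x + s * (z - x))) :
    b (pth γ₁) + b (pth γ₂) = b (pth γ₃) :=
  sqAux_tri hb Φ hK hΦ hx hy hz h1 h2 h3

end Vale.Agent.P246
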